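import Vale.Agent.P179.R2.H872.Prop

/-!
# The number of simple modules over a stable simple module
-/

namespace P179H872

open P179H524 P179C P179A P179R Finset MonoidAlgebra

open P179C.C2 (Om cls phi)

universe u

section count

variable {k : Type u} [Field k] {Γ : Type} [Group Γ] [Fintype Γ] {N : Subgroup Γ} [hN : N.Normal]
  {n : ℕ} {A : MonoidAlgebra k N →ₐ[k] Matrix (Fin n) (Fin n) k}

omit [Fintype Γ] in
theorem snd_mul_scal {a : Γ × (Matrix (Fin n) (Fin n) k)ˣ} (c : kˣ) :
    ((a * scal c).2 : Matrix (Fin n) (Fin n) k) = (c : k) • (a.2 : Matrix (Fin n) (Fin n) k) := by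
  have h1 : ((a * scal c).2 : Matrix (Fin n) (Fin n) k) =
      (a.2 : Matrix (Fin n) (Fin n) k) * algebraMap k (Matrix (Fin n) (Fin n) k) c := rfl
  rw [h1, ← Algebra.commutes, Algebra.smul_def]

/-- the functions in `FB` vanish off the regular elements -/
theorem vanish (p : ℕ) [hp : Fact p.Prime] [IsAlgClosed k] [CharP k p] [NeZero n]
    {c : MonoidAlgebra k N}
    (hA : Function.Surjective A)
    (hker : ∀ a, A a = 0 ↔ a * c ∈ Ring.jacobson (MonoidAlgebra k N))
    {ψ : Γ → k} (hψ : ψ ∈ FB p (inc N c)) {g : Γ} (hg : ¬ IsReg (uhom A) g) : ψ g = 0 := by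
  classical
  unfold IsReg at hg
  push Not at hg
  obtain ⟨a, ha, t, ht, rfl, hm, hne⟩ := hg
  set m : N := ⟨_, hm⟩ with hmd
  -- compare the two intertwiners
  obtain ⟨e, he⟩ := schur (uhom A) (span_uhom hA) (a := nu (uhom A) m * a) (b := t * a * t⁻¹)
    (mul_mem (nu_mem _ _) ha) (mul_mem (mul_mem ht ha) (inv_mem ht)) (by
      rw [Prod.fst_mul, Prod.fst_mul, Prod.fst_mul, nu_fst, Prod.fst_inv, hmd]
      group)
  have he1 : (e : k) ≠ 1 := by
    intro h
    have h1 : e = 1 := Units.ext h
    have h2 : (scal (1 : kˣ) : Γ × (Matrix (Fin n) (Fin n) k)ˣ) = 1 := by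
      simp only [scal, map_one]
      rfl
    rw [h1, h2, mul_one] at he
    exact hne m (by rw [he, mul_inv_cancel_right])
  obtain ⟨κ, hκ⟩ := exists_prop p hA hker hψ ha
  have h1 : ψ (t.1 * a.1 * t.1⁻¹) = ψ a.1 := hψ.1 _ _
  have h2 : t.1 * a.1 * t.1⁻¹ = a.1 * (MulAut.conjNormal a.1⁻¹ m : N) := by
    rw [MulAut.conjNormal_apply, hmd]
    group
  have h3 : a * nu (uhom A) (MulAut.conjNormal a.1⁻¹ m) = nu (uhom A) m * a := by
    have h4 := conj_nu (uhom A) (inv_mem ha) m
    rw [Prod.fst_inv] at h4
    rw [← h4]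
    group
  have h4 : ψ a.1 = κ * (a.2 : Matrix (Fin n) (Fin n) k).trace := by
    have h5 := hκ 1
    rwa [map_one, mul_one, OneMemClass.coe_one, mul_one] at h5
  have h5 : ((t * a * t⁻¹).2 : Matrix (Fin n) (Fin n) k).trace =
      (e : k) * ((nu (uhom A) m * a).2 : Matrix (Fin n) (Fin n) k).trace := by
    rw [he, snd_mul_scal, Matrix.trace_smul, smul_eq_mul]
  rw [trace_conj] at h5
  have h6 : ψ a.1 = (e : k) * ψ a.1 := by
    conv_lhs => rw [h4, h5]
    rw [← h1, h2, hκ, h3]
    ring
  have h7 : (1 - (e : k)) * ψ a.1 = 0 := by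
    rw [sub_mul, one_mul, ← h6, sub_self]
  rcases mul_eq_zero.1 h7 with h8 | h8
  · exact absurd (sub_eq_zero.1 h8).symm he1
  · exact h8

/-- the regular classes of `Γ / N` -/
def RegCls (A : MonoidAlgebra k N →ₐ[k] Matrix (Fin n) (Fin n) k) : Type :=
  {K : ConjClasses (Γ ⧸ N) // ∀ g : Γ, ConjClasses.mk (g : Γ ⧸ N) = K → IsReg (uhom A) g}

omit [Fintype Γ] in
theorem isReg_cls (hex : ∀ x : Γ, ∃ a ∈ IP (uhom A), a.1 = x) {g : Γ} (hg : IsReg (uhom A) g) :
    ∀ h : Γ, ConjClasses.mk (h : Γ ⧸ N) = ConjClasses.mk (g : Γ ⧸ N) → IsReg (uhom A) h := by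
  intro h hh
  rw [ConjClasses.mk_eq_mk_iff_isConj, isConj_comm, isConj_iff] at hh
  obtain ⟨c, hc⟩ := hh
  obtain ⟨c, rfl⟩ := QuotientGroup.mk_surjective c
  have h1 : (c * g * c⁻¹)⁻¹ * h ∈ N := by
    rw [← QuotientGroup.eq]
    exact hc
  have h2 : h = (c * g * c⁻¹) * ((c * g * c⁻¹)⁻¹ * h) := by group
  rw [h2, isReg_mul_iff _ h1, isReg_conj_iff _ hex]
  exact hg

/-- **Clifford theory**: the number of simple modules over a stable simple module of a normal
subgroup of index prime to `p` is the number of regular classes of the quotient. -/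
theorem card_regCls (p : ℕ) [hp : Fact p.Prime] [IsAlgClosed k] [CharP k p] [NeZero n]
    (hidx : ¬ p ∣ N.index) {c : MonoidAlgebra k N} (hc2 : c * c = c)
    (hc : inc N c ∈ Subalgebra.center k (MonoidAlgebra k Γ))
    (hA : Function.Surjective A) (hA1 : A c = 1)
    (hker : ∀ a, A a = 0 ↔ a * c ∈ Ring.jacobson (MonoidAlgebra k N)) :
    numSimpleIn (inc N c) = Nat.card (RegCls A) := by
  classical
  have hex := exists_intertwiner hc hA hker
  obtain ⟨s, h1, h2, h3⟩ := exists_section (uhom A) hex
  have hpsi := psi_mem p hidx hA1 hex h1 h2 h3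
  rw [← finrank_FB p hc (by rw [← map_mul, hc2])]
  have : Finite (RegCls A) := Subtype.finite
  have := Fintype.ofFinite (RegCls A)
  let cl : (g : Γ) → IsReg (uhom A) g → RegCls A := fun g hg =>
    ⟨ConjClasses.mk (g : Γ ⧸ N), isReg_cls hex hg⟩
  -- multiplication of `Ψ` by a function on the classes
  let F : (RegCls A → k) →ₗ[k] FB p (inc N c) :=
    { toFun := fun v => ⟨fun g => if h : IsReg (uhom A) g then v (cl g h) * psi A s g else 0, by
        refine ⟨fun g x => ?_, fun x => ?_, fun y => ?_⟩
        · dsimp only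
          by_cases h : IsReg (uhom A) x
          · have h' : IsReg (uhom A) (g * x * g⁻¹) := (isReg_conj_iff _ hex).2 h
            rw [dif_pos h, dif_pos h', hpsi.1]
            congr 2
            apply Subtype.ext
            change ConjClasses.mk ((g * x * g⁻¹ : Γ) : Γ ⧸ N) = ConjClasses.mk (x : Γ ⧸ N)
            rw [ConjClasses.mk_eq_mk_iff_isConj, isConj_comm, isConj_iff]
            exact ⟨(g : Γ ⧸ N), by simp⟩
          · have h' : ¬ IsReg (uhom A) (g * x * g⁻¹) := fun h'' => h ((isReg_conj_iff _ hex).1 h'')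
            rw [dif_neg h, dif_neg h']
        · dsimp only
          have hpr : (x : Γ ⧸ N) = (pr p x : Γ) := (pr_coset p hidx x).symm
          have hm : x⁻¹ * pr p x ∈ N := QuotientGroup.eq.1 hpr
          have hx : pr p x = x * (x⁻¹ * pr p x) := by group
          have hiff : IsReg (uhom A) (pr p x) ↔ IsReg (uhom A) x := by
            rw [hx, isReg_mul_iff _ hm]
          by_cases h : IsReg (uhom A) x
          · rw [dif_pos h, dif_pos (hiff.2 h), hpsi.2.1]
            congr 2
            apply Subtype.ext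
            change ConjClasses.mk ((pr p x : Γ) : Γ ⧸ N) = ConjClasses.mk (x : Γ ⧸ N)
            rw [hpr]
          · rw [dif_neg h, dif_neg (fun h' => h (hiff.1 h'))]
        · dsimp only
          have := Fintype.ofFinite N
          have hcos : ∀ m : N, (m : Γ) * y = y * (MulAut.conjNormal y⁻¹ m : N) := by
            intro m
            rw [MulAut.conjNormal_apply]
            group
          rw [sum_inc_coeff_mul N c (fun g => if h : IsReg (uhom A) (g * y)
            then v (cl (g * y) h) * psi A s (g * y) else 0)]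
          by_cases h : IsReg (uhom A) y
          · rw [dif_pos h]
            have h4 : ∀ m : N, (if h : IsReg (uhom A) (m * y) then
                v (cl (m * y) h) * psi A s (m * y) else 0) = v (cl y h) * psi A s (m * y) := by
              intro m
              have h5 : IsReg (uhom A) (m * y) := by
                rw [hcos]
                exact h.mul _ _
              rw [dif_pos h5]
              congr 2
              apply Subtype.ext
              change ConjClasses.mk ((m * y : Γ) : Γ ⧸ N) = ConjClasses.mk (y : Γ ⧸ N)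
              rw [hcos, QuotientGroup.mk_mul, (QuotientGroup.eq_one_iff _).2 (Subtype.coe_prop _),
                mul_one]
            rw [Finset.sum_congr rfl fun m _ => by rw [h4 m]]
            have h6 := hpsi.2.2 y
            rw [sum_inc_coeff_mul N c (fun g => psi A s (g * y))] at h6
            conv_rhs => rw [← h6, Finset.mul_sum]
            exact Finset.sum_congr rfl fun m _ => by ring
          · rw [dif_neg h]
            refine Finset.sum_eq_zero fun m _ => ?_
            rw [dif_neg, mul_zero]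
            rw [hcos, isReg_mul_iff _ (Subtype.coe_prop _)]
            exact h⟩
      map_add' := fun v w => by
        apply Subtype.ext
        funext g
        change (if h : IsReg (uhom A) g then (v + w) (cl g h) * psi A s g else 0) =
          (if h : IsReg (uhom A) g then v (cl g h) * psi A s g else 0) +
          (if h : IsReg (uhom A) g then w (cl g h) * psi A s g else 0)
        split_ifs
        · rw [Pi.add_apply, add_mul]
        · rw [add_zero]
      map_smul' := fun t v => by
        apply Subtype.ext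
        funext g
        change (if h : IsReg (uhom A) g then (t • v) (cl g h) * psi A s g else 0) =
          t * (if h : IsReg (uhom A) g then v (cl g h) * psi A s g else 0)
        split_ifs
        · rw [Pi.smul_apply, smul_eq_mul, mul_assoc]
        · rw [mul_zero] }
  have hF : ∀ v g (h : IsReg (uhom A) g), (F v).1 g = v (cl g h) * psi A s g := by
    intro v g h
    exact dif_pos h
  -- `Ψ` does not vanish on a coset
  have hnv : ∀ g, IsReg (uhom A) g → ∃ m : N, psi A s (g * m) ≠ 0 := by
    intro g hg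
    by_contra hcon
    push Not at hcon
    have := Fintype.ofFinite N
    obtain ⟨x, hx⟩ := hA ((((s g).2⁻¹ : (Matrix (Fin n) (Fin n) k)ˣ) :
      Matrix (Fin n) (Fin n) k) * Matrix.single 0 0 1)
    have h4 : ∑ m : N, x.coeff m * psi A s (g * m) =
        (((s g).2 : Matrix (Fin n) (Fin n) k) * A x).trace := by
      rw [apply_eq_sum A x, Finset.mul_sum, Matrix.trace_sum]
      refine Finset.sum_congr rfl fun m _ => ?_
      rw [mul_smul_comm, Matrix.trace_smul, smul_eq_mul]
      congr 1
      unfold psi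
      rw [if_pos (hg.mul _ m), h2 g hg]
      rfl
    rw [hx, ← mul_assoc, Units.mul_inv, one_mul, Matrix.trace_single_eq_same] at h4
    rw [Finset.sum_eq_zero fun m _ => by rw [hcon m, mul_zero]] at h4
    exact zero_ne_one h4
  have hinj : Function.Injective F := by
    rw [injective_iff_map_eq_zero]
    intro v hv
    funext K
    obtain ⟨y, hy⟩ := ConjClasses.exists_rep K.1
    obtain ⟨g, rfl⟩ := QuotientGroup.mk_surjective y
    have hg : IsReg (uhom A) g := K.2 g hy
    obtain ⟨m, hm⟩ := hnv g hg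
    have h4 := hF v (g * m) (hg.mul _ m)
    rw [hv] at h4
    have h5 : cl (g * m) (hg.mul _ m) = K := by
      apply Subtype.ext
      change ConjClasses.mk ((g * m : Γ) : Γ ⧸ N) = K.1
      rw [QuotientGroup.mk_mul, (QuotientGroup.eq_one_iff _).2 m.2, mul_one]
      exact hy
    rw [h5] at h4
    rcases mul_eq_zero.1 h4.symm with h6 | h6
    · exact h6
    · exact absurd h6 hm
  have hsurj : Function.Surjective F := by
    rintro ⟨ψ, hψ⟩
    have h4 : ∀ K : RegCls A, ∃ κ : k, ∀ g : Γ, ConjClasses.mk (g : Γ ⧸ N) = K.1 →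
        ψ g = κ * psi A s g := by
      intro K
      obtain ⟨y, hy⟩ := ConjClasses.exists_rep K.1
      obtain ⟨x, rfl⟩ := QuotientGroup.mk_surjective y
      have hx : IsReg (uhom A) x := K.2 x hy
      obtain ⟨κ, hκ⟩ := exists_prop p hA hker hψ (h1 x).1
      rw [(h1 x).2] at hκ
      refine ⟨κ, fun g hg => ?_⟩
      have hgx : ConjClasses.mk (g : Γ ⧸ N) = ConjClasses.mk (x : Γ ⧸ N) := hg.trans hy.symm
      rw [ConjClasses.mk_eq_mk_iff_isConj, isConj_iff] at hgx
      obtain ⟨t, ht⟩ := hgx
      obtain ⟨t, rfl⟩ := QuotientGroup.mk_surjective t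
      have h5 : x⁻¹ * (t * g * t⁻¹) ∈ N := by
        rw [← QuotientGroup.eq]
        exact ht.symm
      have h6 : t * g * t⁻¹ = x * (⟨_, h5⟩ : N) := by
        change _ = x * (x⁻¹ * (t * g * t⁻¹))
        group
      rw [← hψ.1 t g, ← hpsi.1 t g, h6, hκ, ← h2 x hx]
      unfold psi
      rw [if_pos (hx.mul _ _)]
    choose κ hκ using h4
    refine ⟨κ, ?_⟩
    apply Subtype.ext
    funext g
    by_cases h : IsReg (uhom A) g
    · rw [hF _ g h]
      exact (hκ (cl g h) g rfl).symm
    · have h5 : (F κ).1 g = 0 := dif_neg h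
      rw [h5]
      exact (vanish p hA hker hψ h).symm
  rw [← LinearEquiv.finrank_eq (LinearEquiv.ofBijective F ⟨hinj, hsurj⟩),
    Module.finrank_fintype_fun_eq_card, Nat.card_eq_fintype_card]

/-- **Clifford theory, cyclic case** -/
theorem clifford_count (p : ℕ) [hp : Fact p.Prime] [IsAlgClosed k] [CharP k p]
    (hidx : ¬ p ∣ N.index) {c : MonoidAlgebra k N}
    (hcN : c ∈ Subalgebra.center k (MonoidAlgebra k N)) (hc2 : c * c = c)
    (hc : inc N c ∈ Subalgebra.center k (MonoidAlgebra k Γ)) (hc1 : numSimpleIn c = 1)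
    (hcyc : ∀ x t : Γ, t * x * t⁻¹ * x⁻¹ ∈ N → ∃ z : Γ,
      x ∈ N ⊔ Subgroup.zpowers z ∧ t ∈ N ⊔ Subgroup.zpowers z) :
    numSimpleIn (inc N c) = Nat.card (ConjClasses (Γ ⧸ N)) := by
  classical
  obtain ⟨n, hn, A, hA, hA1, hker⟩ := exists_rho hcN hc2 hc1
  rw [card_regCls p hidx hc2 hc hA hA1 hker]
  have hex := exists_intertwiner hc hA hker
  refine Nat.card_congr (Equiv.subtypeUnivEquiv fun K g _ => ?_)
  intro a ha t ht hag hta
  obtain ⟨z, hz1, hz2⟩ := hcyc a.1 t.1 hta
  exact comm_cyclic (uhom A) (span_uhom hA) hex ha ht hz1 hz2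

end count

end P179H872
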