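import Vale.Agent.P179.R2.H872.Cl
import Vale.Agent.P179.H525.Rot

/-!
# The Fong-Reynolds correspondence for the numbers of simple modules
-/

namespace P179H872

open P179H524 P179C P179A P179R Finset MonoidAlgebra

open P179C.C2 (Om cls phi)

universe u

section fr

variable {k : Type u} [Field k] {G : Type} [Group G] [Fintype G] (T : Subgroup G)

open scoped Classical in
/-- extension by zero -/
noncomputable def ext0 (θ : T → k) (g : G) : k := if h : g ∈ T then θ ⟨g, h⟩ else 0

/-- the value at the coset `s` -/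
noncomputable def cval (θ : T → k) (g : G) (s : G ⧸ T) : k := ext0 T θ (s.out⁻¹ * g * s.out)

/-- induction -/
noncomputable def ind0 [Fintype (G ⧸ T)] (θ : T → k) (g : G) : k := ∑ s : G ⧸ T, cval T θ g s

omit [Fintype G] in
theorem ext0_pos (θ : T → k) {g : G} (h : g ∈ T) : ext0 T θ g = θ ⟨g, h⟩ := dif_pos h

omit [Fintype G] in
theorem ext0_neg (θ : T → k) {g : G} (h : g ∉ T) : ext0 T θ g = 0 := dif_neg h

omit [Fintype G] in
theorem ext0_conj {θ : T → k} (hθ : ∀ g x, θ (g * x * g⁻¹) = θ x) {t : G} (ht : t ∈ T) (g : G) :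
    ext0 T θ (t⁻¹ * g * t) = ext0 T θ g := by
  by_cases h : g ∈ T
  · rw [ext0_pos T θ h, ext0_pos T θ (mul_mem (mul_mem (inv_mem ht) h) ht),
      ← hθ ⟨t, ht⟩⁻¹ ⟨g, h⟩]
    congr 1
    apply Subtype.ext
    change _ = t⁻¹ * g * t⁻¹⁻¹
    rw [inv_inv]
  · have h' : t⁻¹ * g * t ∉ T := by
      intro h'
      apply h
      have : g = t * (t⁻¹ * g * t) * t⁻¹ := by group
      rw [this]
      exact mul_mem (mul_mem ht h') (inv_mem ht)
    rw [ext0_neg T θ h, ext0_neg T θ h']

omit [Fintype G] in
theorem cval_mk {θ : T → k} (hθ : ∀ g x, θ (g * x * g⁻¹) = θ x) (g x : G) :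
    cval T θ g (QuotientGroup.mk x) = ext0 T θ (x⁻¹ * g * x) := by
  obtain ⟨t, ht⟩ := QuotientGroup.mk_out_eq_mul T x
  rw [cval, ht, ← ext0_conj T hθ t.2 (x⁻¹ * g * x)]
  congr 1
  group

omit [Fintype G] in
theorem cval_conj {θ : T → k} (hθ : ∀ g x, θ (g * x * g⁻¹) = θ x) (g h : G) (s : G ⧸ T) :
    cval T θ (h * g * h⁻¹) s = cval T θ g (h⁻¹ • s) := by
  induction s using QuotientGroup.induction_on with
  | H x =>
    rw [cval_mk T hθ]
    change _ = cval T θ g (QuotientGroup.mk (h⁻¹ * x))
    rw [cval_mk T hθ]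
    congr 1
    group

omit [Fintype G] in
theorem ind0_conj [Fintype (G ⧸ T)] {θ : T → k} (hθ : ∀ g x, θ (g * x * g⁻¹) = θ x) (g x : G) :
    ind0 T θ (g * x * g⁻¹) = ind0 T θ x := by
  unfold ind0
  rw [Finset.sum_congr rfl fun s _ => cval_conj T hθ x g s]
  exact Equiv.sum_comp (MulAction.toPerm g⁻¹ : Equiv.Perm (G ⧸ T)) (cval T θ x)

theorem ind0_pr (p : ℕ) [hp : Fact p.Prime] [CharP k p] [Fintype (G ⧸ T)] {θ : T → k}
    (hθ : ∀ g x, θ (g * x * g⁻¹) = θ x) (hθ' : ∀ x, θ (pr p x) = θ x) (g : G) :
    ind0 T θ (pr p g) = ind0 T θ g := by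
  classical
  obtain ⟨v, hv1, hv2, ⟨n, hn⟩, -⟩ := P179C905.pr_decomp p g
  have hve : v = (g ^ prExp p (orderOf g))⁻¹ * g := by
    have h1 : pr p g = g ^ prExp p (orderOf g) := rfl
    rw [← h1]
    exact eq_inv_mul_iff_mul_eq.2 hv1
  let σ : Equiv.Perm (G ⧸ T) := MulAction.toPerm v
  have hσ : σ ^ p ^ n = 1 := by
    have h1 : σ ^ p ^ n = MulAction.toPermHom G (G ⧸ T) (v ^ p ^ n) := by
      rw [map_pow]
      rfl
    rw [h1, hn, map_one]
  have hvg : v⁻¹ * pr p g * v⁻¹⁻¹ = pr p g := by
    rw [inv_inv, mul_assoc, hv2, inv_mul_cancel_left]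
  have hF : ∀ s, cval T θ (pr p g) (σ s) = cval T θ (pr p g) s := by
    intro s
    conv_rhs => rw [← hvg, cval_conj T hθ, inv_inv]
    rfl
  have h1 := sum_eq_sum_fixed p σ n hσ (cval T θ (pr p g)) hF
  unfold ind0
  rw [h1]
  have h2 : ∑ s, cval T θ g s = ∑ s with σ s = s, cval T θ g s := by
    symm
    apply Finset.sum_subset (Finset.filter_subset _ _)
    intro s _ hs
    rw [Finset.mem_filter, not_and] at hs
    have hs' := hs (Finset.mem_univ s)
    induction s using QuotientGroup.induction_on with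
    | H x =>
      rw [cval_mk T hθ]
      apply ext0_neg
      intro h3
      apply hs'
      change (QuotientGroup.mk (v * x) : G ⧸ T) = QuotientGroup.mk x
      rw [eq_comm, QuotientGroup.eq]
      have h4 : x⁻¹ * (v * x) =
          ((x⁻¹ * g * x) ^ prExp p (orderOf g))⁻¹ * (x⁻¹ * g * x) := by
        have h5 : x⁻¹ * g * x = x⁻¹ * g * x⁻¹⁻¹ := by rw [inv_inv]
        rw [h5, conj_pow, hve]
        group
      rw [h4]
      exact mul_mem (inv_mem (pow_mem h3 _)) h3
  rw [h2]
  refine Finset.sum_congr rfl fun s hs => ?_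
  have hs' := (Finset.mem_filter.1 hs).2
  induction s using QuotientGroup.induction_on with
  | H x =>
    rw [cval_mk T hθ, cval_mk T hθ]
    change (QuotientGroup.mk (v * x) : G ⧸ T) = QuotientGroup.mk x at hs'
    rw [eq_comm, QuotientGroup.eq] at hs'
    by_cases h : x⁻¹ * g * x ∈ T
    · have h3 : pr p (x⁻¹ * g * x) = x⁻¹ * pr p g * x := by
        have h4 := Q7.pr_conj p x⁻¹ g (C2.ord_ne g)
        rwa [inv_inv] at h4
      have h4 : ((pr p (⟨_, h⟩ : T) : T) : G) = x⁻¹ * pr p g * x := by
        rw [← h3]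
        exact Q7.map_pr p T.subtype _ (C2.ord_ne _)
      have h5 : x⁻¹ * pr p g * x ∈ T := by
        rw [← h4]
        exact (pr p (⟨_, h⟩ : T)).2
      rw [ext0_pos T θ h, ext0_pos T θ h5, ← hθ' ⟨_, h⟩]
      congr 1
      exact Subtype.ext h4.symm
    · have h5 : x⁻¹ * pr p g * x ∉ T := by
        intro h5
        apply h
        have h6 : x⁻¹ * g * x = (x⁻¹ * pr p g * x) * (x⁻¹ * (v * x)) := by
          conv_lhs => rw [← hv1]
          group
        rw [h6]
        exact mul_mem h5 hs'
      rw [ext0_neg T θ h, ext0_neg T θ h5]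

omit [Fintype G] in
theorem lmap_sum {H : Type} [Group H] [Fintype H] (L : MonoidAlgebra k H →ₗ[k] k)
    (x : MonoidAlgebra k H) : L x = ∑ m : H, x.coeff m * L (single m 1) := by
  conv_lhs => rw [sum_single x]
  rw [map_sum]
  exact Finset.sum_congr rfl fun m _ => by rw [map_smul, smul_eq_mul]

variable {T} {c : MonoidAlgebra k T}

theorem lin_ext0 {θ : T → k} [Fintype T]
    (hθ : ∀ y, ∑ m : T, c.coeff m * θ (m * y) = θ y) (x : MonoidAlgebra k G) :
    lin (ext0 T θ) (inc T c * x) = lin (ext0 T θ) x := by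
  apply lin_mul_of
  intro y
  rw [sum_inc_coeff_mul T c (fun g => ext0 T θ (g * y))]
  by_cases h : y ∈ T
  · rw [ext0_pos T θ h, ← hθ]
    refine Finset.sum_congr rfl fun m _ => ?_
    rw [ext0_pos T θ (mul_mem m.2 h)]
    rfl
  · rw [ext0_neg T θ h]
    refine Finset.sum_eq_zero fun m _ => ?_
    rw [ext0_neg T θ, mul_zero]
    intro h'
    apply h
    have : y = (m : G)⁻¹ * (m * y) := by group
    rw [this]
    exact mul_mem (inv_mem m.2) h'

theorem lin_ind0 [Fintype (G ⧸ T)] (θ : T → k) (x : MonoidAlgebra k G) :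
    lin (ind0 T θ) x =
      ∑ s : G ⧸ T, lin (ext0 T θ) (single s.out⁻¹ 1 * x * single s.out 1) := by
  let F : MonoidAlgebra k G →ₗ[k] k :=
    ∑ s : G ⧸ T, (lin (ext0 T θ)).comp
      ((LinearMap.mulLeft k (single s.out⁻¹ (1 : k))).comp
        (LinearMap.mulRight k (single s.out (1 : k))))
  have hF : ∀ x, F x = ∑ s : G ⧸ T,
      lin (ext0 T θ) (single s.out⁻¹ 1 * x * single s.out 1) := by
    intro x
    simp only [F, LinearMap.sum_apply, LinearMap.comp_apply, LinearMap.mulLeft_apply,
      LinearMap.mulRight_apply, mul_assoc]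
  rw [← hF]
  refine ext_single (f := lin (ind0 T θ)) (g := F) (fun g => ?_) x
  rw [hF, lin_single, one_mul]
  unfold ind0 cval
  refine Finset.sum_congr rfl fun s _ => ?_
  rw [single_mul_single, single_mul_single, lin_single, one_mul, one_mul, one_mul]

/-- restriction to the `c`-part -/
noncomputable def res0 (c : MonoidAlgebra k T) (ψ : G → k) (t : T) : k :=
  lin ψ (inc T c * single (t : G) 1)

theorem res0_eq (c : MonoidAlgebra k T) (ψ : G → k) (t : T) :
    res0 c ψ t = lin ψ (inc T (c * single t 1)) := by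
  rw [map_mul (inc T), inc_single]
  rfl

theorem res0_mem (p : ℕ) [hp : Fact p.Prime] [IsAlgClosed k] [CharP k p] [Fintype T]
    (hcT : c ∈ Subalgebra.center k (MonoidAlgebra k T)) (hc2 : c * c = c) {B : MonoidAlgebra k G}
    {ψ : G → k} (hψ : ψ ∈ FB p B) : res0 c ψ ∈ FB p c := by
  classical
  refine ⟨fun g x => ?_, fun x => ?_, fun y => ?_⟩
  · rw [res0_eq, res0_eq]
    have h1 : c * single (g * x * g⁻¹) 1 = single g 1 * (c * single x 1) * single g⁻¹ 1 := by
      have h2 := (Subalgebra.mem_center_iff.1 hcT) (single g 1)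
      rw [← mul_assoc, h2, mul_assoc c, single_mul_single, mul_assoc c, single_mul_single, one_mul,
        one_mul]
    rw [h1, map_mul (inc T), lin_comm hψ.1, ← map_mul (inc T), ← mul_assoc, single_mul_single,
      inv_mul_cancel, one_mul, ← MonoidAlgebra.one_def, one_mul]
  · -- the regular part
    obtain ⟨r, d, hd, f, hf, hfker⟩ := exists_wedderburn k G
    obtain ⟨cf, hcf⟩ := exists_trFun p f hf hfker hψ.1 hψ.2.1
    unfold res0
    rw [hcf, hcf]
    refine Finset.sum_congr rfl fun i _ => ?_
    congr 1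
    obtain ⟨h3, h4⟩ := Q7.prExp_spec p (C2.ord_ne x)
    have h5 : (pr p x) ^ p ^ (orderOf x).factorization p =
        x ^ p ^ (orderOf x).factorization p := by
      rw [pr, ← pow_mul, pow_eq_pow_iff_modEq]
      have h6 := Nat.ModEq.mul_left' (ordProj[p] (orderOf x)) h4
      rw [mul_one, Nat.ordProj_mul_ordCompl_eq_self] at h6
      rw [mul_comm (prExp p (orderOf x))]
      exact h6
    have hcomm : ∀ t : T, Commute (inc T c) (single (t : G) (1 : k)) := by
      intro t
      have h7 := (Subalgebra.mem_center_iff.1 hcT) (single t 1)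
      have h8 := congrArg (inc T) h7
      rw [map_mul, map_mul, inc_single] at h8
      exact h8.symm
    have hpow : ∀ (x : MonoidAlgebra k G) (N : ℕ), f x i ^ N = f (x ^ N) i := by
      intro x N
      rw [map_pow, Pi.pow_apply]
    apply trace_eq_of_pow p _ _ _ ((orderOf x).factorization p)
    · rw [hpow, hpow, (hcomm _).mul_pow, (hcomm _).mul_pow, single_pow, single_pow]
      have h9 : ((pr p x : T) : G) ^ p ^ (orderOf x).factorization p =
          (x : G) ^ p ^ (orderOf x).factorization p := by
        have := congrArg (Subtype.val) h5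
        simpa using this
      rw [h9]
    · have h10 : Commute (single ((pr p x : T) : G) (1 : k)) (single (x : G) 1) := by
        have h11 : (pr p x) * x = x * pr p x := by
          unfold pr
          rw [← pow_succ, ← pow_succ']
        rw [Commute, SemiconjBy, single_mul_single, single_mul_single]
        have h12 := congrArg (Subtype.val) h11
        simp only [Subgroup.coe_mul] at h12
        rw [h12]
      have h13 : Commute (inc T c * single ((pr p x : T) : G) (1 : k))
          (inc T c * single (x : G) 1) :=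
        Commute.mul_left (Commute.mul_right (Commute.refl _) (hcomm _))
          (Commute.mul_right (hcomm _).symm h10)
      exact congrFun (h13.map f) i
  · have h1 : ∀ m : T, res0 c ψ (m * y) = lin ψ (inc T (c * (single m 1 * single y 1))) := by
      intro m
      rw [res0_eq, single_mul_single, one_mul]
    rw [Finset.sum_congr rfl fun m _ => by rw [h1 m]]
    have h2 : ∑ m : T, c.coeff m * lin ψ (inc T (c * (single m 1 * single y 1))) =
        lin ψ (inc T (c * (c * single y 1))) := by
      let L : MonoidAlgebra k T →ₗ[k] k :=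
        (lin ψ).comp ((inc T).toLinearMap.comp ((LinearMap.mulLeft k c).comp
          (LinearMap.mulRight k (single y (1 : k)))))
      have hL : ∀ x, L x = lin ψ (inc T (c * (x * single y 1))) := fun x => rfl
      simp only [← hL]
      exact (lmap_sum L c).symm
    rw [h2, ← mul_assoc, hc2, res0_eq]

/-- **the Fong-Reynolds correspondence** -/
theorem fong_reynolds (p : ℕ) [hp : Fact p.Prime] [IsAlgClosed k] [CharP k p]
    (hcT : c ∈ Subalgebra.center k (MonoidAlgebra k T)) (hc2 : c * c = c) {B : MonoidAlgebra k G}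
    (hB : B ∈ Subalgebra.center k (MonoidAlgebra k G)) (hB2 : B * B = B)
    (h0 : ∀ g, g ∉ T → inc T c * single g 1 * inc T c = 0)
    (h1 : B = ∑ᶠ s : G ⧸ T, conjBy s.out (inc T c)) : numSimpleIn B = numSimpleIn c := by
  classical
  have := Fintype.ofFinite T
  have := Fintype.ofFinite (G ⧸ T)
  rw [finsum_eq_sum_of_fintype] at h1
  unfold conjBy at h1
  have hcomm : ∀ t : T, inc T c * single (t : G) (1 : k) = single (t : G) 1 * inc T c := by
    intro t
    have h7 := (Subalgebra.mem_center_iff.1 hcT) (single t 1)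
    have h8 := congrArg (inc T) h7
    rw [map_mul, map_mul, inc_single] at h8
    exact h8.symm
  have hcc : inc T c * inc T c = inc T c := by rw [← map_mul, hc2]
  -- `c` times a conjugate
  have hmul : ∀ s : G ⧸ T, inc T c * (single s.out 1 * inc T c * single s.out⁻¹ 1) =
      if s = (QuotientGroup.mk 1 : G ⧸ T) then inc T c else 0 := by
    intro s
    split_ifs with hs
    · have h2 : s.out ∈ T := by
        have h3 : (QuotientGroup.mk s.out : G ⧸ T) = QuotientGroup.mk 1 := by
          rw [← hs]
          exact Quotient.out_eq' s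
        rw [eq_comm, QuotientGroup.eq] at h3
        simpa using h3
      have h4 := hcomm ⟨_, h2⟩
      change inc T c * single s.out 1 = single s.out 1 * inc T c at h4
      rw [← h4, ← mul_assoc, ← mul_assoc, hcc, mul_assoc, single_mul_single, mul_inv_cancel,
        one_mul, ← MonoidAlgebra.one_def, mul_one]
    · have h2 : s.out ∉ T := by
        intro h3
        apply hs
        have h4 : (QuotientGroup.mk s.out : G ⧸ T) = s := Quotient.out_eq' s
        rw [← h4, eq_comm, QuotientGroup.eq]
        simpa using h3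
      rw [← mul_assoc, ← mul_assoc, h0 _ h2, zero_mul]
  have hcB : inc T c * B = inc T c := by
    rw [h1, Finset.mul_sum, Finset.sum_congr rfl fun s _ => hmul s, Finset.sum_ite_eq' _ _,
      if_pos (Finset.mem_univ _)]
  rw [← finrank_FB p hB hB2, ← finrank_FB p hcT hc2]
  let F : FB p B →ₗ[k] FB p c :=
    { toFun := fun ψ => ⟨res0 c ψ.1, res0_mem p hcT hc2 ψ.2⟩
      map_add' := fun a b => by
        apply Subtype.ext
        funext t
        change lin (a.1 + b.1) _ = lin a.1 _ + lin b.1 _
        simp only [lin_apply, Pi.add_apply, mul_add, Finset.sum_add_distrib]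
      map_smul' := fun a b => by
        apply Subtype.ext
        funext t
        change lin (a • b.1) _ = a * lin b.1 _
        simp only [lin_apply, Pi.smul_apply, smul_eq_mul, Finset.mul_sum]
        exact Finset.sum_congr rfl fun g _ => by ring }
  refine LinearEquiv.finrank_eq (LinearEquiv.ofBijective F ⟨?_, ?_⟩)
  · rw [injective_iff_map_eq_zero]
    rintro ⟨ψ, hψ⟩ h2
    apply Subtype.ext
    funext g
    have h3 : ∀ t : T, lin ψ (inc T c * single (t : G) 1) = 0 := fun t =>
      congrFun (congrArg Subtype.val h2) t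
    have h4 : ∀ y : G, lin ψ (inc T c * single y 1) = 0 := by
      intro y
      by_cases hy : y ∈ T
      · exact h3 ⟨y, hy⟩
      · rw [← hcc, mul_assoc, lin_comm hψ.1, h0 y hy, map_zero]
    have h5 : ψ g = lin ψ (B * single g 1) := by
      rw [lin_mul_of hψ.2.2, lin_single, one_mul]
    change ψ g = 0
    rw [h5, h1, Finset.sum_mul, map_sum]
    refine Finset.sum_eq_zero fun s _ => ?_
    rw [mul_assoc, mul_assoc, lin_comm hψ.1, mul_assoc, single_mul_single, single_mul_single,
      one_mul, one_mul]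
    exact h4 _
  · rintro ⟨θ, hθ⟩
    have hind : ind0 T θ ∈ FB p B := by
      refine ⟨ind0_conj T hθ.1, ind0_pr T p hθ.1 hθ.2.1, fun y => ?_⟩
      rw [← lin_mul_single, lin_ind0]
      have h2 : ∀ s : G ⧸ T, lin (ext0 T θ) (single s.out⁻¹ 1 * (B * single y 1) * single s.out 1) =
          lin (ext0 T θ) (single s.out⁻¹ 1 * single y 1 * single s.out 1) := by
        intro s
        have h3 : single s.out⁻¹ 1 * (B * single y 1) * single s.out 1 =
            B * (single s.out⁻¹ (1 : k) * single y 1 * single s.out 1) := by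
          rw [← mul_assoc, (Subalgebra.mem_center_iff.1 hB) (single s.out⁻¹ 1), mul_assoc, mul_assoc,
            mul_assoc]
        rw [h3, ← lin_ext0 hθ.2.2, ← mul_assoc, hcB, lin_ext0 hθ.2.2]
      rw [Finset.sum_congr rfl fun s _ => h2 s, ← lin_ind0, lin_single, one_mul]
    refine ⟨⟨ind0 T θ, hind⟩, ?_⟩
    apply Subtype.ext
    funext t
    change lin (ind0 T θ) (inc T c * single (t : G) 1) = θ t
    rw [lin_ind0]
    have h2 : ∀ s : G ⧸ T, lin (ext0 T θ) (single s.out⁻¹ 1 * (inc T c * single (t : G) 1) *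
        single s.out 1) = if s = (QuotientGroup.mk 1 : G ⧸ T) then θ t else 0 := by
      intro s
      split_ifs with hs
      · have h2 : s.out ∈ T := by
          have h3 : (QuotientGroup.mk s.out : G ⧸ T) = QuotientGroup.mk 1 := by
            rw [← hs]
            exact Quotient.out_eq' s
          rw [eq_comm, QuotientGroup.eq] at h3
          simpa using h3
        have h4 := hcomm ⟨_, inv_mem h2⟩
        change inc T c * single s.out⁻¹ 1 = single s.out⁻¹ 1 * inc T c at h4
        rw [← mul_assoc, ← h4, mul_assoc, mul_assoc, lin_ext0 hθ.2.2, ← mul_assoc,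
          single_mul_single, single_mul_single, lin_single, one_mul, one_mul, one_mul,
          ext0_conj T hθ.1 h2, ext0_pos T θ t.2]
      · have h2 : s.out⁻¹ ∉ T := by
          intro h3
          apply hs
          have h4 : (QuotientGroup.mk s.out : G ⧸ T) = s := Quotient.out_eq' s
          rw [← h4, eq_comm, QuotientGroup.eq]
          simpa using h3
        rw [← lin_ext0 hθ.2.2, ← mul_assoc, ← mul_assoc, ← mul_assoc, h0 _ h2, zero_mul, zero_mul,
          map_zero]
    rw [Finset.sum_congr rfl fun s _ => h2 s, Finset.sum_ite_eq' _ _,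
      if_pos (Finset.mem_univ _)]

end fr

end P179H872
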