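import Vale.Agent.P179.H524.Wr1

/-!
# The number of simple modules in a central idempotent as the dimension of a space of functions
on the group
-/

namespace P179H872

open P179H524 P179C P179A P179R Finset MonoidAlgebra

open P179C.C2 (Om cls phi)

universe u

section linear

variable {k : Type u} [Field k] {G : Type} [Group G] [Fintype G]

/-- the linear functional with values `ψ` on the group elements -/
noncomputable def lin (ψ : G → k) : MonoidAlgebra k G →ₗ[k] k where
  toFun x := ∑ g : G, x.coeff g * ψ g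
  map_add' x y := by
    simp only [MonoidAlgebra.coeff_add, Finsupp.add_apply, add_mul, Finset.sum_add_distrib]
  map_smul' c x := by
    simp only [MonoidAlgebra.coeff_smul, Finsupp.smul_apply, smul_eq_mul, RingHom.id_apply,
      Finset.mul_sum, mul_assoc]

theorem lin_apply (ψ : G → k) (x : MonoidAlgebra k G) :
    lin ψ x = ∑ g : G, x.coeff g * ψ g := rfl

theorem lin_single (ψ : G → k) (g : G) (a : k) : lin ψ (single g a) = a * ψ g := by
  classical
  rw [lin_apply, Finset.sum_eq_single g]
  · rw [coeff_single, Finsupp.single_eq_same]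
  · intro h _ hh
    rw [coeff_single, Finsupp.single_eq_of_ne hh, zero_mul]
  · intro h
    exact absurd (Finset.mem_univ g) h

theorem sum_single (x : MonoidAlgebra k G) : x = ∑ g : G, x.coeff g • single g (1 : k) := by
  classical
  apply MonoidAlgebra.ext
  ext y
  simp [MonoidAlgebra.coeff_sum]

/-- two linear maps agree if they agree on the group elements -/
theorem ext_single {V : Type*} [AddCommGroup V] [Module k V] {f g : MonoidAlgebra k G →ₗ[k] V}
    (h : ∀ x : G, f (single x 1) = g (single x 1)) (x : MonoidAlgebra k G) : f x = g x := by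
  rw [sum_single x, map_sum, map_sum]
  exact Finset.sum_congr rfl fun y _ => by rw [map_smul, map_smul, h]

theorem lin_mul_single (ψ : G → k) (x : MonoidAlgebra k G) (y : G) :
    lin ψ (x * single y 1) = ∑ g : G, x.coeff g * ψ (g * y) := by
  conv_lhs => rw [sum_single x]
  rw [Finset.sum_mul, map_sum]
  refine Finset.sum_congr rfl fun g _ => ?_
  rw [smul_mul_assoc, single_mul_single, map_smul, lin_single, smul_eq_mul, one_mul, one_mul]

theorem lin_single_mul (ψ : G → k) (x : MonoidAlgebra k G) (y : G) :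
    lin ψ (single y 1 * x) = ∑ g : G, x.coeff g * ψ (y * g) := by
  conv_lhs => rw [sum_single x]
  rw [Finset.mul_sum, map_sum]
  refine Finset.sum_congr rfl fun g _ => ?_
  rw [mul_smul_comm, single_mul_single, map_smul, lin_single, smul_eq_mul, one_mul, one_mul]

theorem lin_comm {ψ : G → k} (h : ∀ g x, ψ (g * x * g⁻¹) = ψ x) (x y : MonoidAlgebra k G) :
    lin ψ (x * y) = lin ψ (y * x) := by
  have h1 : ∀ a b : G, ψ (a * b) = ψ (b * a) := fun a b => by
    rw [← h a (b * a)]
    congr 1
    group
  have h2 : ∀ (a : G) (y : MonoidAlgebra k G), lin ψ (single a 1 * y) = lin ψ (y * single a 1) := by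
    intro a y
    rw [lin_mul_single, lin_single_mul]
    exact Finset.sum_congr rfl fun g _ => by rw [h1]
  refine ext_single (f := (lin ψ).comp ((LinearMap.mul k (MonoidAlgebra k G)).flip y))
    (g := (lin ψ).comp (LinearMap.mul k (MonoidAlgebra k G) y)) (fun a => ?_) x
  simpa using h2 a y

theorem lin_mul_of {ψ : G → k} {B : MonoidAlgebra k G}
    (h : ∀ y, ∑ g : G, B.coeff g * ψ (g * y) = ψ y) (x : MonoidAlgebra k G) :
    lin ψ (B * x) = lin ψ x := by
  refine ext_single (f := (lin ψ).comp (LinearMap.mul k (MonoidAlgebra k G) B))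
    (g := lin ψ) (fun a => ?_) x
  rw [LinearMap.comp_apply, LinearMap.mul_apply', lin_mul_single, h, lin_single, one_mul]

end linear

section FB

variable (p : ℕ) [hp : Fact p.Prime] {k : Type u} [Field k] {G : Type} [Group G] [Fintype G]

omit hp in
/-- the class functions depending only on the regular parts, fixed by `B` -/
noncomputable def FB (B : MonoidAlgebra k G) : Submodule k (G → k) where
  carrier := {ψ | (∀ g x, ψ (g * x * g⁻¹) = ψ x) ∧ (∀ x, ψ (pr p x) = ψ x) ∧
    ∀ y, ∑ g : G, B.coeff g * ψ (g * y) = ψ y}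
  add_mem' := by
    rintro a b ⟨ha, ha', ha''⟩ ⟨hb, hb', hb''⟩
    refine ⟨fun g x => ?_, fun x => ?_, fun y => ?_⟩
    · simp only [Pi.add_apply, ha, hb]
    · simp only [Pi.add_apply, ha', hb']
    · simp only [Pi.add_apply, mul_add, Finset.sum_add_distrib]
      rw [ha'', hb'']
  zero_mem' := ⟨fun _ _ => rfl, fun _ => rfl, fun y => by simp⟩
  smul_mem' := by
    rintro c a ⟨ha, ha', ha''⟩
    refine ⟨fun g x => ?_, fun x => ?_, fun y => ?_⟩
    · simp only [Pi.smul_apply, ha]
    · simp only [Pi.smul_apply, ha']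
    · simp only [Pi.smul_apply, smul_eq_mul]
      conv_rhs => rw [← ha'' y, Finset.mul_sum]
      exact Finset.sum_congr rfl fun g _ => by ring

omit hp in
theorem mem_FB {B : MonoidAlgebra k G} {ψ : G → k} : ψ ∈ FB p B ↔
    (∀ g x, ψ (g * x * g⁻¹) = ψ x) ∧ (∀ x, ψ (pr p x) = ψ x) ∧
      ∀ y, ∑ g : G, B.coeff g * ψ (g * y) = ψ y := Iff.rfl

theorem cls_pr (x : G) : cls p (pr p x) = cls p x := by
  rw [cls, cls]
  congr 1
  exact Subtype.ext (Q7.pr_of_regular p _ (C2.ord_ne _) (Q7.pr_regular p x (C2.ord_ne x)))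

/-- the equations of `VB` hold for all elements -/
theorem VB_all [IsAlgClosed k] [CharP k p] {B : MonoidAlgebra k G}
    (hB : B ∈ Subalgebra.center k (MonoidAlgebra k G)) (hB2 : B * B = B) {ψ : Om p G → k}
    (hψ : ψ ∈ VB p B) (y : G) : ∑ g : G, B.coeff g * ψ (cls p (g * y)) = ψ (cls p y) := by
  classical
  obtain ⟨r, v, I, hI, hv⟩ := exists_basis p B hB hB2
  have h1 : Submodule.span k (Set.range fun i : I => v i) ≤ VB p B := by
    rw [Submodule.span_le]
    rintro _ ⟨i, rfl⟩ y _
    rw [hv, if_pos i.2]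
  have h2 : LinearIndependent k (fun i : I => v i) := v.linearIndependent.comp _
    Subtype.val_injective
  have h3 : Submodule.span k (Set.range fun i : I => v i) = VB p B := by
    refine Submodule.eq_of_le_of_finrank_eq h1 ?_
    rw [finrank_VB p B hB hB2, finrank_span_eq_card h2, Fintype.card_coe, hI]
  rw [← h3] at hψ
  induction hψ using Submodule.span_induction with
  | mem x hx =>
    obtain ⟨i, rfl⟩ := hx
    rw [hv, if_pos i.2]
  | zero => simp
  | add a b _ _ ha hb =>
    simp only [Pi.add_apply, mul_add, Finset.sum_add_distrib]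
    rw [ha, hb]
  | smul c a _ ha =>
    simp only [Pi.smul_apply, smul_eq_mul]
    conv_rhs => rw [← ha, Finset.mul_sum]
    exact Finset.sum_congr rfl fun g _ => by ring

/-- the number of simple modules is the dimension of `FB` -/
theorem finrank_FB [IsAlgClosed k] [CharP k p] {B : MonoidAlgebra k G}
    (hB : B ∈ Subalgebra.center k (MonoidAlgebra k G)) (hB2 : B * B = B) :
    Module.finrank k (FB p B) = numSimpleIn B := by
  rw [← finrank_VB p B hB hB2]
  symm
  let F : VB p B →ₗ[k] FB p B :=
    { toFun := fun ψ => ⟨fun g => ψ.1 (cls p g), fun g x => by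
        dsimp only
        rw [C2.cls_conj], fun x => by
        dsimp only
        rw [cls_pr], fun y => VB_all p hB hB2 ψ.2 y⟩
      map_add' := fun _ _ => rfl
      map_smul' := fun _ _ => rfl }
  refine LinearEquiv.finrank_eq (LinearEquiv.ofBijective F ⟨?_, ?_⟩)
  · intro a b hab
    apply Subtype.ext
    funext ω
    obtain ⟨y, _, rfl⟩ := cls_surj p ω
    exact congrFun (congrArg Subtype.val hab) y
  · rintro ⟨ψ, hψ⟩
    have hcls : ∀ x y : G, cls p x = cls p y → ψ x = ψ y := by
      intro x y hxy
      have h1 := Quotient.exact' hxy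
      obtain ⟨g, hg⟩ := h1
      have h2 := congrArg Subtype.val hg
      change g * pr p y * g⁻¹ = pr p x at h2
      rw [← hψ.2.1 x, ← hψ.2.1 y, ← h2, hψ.1]
    have hout : ∀ x : G, ψ ((cls p x : Om p G).out.1) = ψ x := by
      intro x
      apply hcls
      rw [C2.cls_reg]
      exact Quotient.out_eq' _
    refine ⟨⟨fun ω => ψ ω.out.1, ?_⟩, ?_⟩
    · intro y _
      simp only [hout]
      exact hψ.2.2 y
    · apply Subtype.ext
      funext x
      exact hout x

/-- the elements of `FB` are trace functions -/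
theorem exists_trFun [CharP k p] {r : ℕ} {d : Fin r → ℕ} [∀ i, NeZero (d i)]
    (f : MonoidAlgebra k G →ₐ[k] Π i, Matrix (Fin (d i)) (Fin (d i)) k)
    (hf : Function.Surjective f)
    (hker : ∀ x, f x = 0 → x ∈ Ring.jacobson (MonoidAlgebra k G))
    {ψ : G → k} (h1 : ∀ g x, ψ (g * x * g⁻¹) = ψ x) (h2 : ∀ x, ψ (pr p x) = ψ x) :
    ∃ c : Fin r → k, ∀ x, lin ψ x = ∑ i, c i * (f x i).trace := by
  classical
  obtain ⟨c, hc⟩ := (C2.phi_bijective p f hf hker).2 fun ω => ψ ω.out.1
  refine ⟨c, fun x => ?_⟩
  let T : MonoidAlgebra k G →ₗ[k] k :=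
    { toFun := fun x => ∑ i, c i * (f x i).trace
      map_add' := fun a b => by
        simp only [map_add, Pi.add_apply, Matrix.trace_add, mul_add, Finset.sum_add_distrib]
      map_smul' := fun a b => by
        simp only [map_smul, Pi.smul_apply, Matrix.trace_smul, smul_eq_mul, RingHom.id_apply,
          Finset.mul_sum]
        exact Finset.sum_congr rfl fun i _ => by ring }
  refine ext_single (f := lin ψ) (g := T) (fun g => ?_) x
  have h3 : (T (single g 1) : k) = trFun f c g := rfl
  rw [h3, lin_single, one_mul, ← C2.trFun_pr p f c g]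
  have h4 := congrFun hc (cls p g)
  rw [cls, C2.phi_mk] at h4
  change trFun f c (pr p g) = ψ _ at h4
  rw [h4]
  obtain ⟨t, ht⟩ := Quotient.exact' (Quotient.out_eq' (cls p g : Om p G))
  have h5 := congrArg Subtype.val ht
  change t * pr p g * t⁻¹ = _ at h5
  change ψ g = ψ ((cls p g : Om p G).out.1)
  rw [← h5, h1, h2]

end FB

end P179H872
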