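import Vale.Agent.P179.R2.H872.Rho

/-!
# Functions in `FB` on the cosets of the normal subgroup
-/

namespace P179H872

open P179H524 P179C P179A P179R Finset MonoidAlgebra

open P179C.C2 (Om cls phi)

universe u

section prop

variable {k : Type u} [Field k] {Γ : Type} [Group Γ] [Fintype Γ] {N : Subgroup Γ} [hN : N.Normal]
  {n : ℕ} {A : MonoidAlgebra k N →ₐ[k] Matrix (Fin n) (Fin n) k}

theorem apply_cjA {a : Γ × (Matrix (Fin n) (Fin n) k)ˣ} (ha : a ∈ IP (uhom A))
    (x : MonoidAlgebra k N) : A (cjA a.1 x) = a.2 * A x * (a.2⁻¹ : (Matrix (Fin n) (Fin n) k)ˣ) := by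
  classical
  have := Fintype.ofFinite N
  rw [sum_single x, map_sum, map_sum, map_sum, Finset.mul_sum, Finset.sum_mul]
  refine Finset.sum_congr rfl fun m _ => ?_
  rw [map_smul, map_smul, map_smul, cjA_single, mul_smul_comm, smul_mul_assoc]
  congr 1
  exact congrArg Units.val (ha m)

theorem cjA_fix {c : MonoidAlgebra k N} (hc : inc N c ∈ Subalgebra.center k (MonoidAlgebra k Γ))
    (x : Γ) : cjA x c = c := by
  apply inc_injective N
  rw [inc_cjA, (Subalgebra.mem_center_iff.1 hc) (single x 1), mul_assoc, single_mul_single,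
    mul_inv_cancel, one_mul, ← MonoidAlgebra.one_def, mul_one]

/-- intertwiners exist -/
theorem exists_intertwiner {c : MonoidAlgebra k N}
    (hc : inc N c ∈ Subalgebra.center k (MonoidAlgebra k Γ))
    (hA : Function.Surjective A)
    (hker : ∀ a, A a = 0 ↔ a * c ∈ Ring.jacobson (MonoidAlgebra k N)) (x : Γ) :
    ∃ a ∈ IP (uhom A), a.1 = x := by
  obtain ⟨M, hM⟩ := exists_inner hA (σ := cjA x) (fun a ha => by
    rw [hker] at ha ⊢
    have h := map_jacobson (cjA x) ha
    rwa [map_mul, cjA_fix hc] at h)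
  refine ⟨(x, M), fun m => ?_, rfl⟩
  apply Units.ext
  have h1 := hM (single m 1)
  rw [cjA_single] at h1
  exact h1

/-- **proportionality** -/
theorem exists_prop (p : ℕ) [hp : Fact p.Prime] [IsAlgClosed k] [CharP k p] [NeZero n]
    {c : MonoidAlgebra k N}
    (hA : Function.Surjective A)
    (hker : ∀ a, A a = 0 ↔ a * c ∈ Ring.jacobson (MonoidAlgebra k N))
    {ψ : Γ → k} (hψ : ψ ∈ FB p (inc N c))
    {a : Γ × (Matrix (Fin n) (Fin n) k)ˣ} (ha : a ∈ IP (uhom A)) :
    ∃ κ : k, ∀ m : N, ψ (a.1 * m) =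
      κ * ((a * nu (uhom A) m).2 : Matrix (Fin n) (Fin n) k).trace := by
  classical
  obtain ⟨r, d, hd, f, hf, hfker⟩ := exists_wedderburn k Γ
  obtain ⟨cf, hcf⟩ := exists_trFun p f hf hfker hψ.1 hψ.2.1
  have hrad : ∀ x ∈ Ring.jacobson (MonoidAlgebra k N), f (inc N x) = 0 := by
    intro x hx
    funext i
    have := compRep_isIrreducible f hf i
    have h2 := rad_zero (compRep f i) hx
    rw [compRep_asAlgebraHom] at h2
    exact Matrix.toLin'.injective (by rw [h2]; exact (map_zero _).symm)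
  let L : MonoidAlgebra k N → k := fun x => lin ψ (single a.1 1 * inc N x)
  have hL0 : ∀ x, A x = 0 → L x = 0 := by
    intro x hx
    have h1 : lin ψ (single a.1 1 * inc N (x * c)) = 0 := by
      rw [hcf]
      refine Finset.sum_eq_zero fun i _ => ?_
      rw [map_mul, hrad _ ((hker x).1 hx), mul_zero, Pi.zero_apply, Matrix.trace_zero, mul_zero]
    rw [map_mul (inc N), ← mul_assoc, lin_comm hψ.1, lin_mul_of hψ.2.2] at h1
    exact h1
  have hLadd : ∀ x y, L (x + y) = L x + L y := fun x y => by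
    simp only [L, map_add, mul_add]
  have hLsmul : ∀ (t : k) x, L (t • x) = t * L x := fun t x => by
    simp only [L, map_smul, mul_smul_comm, smul_eq_mul]
  have hLwd : ∀ x y, A x = A y → L x = L y := by
    intro x y hxy
    have h1 : L (x - y) = 0 := hL0 _ (by rw [map_sub, hxy, sub_self])
    have h2 : L x = L (x - y) + L y := by rw [← hLadd, sub_add_cancel]
    rw [h2, h1, zero_add]
  choose s hs using hA
  let X : Matrix (Fin n) (Fin n) k := a.2
  let Xi : Matrix (Fin n) (Fin n) k := (a.2⁻¹ : (Matrix (Fin n) (Fin n) k)ˣ)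
  have hXX : Xi * X = 1 := a.2.inv_mul
  have hXX' : X * Xi = 1 := a.2.mul_inv
  let Φ : Matrix (Fin n) (Fin n) k →ₗ[k] k :=
    { toFun := fun M => L (s (Xi * M))
      map_add' := fun M M' => by
        rw [← hLadd]
        apply hLwd
        rw [hs, mul_add, map_add, hs, hs]
      map_smul' := fun t M => by
        rw [RingHom.id_apply, smul_eq_mul, ← hLsmul]
        apply hLwd
        rw [hs, map_smul, hs, mul_smul_comm] }
  have hΦ : ∀ x, Φ (X * A x) = L x := by
    intro x
    refine hLwd _ _ ?_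
    rw [hs, ← mul_assoc, hXX, one_mul]
  have hΦs : ∀ M M', Φ (M * M') = Φ (M' * M) := by
    intro M M'
    have h1 : M = X * A (s (Xi * M)) := by rw [hs, ← mul_assoc, hXX', one_mul]
    have h2 : M' = A (s M') := (hs _).symm
    set x := s (Xi * M) with hx
    set y := s M' with hy
    have h3 : M * M' = X * A (x * y) := by rw [map_mul, ← mul_assoc, ← h1, ← h2]
    have h4 : M' * M = X * A (cjA a.1⁻¹ y * x) := by
      have h5 := apply_cjA (inv_mem ha) y
      rw [Prod.fst_inv] at h5
      rw [map_mul, h5, Prod.snd_inv, inv_inv]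
      have h6 : X * ((a.2⁻¹ : (Matrix (Fin n) (Fin n) k)ˣ) * A y * (a.2 : Matrix (Fin n) (Fin n) k)
          * A x) = (X * Xi) * A y * (X * A x) := by
        simp only [X, Xi, mul_assoc]
      rw [h6, hXX', one_mul, ← h1, ← h2]
    rw [h3, h4, hΦ, hΦ]
    change lin ψ (single a.1 1 * inc N (x * y)) = lin ψ (single a.1 1 * inc N (cjA a.1⁻¹ y * x))
    have e : single a.1 1 * (single a.1⁻¹ 1 * inc N y * single a.1 1 * inc N x) =
        inc N y * (single a.1 (1 : k) * inc N x) := by
      rw [← mul_assoc, ← mul_assoc, ← mul_assoc, single_mul_single, mul_inv_cancel, one_mul,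
        ← MonoidAlgebra.one_def, one_mul, mul_assoc]
    rw [map_mul (inc N), map_mul (inc N), inc_cjA, inv_inv, e, ← mul_assoc, lin_comm hψ.1]
  obtain ⟨κ, hκ⟩ := exists_smul_trace Φ hΦs
  refine ⟨κ, fun m => ?_⟩
  have h1 := hΦ (single m 1)
  rw [hκ] at h1
  have h2 : L (single m 1) = ψ (a.1 * m) := by
    change lin ψ (single a.1 1 * inc N (single m 1)) = _
    rw [inc_single, single_mul_single, one_mul, lin_single, one_mul]
  rw [← h2, ← h1]
  rfl

end prop

section psi

variable {k : Type u} [Field k] {Γ : Type} [Group Γ] [Fintype Γ] {N : Subgroup Γ} [hN : N.Normal]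
  {n : ℕ} {A : MonoidAlgebra k N →ₐ[k] Matrix (Fin n) (Fin n) k}

open scoped Classical in
/-- the function attached to a section -/
noncomputable def psi (A : MonoidAlgebra k N →ₐ[k] Matrix (Fin n) (Fin n) k)
    (s : Γ → Γ × (Matrix (Fin n) (Fin n) k)ˣ) (g : Γ) : k :=
  if IsReg (uhom A) g then ((s g).2 : Matrix (Fin n) (Fin n) k).trace else 0

omit [Fintype Γ] in
theorem trace_conj (P Q : Γ × (Matrix (Fin n) (Fin n) k)ˣ) :
    ((P * Q * P⁻¹).2 : Matrix (Fin n) (Fin n) k).trace = (Q.2 : Matrix (Fin n) (Fin n) k).trace := by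
  have h1 : ((P * Q * P⁻¹).2 : Matrix (Fin n) (Fin n) k) =
      (P.2 : Matrix (Fin n) (Fin n) k) * Q.2 * (P.2⁻¹ : (Matrix (Fin n) (Fin n) k)ˣ) := rfl
  rw [h1, Matrix.trace_mul_comm, ← mul_assoc, Units.inv_mul, one_mul]

/-- the coset of the regular part -/
theorem pr_coset (p : ℕ) [hp : Fact p.Prime] (hidx : ¬ p ∣ N.index) (g : Γ) :
    ((pr p g : Γ) : Γ ⧸ N) = g := by
  have h1 := Q7.map_pr p (QuotientGroup.mk' N) g (C2.ord_ne g)
  have h2 : ¬ p ∣ orderOf (QuotientGroup.mk' N g) := by
    intro h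
    apply hidx
    have : Finite (Γ ⧸ N) := inferInstance
    exact h.trans (orderOf_dvd_natCard _)
  rw [Q7.pr_of_regular p _ (C2.ord_ne _) h2] at h1
  exact h1

theorem psi_mem (p : ℕ) [hp : Fact p.Prime] [CharP k p] (hidx : ¬ p ∣ N.index)
    {c : MonoidAlgebra k N} (hA1 : A c = 1)
    (hex : ∀ x : Γ, ∃ a ∈ IP (uhom A), a.1 = x)
    {s : Γ → Γ × (Matrix (Fin n) (Fin n) k)ˣ}
    (h1 : ∀ g, s g ∈ IP (uhom A) ∧ (s g).1 = g)
    (h2 : ∀ g, IsReg (uhom A) g → ∀ m : N, s (g * m) = s g * nu (uhom A) m)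
    (h3 : ∀ t ∈ IP (uhom A), ∀ g, IsReg (uhom A) g → s (t.1 * g * t.1⁻¹) = t * s g * t⁻¹) :
    psi A s ∈ FB p (inc N c) := by
  classical
  refine ⟨fun g x => ?_, fun x => ?_, fun y => ?_⟩
  · unfold psi
    rw [isReg_conj_iff (uhom A) hex]
    split_ifs with h
    · obtain ⟨t, ht, rfl⟩ := hex g
      rw [h3 t ht x h, trace_conj]
    · rfl
  · -- the regular part
    obtain ⟨m, hm, hmx⟩ : ∃ m : Γ, m ∈ N ∧ pr p x = x * m := by
      refine ⟨x⁻¹ * pr p x, ?_, by group⟩
      rw [← QuotientGroup.eq]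
      exact (pr_coset p hidx x).symm
    unfold psi
    rw [hmx, isReg_mul_iff (uhom A) hm]
    split_ifs with h
    · have h4 := h2 x h ⟨m, hm⟩
      rw [h4]
      have hcomm : m * x = x * m := by
        have h5 : x * pr p x = pr p x * x := by
          unfold pr
          rw [← pow_succ, ← pow_succ']
        rw [hmx] at h5
        have h6 : x * (x * m) = x * (m * x) := by rw [h5, mul_assoc]
        exact (mul_left_cancel h6).symm
      have hcomm2 : nu (uhom A) ⟨m, hm⟩ * s x = s x * nu (uhom A) ⟨m, hm⟩ := by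
        have h5 := h3 (nu (uhom A) ⟨m, hm⟩) (nu_mem _ _) x h
        have h6 : (nu (uhom A) ⟨m, hm⟩).1 * x * (nu (uhom A) ⟨m, hm⟩).1⁻¹ = x := by
          rw [nu_fst]
          change m * x * m⁻¹ = x
          rw [hcomm, mul_inv_cancel_right]
        rw [h6] at h5
        conv_rhs => rw [h5]
        group
      have hpow : ∃ e : ℕ, m ^ p ^ e = 1 := by
        refine ⟨(orderOf x).factorization p, ?_⟩
        obtain ⟨_, h6⟩ := Q7.prExp_spec p (C2.ord_ne x)
        have h5 : (pr p x) ^ p ^ (orderOf x).factorization p =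
            x ^ p ^ (orderOf x).factorization p := by
          rw [pr, ← pow_mul, pow_eq_pow_iff_modEq]
          have h7 := Nat.ModEq.mul_left' (ordProj[p] (orderOf x)) h6
          rw [mul_one, Nat.ordProj_mul_ordCompl_eq_self] at h7
          rw [mul_comm (prExp p (orderOf x))]
          exact h7
        rw [hmx, Commute.mul_pow hcomm.symm] at h5
        exact mul_left_cancel (h5.trans (mul_one _).symm)
      obtain ⟨e, he⟩ := hpow
      apply trace_eq_of_pow p _ _ _ e
      · have h5 : (s x * nu (uhom A) ⟨m, hm⟩) ^ p ^ e = s x ^ p ^ e := by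
          rw [Commute.mul_pow hcomm2.symm, ← map_pow]
          have h6 : (⟨m, hm⟩ : N) ^ p ^ e = 1 := Subtype.ext he
          rw [h6, map_one, mul_one]
        exact congrArg (fun a : Γ × (Matrix (Fin n) (Fin n) k)ˣ =>
          ((a.2 : (Matrix (Fin n) (Fin n) k)ˣ) : Matrix (Fin n) (Fin n) k)) h5
      · have h5 : (s x * nu (uhom A) ⟨m, hm⟩) * s x = s x * (s x * nu (uhom A) ⟨m, hm⟩) := by
          rw [mul_assoc, hcomm2]
        exact congrArg (fun a : Γ × (Matrix (Fin n) (Fin n) k)ˣ =>
          ((a.2 : (Matrix (Fin n) (Fin n) k)ˣ) : Matrix (Fin n) (Fin n) k)) h5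
    · rfl
  · have := Fintype.ofFinite N
    rw [sum_inc_coeff_mul N c (fun g => psi A s (g * y))]
    by_cases h : IsReg (uhom A) y
    · have h4 : ∀ m : N, psi A s (m * y) =
          (A (single m 1) * ((s y).2 : Matrix (Fin n) (Fin n) k)).trace := by
        intro m
        have h5 : (m : Γ) * y = y * (MulAut.conjNormal y⁻¹ m : N) := by
          rw [MulAut.conjNormal_apply]
          group
        have h6 : s (m * y) = nu (uhom A) m * s y := by
          rw [h5, h2 y h]
          have h7 := conj_nu (uhom A) (inv_mem (h1 y).1) m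
          rw [Prod.fst_inv, (h1 y).2] at h7
          rw [← h7]
          group
        unfold psi
        rw [if_pos (by rw [h5]; exact h.mul _ _), h6]
        rfl
      have h5 : psi A s y = ((s y).2 : Matrix (Fin n) (Fin n) k).trace := if_pos h
      rw [Finset.sum_congr rfl fun m _ => by rw [h4 m], h5]
      have h6 : ∑ m : N, c.coeff m * (A (single m 1) * ((s y).2 : Matrix (Fin n) (Fin n) k)).trace =
          (A c * ((s y).2 : Matrix (Fin n) (Fin n) k)).trace := by
        rw [apply_eq_sum A c, Finset.sum_mul, Matrix.trace_sum]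
        exact Finset.sum_congr rfl fun m _ => by
          rw [smul_mul_assoc, Matrix.trace_smul, smul_eq_mul]
      rw [h6, hA1, one_mul]
    · have h4 : ∀ m : N, psi A s (m * y) = 0 := by
        intro m
        have h5 : (m : Γ) * y = y * (MulAut.conjNormal y⁻¹ m : N) := by
          rw [MulAut.conjNormal_apply]
          group
        unfold psi
        rw [if_neg]
        rw [h5, isReg_mul_iff _ (Subtype.coe_prop _)]
        exact h
      have h5 : psi A s y = 0 := if_neg h
      rw [h5]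
      exact Finset.sum_eq_zero fun m _ => by rw [h4, mul_zero]

end psi

end P179H872
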