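/-
helper872, P179-H, EQW piece (W4): group theory (5) and the chain lemma.
Mathlib only.
-/
import Mathlib.GroupTheory.PGroup
import Mathlib.RingTheory.IntegralDomain
import Mathlib.GroupTheory.SpecificGroups.Cyclic
import Mathlib.Algebra.Ring.Subring.Basic
import Mathlib.RingTheory.Coprime.Basic
import Mathlib.GroupTheory.Coset.Card
import Mathlib.GroupTheory.QuotientGroup.Basic
import Mathlib.Tactic

namespace P179H872
open Subgroup

/-- two elements of a finite cyclic group satisfy a primitive relation -/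
theorem cyc_prim {C : Type*} [CommGroup C] [IsCyclic C] (x y : C) :
    ∃ i j : ℤ, IsCoprime i j ∧ x ^ i * y ^ j = 1 := by
  obtain ⟨g, hg⟩ := IsCyclic.exists_generator (α := C)
  obtain ⟨c, hc⟩ := Subgroup.mem_zpowers_iff.mp (hg x)
  obtain ⟨d, hd⟩ := Subgroup.mem_zpowers_iff.mp (hg y)
  by_cases h0 : c = 0 ∧ d = 0
  · refine ⟨1, 0, isCoprime_one_left, ?_⟩
    rw [← hc, h0.1]; simp
  · have hne : Int.gcd c d ≠ 0 := by
      intro h
      exact h0 (Int.gcd_eq_zero_iff.mp h)
    obtain ⟨c', hc'⟩ := Int.gcd_dvd_left (a := c) (b := d)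
    obtain ⟨d', hd'⟩ := Int.gcd_dvd_right (a := c) (b := d)
    refine ⟨d', -c', ?_, ?_⟩
    · have h1 := Int.gcd_eq_gcd_ab c d
      refine ⟨Int.gcdB c d, -Int.gcdA c d, ?_⟩
      have h2 : ((Int.gcd c d : ℕ) : ℤ) ≠ 0 := by exact_mod_cast hne
      apply mul_left_cancel₀ h2
      linear_combination (-Int.gcdB c d) * hd' - (Int.gcdA c d) * hc' - h1
    · rw [← hc, ← hd, ← zpow_mul, ← zpow_mul, ← zpow_add]
      have : c * d' + d * -c' = 0 := by
        have e1 : c * d' = (Int.gcd c d : ℤ) * c' * d' := by rw [← hc']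
        have e2 : d * -c' = -((Int.gcd c d : ℤ) * d' * c') := by rw [← hd']; ring
        rw [e1, e2]; ring
      rw [this, zpow_zero]


/-- a finite simple module over commuting automorphisms: some primitive word acts trivially -/
theorem simple_prim {V : Type*} [AddCommGroup V] [Finite V] [Nontrivial V]
    (a t : (AddMonoid.End V)ˣ) (hc : a * t = t * a)
    (hs : ∀ K : AddSubgroup V, (∀ v ∈ K, (a : AddMonoid.End V) v ∈ K) →
      (∀ v ∈ K, (t : AddMonoid.End V) v ∈ K) → K = ⊥ ∨ K = ⊤) :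
    ∃ i j : ℤ, IsCoprime i j ∧ a ^ i * t ^ j = 1 := by
  classical
  have hcc : (a : AddMonoid.End V) * t = t * a := by
    have := congrArg (fun u : (AddMonoid.End V)ˣ => (u : AddMonoid.End V)) hc
    simpa using this
  let E := AddMonoid.End V
  let S : Set E := {(a : E), (t : E)}
  have hcomm : ∀ x ∈ S, ∀ y ∈ S, x * y = y * x := by
    intro x hx y hy
    rcases hx with rfl | hx <;> rcases hy with rfl | hy
    · rfl
    · rw [Set.mem_singleton_iff.mp hy]; exact hcc
    · rw [Set.mem_singleton_iff.mp hx]; exact hcc.symm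
    · rw [Set.mem_singleton_iff.mp hx, Set.mem_singleton_iff.mp hy]
  let _ : CommRing (Subring.closure S) := Subring.closureCommRingOfComm hcomm
  have : Finite E := by
    apply Finite.of_injective (fun f : E => (fun v => f v : V → V))
    intro f g h
    ext v
    exact congrFun h v
  -- elements commute with a and t
  have hca : ∀ f ∈ Subring.closure S, f * (a : E) = a * f := by
    intro f hf
    have : Subring.closure S ≤ Subring.centralizer {(a : E)} := by
      rw [Subring.closure_le]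
      intro x hx
      rw [SetLike.mem_coe, Subring.mem_centralizer_iff]
      intro g hg
      rw [Set.mem_singleton_iff.mp hg]
      exact hcomm _ (by simp [S]) _ hx
    have h2 := this hf
    rw [Subring.mem_centralizer_iff] at h2
    exact (h2 _ (Set.mem_singleton _)).symm
  have hct : ∀ f ∈ Subring.closure S, f * (t : E) = t * f := by
    intro f hf
    have : Subring.closure S ≤ Subring.centralizer {(t : E)} := by
      rw [Subring.closure_le]
      intro x hx
      rw [SetLike.mem_coe, Subring.mem_centralizer_iff]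
      intro g hg
      rw [Set.mem_singleton_iff.mp hg]
      exact hcomm _ (by simp [S]) _ hx
    have h2 := this hf
    rw [Subring.mem_centralizer_iff] at h2
    exact (h2 _ (Set.mem_singleton _)).symm
  have hinj : ∀ f ∈ Subring.closure S, f ≠ 0 → ∀ v, f v = 0 → v = 0 := by
    intro f hf hf0 v hv
    have k1 : ∀ w ∈ AddMonoidHom.ker f, (a : E) w ∈ AddMonoidHom.ker f := by
      intro w hw
      have h1 := hca f hf
      have h2 : f ((a : E) w) = (a : E) (f w) := congrArg (fun g : E => g w) h1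
      show f ((a : E) w) = 0
      rw [h2, show f w = 0 from hw, map_zero]
    have k2 : ∀ w ∈ AddMonoidHom.ker f, (t : E) w ∈ AddMonoidHom.ker f := by
      intro w hw
      have h1 := hct f hf
      have h2 : f ((t : E) w) = (t : E) (f w) := congrArg (fun g : E => g w) h1
      show f ((t : E) w) = 0
      rw [h2, show f w = 0 from hw, map_zero]
    rcases hs (AddMonoidHom.ker f) k1 k2 with h | h
    · have : v ∈ AddMonoidHom.ker f := hv
      rw [h] at this
      exact this
    · exfalso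
      apply hf0
      ext w
      have : w ∈ AddMonoidHom.ker f := by rw [h]; trivial
      exact this
  have : NoZeroDivisors (Subring.closure S) := by
    constructor
    intro f g hfg
    by_contra hcon
    rw [not_or] at hcon
    obtain ⟨hf, hg⟩ := hcon
    apply hg
    apply Subtype.ext
    show (g : E) = 0
    ext v
    have h1 : (f : E) * (g : E) = 0 := congrArg Subtype.val hfg
    have h2 : (f : E) ((g : E) v) = 0 := congrArg (fun h : E => h v) h1
    exact hinj f f.2 (fun h => hf (Subtype.ext h)) _ h2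
  have : Nontrivial (Subring.closure S) := by
    obtain ⟨v, hv⟩ := exists_ne (0 : V)
    refine ⟨⟨0, 1, fun h => hv ?_⟩⟩
    have h1 : (0 : E) = 1 := congrArg Subtype.val h
    have h3 : (0 : V) = v := congrArg (fun f : E => f v) h1
    exact h3.symm
  have : IsDomain (Subring.closure S) := NoZeroDivisors.to_isDomain _
  -- units
  have hfin : ∀ u : Eˣ, (u : E) ∈ Subring.closure S → ((u⁻¹ : Eˣ) : E) ∈ Subring.closure S := by
    intro u hu
    have : Finite Eˣ := inferInstance
    have h1 : u⁻¹ = u ^ (orderOf u - 1) := by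
      have h0 := orderOf_pos u
      have h2 : u ^ (orderOf u - 1) * u = 1 := by
        rw [← pow_succ, Nat.sub_add_cancel h0, pow_orderOf_eq_one]
      exact (eq_inv_of_mul_eq_one_left h2).symm
    rw [h1, Units.val_pow_eq_pow_val]
    exact Subring.pow_mem _ hu _
  have ha : (a : E) ∈ Subring.closure S := Subring.subset_closure (by simp [S])
  have ht : (t : E) ∈ Subring.closure S := Subring.subset_closure (by simp [S])
  let A : (Subring.closure S)ˣ :=
    ⟨⟨a, ha⟩, ⟨((a⁻¹ : Eˣ) : E), hfin a ha⟩, Subtype.ext (by simp), Subtype.ext (by simp)⟩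
  let T : (Subring.closure S)ˣ :=
    ⟨⟨t, ht⟩, ⟨((t⁻¹ : Eˣ) : E), hfin t ht⟩, Subtype.ext (by simp), Subtype.ext (by simp)⟩
  obtain ⟨i, j, hij, h1⟩ := cyc_prim A T
  refine ⟨i, j, hij, ?_⟩
  let φ : (Subring.closure S) →* E := ((Subring.closure S).subtype : _ →* E)
  have hA : Units.map φ A = a := Units.ext rfl
  have hT : Units.map φ T = t := Units.ext rfl
  have := congrArg (Units.map φ) h1
  rw [map_mul, map_zpow, map_zpow, hA, hT, map_one] at this
  exact this


theorem zpow_map {R Q : Type*} [Group R] [Group Q] (π : R →* Q) (α : MulAut R) (a : MulAut Q)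
    (h : ∀ r, a (π r) = π (α r)) (i : ℤ) (r : R) : (a ^ i) (π r) = π ((α ^ i) r) := by
  have hn : ∀ (n : ℕ) (r : R), (a ^ n) (π r) = π ((α ^ n) r) := by
    intro n
    induction n with
    | zero => intro r; simp
    | succ n ih =>
      intro r
      rw [pow_succ, pow_succ, MulAut.mul_apply, MulAut.mul_apply, h, ih]
  obtain ⟨n, rfl | rfl⟩ := i.eq_nat_or_neg
  · rw [zpow_natCast, zpow_natCast, hn]
  · rw [zpow_neg, zpow_neg, zpow_natCast, zpow_natCast]
    have h1 := hn n (((α ^ n)⁻¹ : MulAut R) r)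
    rw [MulAut.apply_inv_self] at h1
    rw [← h1, MulAut.inv_apply_self]

/-- automorphisms as units of the endomorphism ring -/
def toEnd (Q : Type*) [CommGroup Q] : MulAut Q →* AddMonoid.End (Additive Q) where
  toFun β := MonoidHom.toAdditive β.toMonoidHom
  map_one' := rfl
  map_mul' _ _ := rfl

theorem gen_abs {R : Type*} [CommGroup R] [Finite R] {p : ℕ} [Fact p.Prime] (hR : IsPGroup p R)
    (α τ : MulAut R) (hc : α * τ = τ * α) (n : ℕ) (hn : ¬ p ∣ n) (hα : α ^ n = 1)
    (hτ : τ ^ n = 1) (U : Subgroup R)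
    (hU : ∀ i j : ℤ, IsCoprime i j → ∀ r, (α ^ i * τ ^ j) r = r → r ∈ U) : U = ⊤ := by
  classical
  -- the stable subgroup generated by the fixed points
  have hcz : ∀ i j : ℤ, α * (α ^ i * τ ^ j) = (α ^ i * τ ^ j) * α := by
    intro i j
    have h1 : Commute α (α ^ i) := (Commute.refl α).zpow_right i
    have h2 : Commute α (τ ^ j) := (show Commute α τ from hc).zpow_right j
    exact (h1.mul_right h2).eq
  have hcz' : ∀ i j : ℤ, τ * (α ^ i * τ ^ j) = (α ^ i * τ ^ j) * τ := by
    intro i j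
    have h1 : Commute τ (α ^ i) := (show Commute τ α from hc.symm).zpow_right i
    have h2 : Commute τ (τ ^ j) := (Commute.refl τ).zpow_right j
    exact (h1.mul_right h2).eq
  let F : Set R := {r | ∃ i j : ℤ, IsCoprime i j ∧ (α ^ i * τ ^ j) r = r}
  let U0 : Subgroup R := closure F
  have hFα : ∀ r ∈ F, α r ∈ F := by
    rintro r ⟨i, j, hij, h⟩
    refine ⟨i, j, hij, ?_⟩
    have := congrArg (fun β : MulAut R => β r) (hcz i j)
    simp only [MulAut.mul_apply] at this h ⊢
    rw [← this, h]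
  have hFτ : ∀ r ∈ F, τ r ∈ F := by
    rintro r ⟨i, j, hij, h⟩
    refine ⟨i, j, hij, ?_⟩
    have := congrArg (fun β : MulAut R => β r) (hcz' i j)
    simp only [MulAut.mul_apply] at this h ⊢
    rw [← this, h]
  have hU0α : ∀ r ∈ U0, α r ∈ U0 := by
    have : U0 ≤ U0.comap α.toMonoidHom := by
      rw [closure_le]
      intro r hr
      exact subset_closure (hFα r hr)
    exact fun r hr => this hr
  have hU0τ : ∀ r ∈ U0, τ r ∈ U0 := by
    have : U0 ≤ U0.comap τ.toMonoidHom := by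
      rw [closure_le]
      intro r hr
      exact subset_closure (hFτ r hr)
    exact fun r hr => this hr
  have hU0 : U0 ≤ U := by
    rw [closure_le]
    rintro r ⟨i, j, hij, h⟩
    exact hU i j hij r h
  by_contra hUt
  have hU0t : U0 ≠ ⊤ := fun h => hUt (top_le_iff.mp (h ▸ hU0))
  -- maximal stable proper subgroup above U0
  let P : Set (Subgroup R) := {W | U0 ≤ W ∧ W ≠ ⊤ ∧ (∀ r ∈ W, α r ∈ W) ∧ (∀ r ∈ W, τ r ∈ W)}
  obtain ⟨W, hW⟩ : ∃ W, Maximal (· ∈ P) W :=
    (Set.toFinite P).exists_maximal ⟨U0, le_rfl, hU0t, hU0α, hU0τ⟩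
  obtain ⟨⟨hW1, hW2, hW3, hW4⟩, hWmax⟩ := hW
  have mapα : W.map α.toMonoidHom = W := by
    apply Subgroup.eq_of_le_of_card_ge
    · rintro _ ⟨r, hr, rfl⟩
      exact hW3 r hr
    · rw [Subgroup.card_map_of_injective α.injective]
  have mapτ : W.map τ.toMonoidHom = W := by
    apply Subgroup.eq_of_le_of_card_ge
    · rintro _ ⟨r, hr, rfl⟩
      exact hW4 r hr
    · rw [Subgroup.card_map_of_injective τ.injective]
  let Q := R ⧸ W
  let π : R →* Q := QuotientGroup.mk' W
  let a : MulAut Q := QuotientGroup.congr W W α mapα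
  let t : MulAut Q := QuotientGroup.congr W W τ mapτ
  have ha : ∀ r, a (π r) = π (α r) := fun r => rfl
  have ht : ∀ r, t (π r) = π (τ r) := fun r => rfl
  have hat : a * t = t * a := by
    ext q
    obtain ⟨r, rfl⟩ := QuotientGroup.mk'_surjective W q
    show a (t (π r)) = t (a (π r))
    rw [ht, ha, ha, ht]
    exact congrArg π (congrArg (fun β : MulAut R => β r) hc)
  have : Nontrivial (Additive Q) := by
    have : Nontrivial Q := QuotientGroup.nontrivial_iff.mpr hW2
    infer_instance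
  have hfQ : Finite (Additive Q) := inferInstanceAs (Finite Q)
  obtain ⟨i, j, hij, h1⟩ := simple_prim (V := Additive Q)
    (MonoidHom.toHomUnits (toEnd Q) a) (MonoidHom.toHomUnits (toEnd Q) t)
    (by rw [← map_mul, hat, map_mul]) (by
      intro K hK1 hK2
      let K' : Subgroup R := (AddSubgroup.toSubgroup' K).comap π
      have hWK : W ≤ K' := by
        intro r hr
        show π r ∈ AddSubgroup.toSubgroup' K
        have : π r = 1 := (QuotientGroup.eq_one_iff r).mpr hr
        rw [this]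
        exact one_mem _
      have hK'α : ∀ r ∈ K', α r ∈ K' := fun r hr => hK1 _ hr
      have hK'τ : ∀ r ∈ K', τ r ∈ K' := fun r hr => hK2 _ hr
      by_cases hK : K' = ⊤
      · right
        rw [AddSubgroup.eq_top_iff']
        intro q
        obtain ⟨r, hr⟩ := QuotientGroup.mk'_surjective W (Additive.toMul q)
        have : r ∈ K' := by rw [hK]; trivial
        have h2 : π r ∈ AddSubgroup.toSubgroup' K := this
        have h3 : π r = Additive.toMul q := hr
        rw [h3] at h2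
        exact h2
      · left
        have h2 : K' ≤ W := hWmax ⟨hW1.trans hWK, hK, hK'α, hK'τ⟩ hWK
        rw [AddSubgroup.eq_bot_iff_forall]
        intro q hq
        obtain ⟨r, hr⟩ := QuotientGroup.mk'_surjective W (Additive.toMul q)
        have h3 : r ∈ K' := by
          show π r ∈ AddSubgroup.toSubgroup' K
          have h3 : π r = Additive.toMul q := hr
          rw [h3]
          exact hq
        have h4 : π r = 1 := (QuotientGroup.eq_one_iff r).mpr (h2 h3)
        have h5 : Additive.toMul q = 1 := by rw [← h4]; exact hr.symm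
        exact h5)
  have h1' : a ^ i * t ^ j = 1 := by
    rw [← map_zpow, ← map_zpow, ← map_mul] at h1
    ext q
    have h2 := congrArg (fun u : (AddMonoid.End (Additive Q))ˣ =>
      (u : AddMonoid.End (Additive Q)) (Additive.ofMul q)) h1
    exact h2
  apply hW2
  rw [Subgroup.eq_top_iff']
  intro r
  -- the norm
  set s : MulAut R := α ^ i * τ ^ j with hs
  have hsn : s ^ n = 1 := by
    have hco : Commute (α ^ i) (τ ^ j) := ((show Commute α τ from hc).zpow_left i).zpow_right j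
    rw [hs, hco.mul_pow, ← zpow_natCast, ← zpow_natCast, ← zpow_mul, ← zpow_mul, mul_comm i,
      mul_comm j, zpow_mul, zpow_mul, zpow_natCast, zpow_natCast, hα, hτ, one_zpow, one_zpow,
      one_mul]
  have hsπ : ∀ r, π (s r) = π r := by
    intro r
    have h2 : (a ^ i * t ^ j) (π r) = π (s r) := by
      rw [MulAut.mul_apply, zpow_map π τ t ht, zpow_map π α a ha]
      rfl
    rw [← h2, h1']
    rfl
  have hspow : ∀ m : ℕ, ∀ r, π ((s ^ m) r) = π r := by
    intro m
    induction m with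
    | zero => intro r; simp
    | succ m ih => intro r; rw [pow_succ, MulAut.mul_apply, ih, hsπ]
  let c : R := ∏ m ∈ Finset.range n, (s ^ m) r
  have hsc : s c = c := by
    show s (∏ m ∈ Finset.range n, (s ^ m) r) = ∏ m ∈ Finset.range n, (s ^ m) r
    rw [map_prod]
    have h2 : ∀ m, s ((s ^ m) r) = (s ^ (m + 1)) r := by
      intro m
      rw [pow_succ']
      rfl
    simp only [h2]
    have h3 := Finset.prod_range_succ (fun m => (s ^ m) r) n
    rw [Finset.prod_range_succ'] at h3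
    rw [hsn, pow_zero] at h3
    exact mul_right_cancel h3
  have hcW : c ∈ W := hW1 (subset_closure ⟨i, j, hij, hsc⟩)
  have hπc : π c = (π r) ^ n := by
    show π (∏ m ∈ Finset.range n, (s ^ m) r) = _
    rw [map_prod]
    simp only [hspow]
    rw [Finset.prod_const, Finset.card_range]
  have h5 : (π r) ^ n = 1 := by
    rw [← hπc]; exact (QuotientGroup.eq_one_iff c).mpr hcW
  have hQ : IsPGroup p Q := hR.to_quotient W
  obtain ⟨m, hm⟩ := hQ (π r)
  have hcop : Nat.Coprime (p ^ m) n :=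
    Nat.Coprime.pow_left m ((Nat.Prime.coprime_iff_not_dvd (Fact.out)).mpr hn)
  have h6 : orderOf (π r) = 1 := by
    have e1 := orderOf_dvd_of_pow_eq_one h5
    have e2 := orderOf_dvd_of_pow_eq_one hm
    exact Nat.eq_one_of_dvd_coprimes hcop e2 e1
  exact (QuotientGroup.eq_one_iff r).mp (orderOf_eq_one_iff.mp h6)

theorem conj_aut {G : Type*} [Group G] [Finite G] {R : Subgroup G}
    {a t : G} (ha : ∀ r ∈ R, a * r * a⁻¹ ∈ R) (ht : ∀ r ∈ R, t * r * t⁻¹ ∈ R)
    (hc : ∀ r ∈ R, a * (t * r * t⁻¹) * a⁻¹ = t * (a * r * a⁻¹) * t⁻¹) :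
    ∃ α τ : MulAut R, (∀ r : R, ((α r : R) : G) = a * r * a⁻¹) ∧
      (∀ r : R, ((τ r : R) : G) = t * r * t⁻¹) ∧ α * τ = τ * α ∧
      ∀ (i j : ℤ) (r : R), (((α ^ i * τ ^ j) r : R) : G) = (a ^ i * t ^ j) * r * (a ^ i * t ^ j)⁻¹ := by
  classical
  have hnorm : ∀ g : G, (∀ r ∈ R, g * r * g⁻¹ ∈ R) → ∀ r ∈ R, g⁻¹ * r * g ∈ R := by
    intro g hg r hr
    have hmap : R.map (MulAut.conj g).toMonoidHom = R := by
      apply Subgroup.eq_of_le_of_card_ge
      · rintro _ ⟨x, hx, rfl⟩
        exact hg x hx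
      · rw [Subgroup.card_map_of_injective (MulAut.conj g).injective]
    rw [← hmap] at hr
    obtain ⟨x, hx, hxr⟩ := hr
    have h1 : g * x * g⁻¹ = r := hxr
    have : g⁻¹ * r * g = x := by rw [← h1]; group
    rw [this]; exact hx
  let c : ∀ g : G, (∀ r ∈ R, g * r * g⁻¹ ∈ R) → MulAut R := fun g hg =>
    { toFun := fun r => ⟨g * r * g⁻¹, hg r r.2⟩
      invFun := fun r => ⟨g⁻¹ * r * g, hnorm g hg r r.2⟩
      left_inv := fun r => Subtype.ext (by simp [mul_assoc])
      right_inv := fun r => Subtype.ext (by simp [mul_assoc])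
      map_mul' := fun x y => Subtype.ext (by simp [mul_assoc]) }
  have hα : ∀ r : R, (((c a ha) r : R) : G) = a * r * a⁻¹ := fun r => rfl
  have hτ : ∀ r : R, (((c t ht) r : R) : G) = t * r * t⁻¹ := fun r => rfl
  have hzp : ∀ (g : G) (β : MulAut R), (∀ r : R, ((β r : R) : G) = g * r * g⁻¹) →
      ∀ (i : ℤ) (r : R), (((β ^ i) r : R) : G) = g ^ i * r * (g ^ i)⁻¹ := by
    intro g β hβ i r
    have := zpow_map R.subtype β (MulAut.conj g) (fun r => by
      show g * r * g⁻¹ = ((β r : R) : G)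
      exact (hβ r).symm) i r
    rw [← map_zpow] at this
    exact this.symm
  refine ⟨c a ha, c t ht, hα, hτ, ?_, ?_⟩
  · ext r
    exact hc r r.2
  · intro i j r
    rw [MulAut.mul_apply, hzp a _ hα, hzp t _ hτ]
    group

/-- a primitive fixed point subgroup is not contained in `P < R` (form for `G`) -/
theorem exists_prim_not_le {G : Type*} [Group G] [Finite G] {p : ℕ} [Fact p.Prime]
    {R : Subgroup G} (hR : IsPGroup p R) (hab : ∀ x ∈ R, ∀ y ∈ R, x * y = y * x)
    {a t : G} (ha : ∀ r ∈ R, a * r * a⁻¹ ∈ R) (ht : ∀ r ∈ R, t * r * t⁻¹ ∈ R)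
    (hc : ∀ r ∈ R, a * (t * r * t⁻¹) * a⁻¹ = t * (a * r * a⁻¹) * t⁻¹)
    (n : ℕ) (hn : ¬ p ∣ n) (han : ∀ r ∈ R, a ^ n * r = r * a ^ n)
    (htn : ∀ r ∈ R, t ^ n * r = r * t ^ n) {P : Subgroup G} (hPR : P < R) :
    ∃ i j : ℤ, IsCoprime i j ∧ ¬ R ⊓ centralizer {a ^ i * t ^ j} ≤ P := by
  classical
  let _ : CommGroup R := { (inferInstance : Group R) with
    mul_comm := fun x y => Subtype.ext (hab x x.2 y y.2) }
  obtain ⟨α, τ, hα, hτ, hατ, hij'⟩ := conj_aut ha ht hc
  by_contra hcon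
  push Not at hcon
  have htop : P.subgroupOf R = ⊤ := by
    apply gen_abs hR α τ hατ n hn ?_ ?_ (P.subgroupOf R)
    · intro i j hij r hr
      rw [mem_subgroupOf]
      apply hcon i j hij
      refine ⟨r.2, ?_⟩
      show (r : G) ∈ centralizer {a ^ i * t ^ j}
      rw [mem_centralizer_singleton_iff]
      have h1 := hij' i j r
      rw [hr] at h1
      have h2 : (a ^ i * t ^ j) * r = ((a ^ i * t ^ j) * r * (a ^ i * t ^ j)⁻¹) *
          (a ^ i * t ^ j) := by group
      rw [← h1] at h2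
      exact h2.symm
    · ext r
      have := hij' n 0 r
      simp only [zpow_natCast, zpow_zero, mul_one] at this
      rw [this, han r r.2]
      simp
    · ext r
      have := hij' 0 n r
      simp only [zpow_natCast, zpow_zero, one_mul] at this
      rw [this, htn r r.2]
      simp
  rw [subgroupOf_eq_top] at htop
  exact absurd htop (not_le_of_gt hPR)

/-- **induction principle** along the stable subgroups of `R` -/
theorem prim_induction {G : Type*} [Group G] [Finite G] {p : ℕ} [Fact p.Prime]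
    {R : Subgroup G} (hR : IsPGroup p R) (hab : ∀ x ∈ R, ∀ y ∈ R, x * y = y * x)
    {a t : G} (ha : ∀ r ∈ R, a * r * a⁻¹ ∈ R) (ht : ∀ r ∈ R, t * r * t⁻¹ ∈ R)
    (hc : ∀ r ∈ R, a * (t * r * t⁻¹) * a⁻¹ = t * (a * r * a⁻¹) * t⁻¹)
    (n : ℕ) (hn : ¬ p ∣ n) (han : ∀ r ∈ R, a ^ n * r = r * a ^ n)
    (htn : ∀ r ∈ R, t ^ n * r = r * t ^ n) (motive : Subgroup G → Prop) (h0 : motive ⊥)
    (hstep : ∀ P : Subgroup G, P ≤ R → (∀ r ∈ P, a * r * a⁻¹ ∈ P) → (∀ r ∈ P, t * r * t⁻¹ ∈ P) →
      motive P → ∀ i j : ℤ, IsCoprime i j → motive (P ⊔ (R ⊓ centralizer {a ^ i * t ^ j}))) :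
    motive R := by
  classical
  obtain ⟨α, τ, hα, hτ, hατ, hij'⟩ := conj_aut ha ht hc
  have hst : ∀ i j : ℤ, ∀ r ∈ R ⊓ centralizer {a ^ i * t ^ j},
      a * r * a⁻¹ ∈ R ⊓ centralizer {a ^ i * t ^ j} ∧
      t * r * t⁻¹ ∈ R ⊓ centralizer {a ^ i * t ^ j} := by
    intro i j r hr
    have hrR : r ∈ R := hr.1
    have hrc : r ∈ centralizer {a ^ i * t ^ j} := hr.2
    rw [mem_centralizer_singleton_iff] at hrc
    have hfix : (α ^ i * τ ^ j) ⟨r, hrR⟩ = ⟨r, hrR⟩ := by
      apply Subtype.ext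
      rw [hij' i j ⟨r, hrR⟩]
      show (a ^ i * t ^ j) * r * (a ^ i * t ^ j)⁻¹ = r
      rw [mul_inv_eq_iff_eq_mul]
      exact hrc.symm
    have key : ∀ β : MulAut R, ∀ b : G, (∀ r : R, ((β r : R) : G) = b * r * b⁻¹) →
        β * (α ^ i * τ ^ j) = (α ^ i * τ ^ j) * β →
        b * r * b⁻¹ ∈ R ⊓ centralizer {a ^ i * t ^ j} := by
      intro β b hβ hcm
      have h1 := hβ ⟨r, hrR⟩
      have h2 : b * r * b⁻¹ ∈ R := by rw [← h1]; exact (β ⟨r, hrR⟩).2
      refine ⟨h2, ?_⟩
      show b * r * b⁻¹ ∈ centralizer {a ^ i * t ^ j}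
      rw [mem_centralizer_singleton_iff]
      have h3 : (α ^ i * τ ^ j) (β ⟨r, hrR⟩) = β ⟨r, hrR⟩ := by
        rw [← MulAut.mul_apply, ← hcm, MulAut.mul_apply, hfix]
      have h4 := hij' i j (β ⟨r, hrR⟩)
      rw [h3, h1] at h4
      have h5 : (a ^ i * t ^ j) * (b * r * b⁻¹) = ((a ^ i * t ^ j) * (b * r * b⁻¹) *
          (a ^ i * t ^ j)⁻¹) * (a ^ i * t ^ j) := by group
      rw [← h4] at h5
      exact h5.symm
    constructor
    · apply key α a hα
      have h1 : Commute α (α ^ i) := (Commute.refl α).zpow_right i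
      have h2 : Commute α (τ ^ j) := (show Commute α τ from hατ).zpow_right j
      exact (h1.mul_right h2).eq
    · apply key τ t hτ
      have h1 : Commute τ (α ^ i) := (show Commute τ α from hατ.symm).zpow_right i
      have h2 : Commute τ (τ ^ j) := (Commute.refl τ).zpow_right j
      exact (h1.mul_right h2).eq
  have hjoin : ∀ (P K : Subgroup G) (b : G), (∀ r ∈ P, b * r * b⁻¹ ∈ P) →
      (∀ r ∈ K, b * r * b⁻¹ ∈ K) → ∀ r ∈ P ⊔ K, b * r * b⁻¹ ∈ P ⊔ K := by
    intro P K b hP hK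
    have : P ⊔ K ≤ (P ⊔ K).comap (MulAut.conj b).toMonoidHom := by
      rw [sup_le_iff]
      exact ⟨fun r hr => (le_sup_left : P ≤ P ⊔ K) (hP r hr),
        fun r hr => (le_sup_right : K ≤ P ⊔ K) (hK r hr)⟩
    exact fun r hr => this hr
  -- a maximal stable subgroup satisfying the motive
  let S : Set (Subgroup G) := {P | P ≤ R ∧ (∀ r ∈ P, a * r * a⁻¹ ∈ P) ∧
    (∀ r ∈ P, t * r * t⁻¹ ∈ P) ∧ motive P}
  obtain ⟨P, ⟨hP1, hP2, hP3, hP4⟩, hPmax⟩ : ∃ P, Maximal (· ∈ S) P :=
    (Set.toFinite S).exists_maximal ⟨⊥, bot_le, by simp, by simp, h0⟩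
  by_cases hPR : P = R
  · rw [← hPR]; exact hP4
  · exfalso
    obtain ⟨i, j, hij, hnot⟩ := exists_prim_not_le hR hab ha ht hc n hn han htn
      (lt_of_le_of_ne hP1 hPR)
    apply hnot
    have hm := hstep P hP1 hP2 hP3 hP4 i j hij
    have hle : P ⊔ (R ⊓ centralizer {a ^ i * t ^ j}) ≤ P := hPmax
      ⟨sup_le hP1 inf_le_left, hjoin _ _ a hP2 (fun r hr => (hst i j r hr).1),
        hjoin _ _ t hP3 (fun r hr => (hst i j r hr).2), hm⟩ le_sup_left
    exact le_sup_right.trans hle

/-- **chain lemma** of EQW -/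
theorem chain {G : Type*} [Group G] [Finite G] {p : ℕ} [Fact p.Prime] {X : Type*}
    {R : Subgroup G} (hR : IsPGroup p R) (hab : ∀ x ∈ R, ∀ y ∈ R, x * y = y * x)
    {a t : G} (ha : ∀ r ∈ R, a * r * a⁻¹ ∈ R) (ht : ∀ r ∈ R, t * r * t⁻¹ ∈ R)
    (hc : ∀ r ∈ R, a * (t * r * t⁻¹) * a⁻¹ = t * (a * r * a⁻¹) * t⁻¹)
    (n : ℕ) (hn : ¬ p ∣ n) (han : ∀ r ∈ R, a ^ n * r = r * a ^ n)
    (htn : ∀ r ∈ R, t ^ n * r = r * t ^ n) (th : Subgroup G → G → G → X)
    (hsl : ∀ P : Subgroup G, P ≤ R → (∀ r ∈ P, a * r * a⁻¹ ∈ P) → (∀ r ∈ P, t * r * t⁻¹ ∈ P) →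
      ∀ i j k m : ℤ, i * m - j * k = 1 → th P (a ^ i * t ^ j) (a ^ k * t ^ m) = th P a t)
    (hW : ∀ P : Subgroup G, P ≤ R → (∀ r ∈ P, a * r * a⁻¹ ∈ P) → (∀ r ∈ P, t * r * t⁻¹ ∈ P) →
      ∀ i j k m : ℤ, i * m - j * k = 1 → th P (a ^ i * t ^ j) (a ^ k * t ^ m) =
        th (P ⊔ (R ⊓ centralizer {a ^ i * t ^ j})) (a ^ i * t ^ j) (a ^ k * t ^ m)) :
    th ⊥ a t = th R a t := by
  refine prim_induction hR hab ha ht hc n hn han htn
    (fun P => P ≤ R ∧ (∀ r ∈ P, a * r * a⁻¹ ∈ P) ∧ (∀ r ∈ P, t * r * t⁻¹ ∈ P) →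
      th ⊥ a t = th P a t) (fun _ => rfl) ?_ ⟨le_rfl, ha, ht⟩
  rintro P hPR hPa hPt ih i j ⟨m, k, hij⟩ ⟨h1, h2, h3⟩
  have e1 : i * m - j * (-k) = 1 := by linear_combination hij
  rw [ih ⟨hPR, hPa, hPt⟩, ← hsl P hPR hPa hPt i j (-k) m e1, hW P hPR hPa hPt i j (-k) m e1,
    hsl _ h1 h2 h3 i j (-k) m e1]

end P179H872
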