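import Vale.Agent.P179.R2.H854.EqD
import Vale.Agent.P179.R2.H872.W4
import Vale.Agent.P179.R2.H12.Tst

/-!
# EQW: the chain from `M` to `R = C_D(T ∩ C(M))`
-/

namespace P179H872

open Subgroup P179H524 P179C P179A P179P P179Y P179H12 P179H854 P179R

open scoped Classical

universe u

section facts

variable {p : ℕ} [hp : Fact p.Prime] {k : Type u} [Field k] [IsAlgClosed k] [CharP k p]
  {G : Type} [Group G] [Fintype G] {D M : Subgroup G} {l : (G → k) → k}

/-- the inertial group fixes the block functions -/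
theorem cj_eH (hl : BP p D l) (hD : IsPGroup p D) (hab : D ≤ centralizer (D : Set G))
    {H : Subgroup G} (hCH : centralizer (D : Set G) ≤ H) {t : G} (ht : t ∈ stabT D l)
    (htH : t ∈ normalizer (H : Set G)) : cj t (eH H l) = eH H l := by
  have hm : MulH H l := BP.mulH hl hD hab hCH
  obtain ⟨b, hb, hlb, he⟩ := eH_spec hm
  rw [he]
  exact (mem_stH_iff hm hb hlb htH).1 (stabT_le_stH hl hCH ht htH)

omit [Fintype G] hp in
theorem norm_cent {K : Subgroup G} {t : G} (ht : t ∈ normalizer (K : Set G)) :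
    t ∈ normalizer ((centralizer (K : Set G) : Subgroup G) : Set G) := by
  rw [mem_normalizer_iff]
  intro h
  have key : ∀ s ∈ normalizer (K : Set G), ∀ h ∈ centralizer (K : Set G),
      s * h * s⁻¹ ∈ centralizer (K : Set G) := by
    intro s hs h hh
    rw [mem_centralizer_iff] at hh ⊢
    intro x hx
    have h1 : s⁻¹ * x * s ∈ K := by
      have h2 := (mem_normalizer_iff.1 (inv_mem hs) x).1 hx
      rwa [inv_inv] at h2
    have h3 := hh _ h1
    have h4 : s * (s⁻¹ * x * s * h) * s⁻¹ = s * (h * (s⁻¹ * x * s)) * s⁻¹ := by rw [h3]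
    have h5 : s * (s⁻¹ * x * s * h) * s⁻¹ = x * (s * h * s⁻¹) := by group
    have h6 : s * (h * (s⁻¹ * x * s)) * s⁻¹ = s * h * s⁻¹ * x := by group
    rw [← h5, ← h6, h4]
  constructor
  · exact key t ht h
  · intro hh
    have h1 := key t⁻¹ (inv_mem ht) _ hh
    have h2 : t⁻¹ * (t * h * t⁻¹) * t⁻¹⁻¹ = h := by group
    rwa [h2] at h1

omit [Fintype G] hp in
theorem norm_iff_of_conj [Finite G] {K : Subgroup G} {t : G} (h : ∀ r ∈ K, t * r * t⁻¹ ∈ K) :
    t ∈ normalizer (K : Set G) := by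
  have hmap : K.map (MulAut.conj t).toMonoidHom = K := by
    apply Subgroup.eq_of_le_of_card_ge
    · rintro _ ⟨x, hx, rfl⟩
      exact h x hx
    · rw [Subgroup.card_map_of_injective (MulAut.conj t).injective]
  rw [mem_normalizer_iff]
  intro x
  refine ⟨h x, fun hx => ?_⟩
  rw [← hmap] at hx
  obtain ⟨y, hy, hyx⟩ := hx
  have h1 : t * y * t⁻¹ = t * x * t⁻¹ := hyx
  have h2 : y = x := by
    have := congrArg (fun z => t⁻¹ * z * t) h1
    simpa [mul_assoc] using this
  rw [← h2]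
  exact hy

omit [Fintype G] hp in
theorem norm_sup' {A B : Subgroup G} {t : G} (hA : t ∈ normalizer (A : Set G))
    (hB : t ∈ normalizer (B : Set G)) [Finite G] :
    t ∈ normalizer ((A ⊔ B : Subgroup G) : Set G) := by
  apply norm_iff_of_conj
  have h1 : A ⊔ B ≤ (A ⊔ B).comap (MulAut.conj t).toMonoidHom := by
    rw [sup_le_iff]
    exact ⟨fun r hr => (le_sup_left : A ≤ A ⊔ B) ((mem_normalizer_iff.1 hA r).1 hr),
      fun r hr => (le_sup_right : B ≤ A ⊔ B) ((mem_normalizer_iff.1 hB r).1 hr)⟩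
  exact fun r hr => h1 hr

/-- the fixed points of `T ∩ C(M)` on `D` -/
abbrev RR (D M : Subgroup G) (T : Subgroup G) : Subgroup G :=
  D ⊓ centralizer ((T ⊓ centralizer (M : Set G) : Subgroup G) : Set G)

omit [Fintype G] hp in
theorem M_le_RR {T : Subgroup G} (hMD : M ≤ D) : M ≤ RR D M T := by
  refine le_inf hMD fun m hm => ?_
  rw [mem_centralizer_iff]
  intro t ht
  exact ((mem_centralizer_iff.1 ht.2) m hm).symm

omit [Fintype G] hp in
/-- an element of `T ∩ C(M)` centralises everything between `M` and `R` -/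
theorem mem_cent_of_le {T K : Subgroup G} (hK : K ≤ RR D M T) {t : G}
    (ht : t ∈ T ⊓ centralizer (M : Set G)) : t ∈ centralizer (K : Set G) := by
  rw [mem_centralizer_iff]
  intro r hr
  exact ((mem_centralizer_iff.1 (hK hr).2) t ht).symm

omit [Fintype G] hp in
theorem inf_cent_eq {T K : Subgroup G} (hMK : M ≤ K) (hK : K ≤ RR D M T) :
    T ⊓ centralizer (K : Set G) = T ⊓ centralizer (M : Set G) :=
  le_antisymm (inf_le_inf_left T (centralizer_le hMK))
    (fun _ ht => ⟨ht.1, mem_cent_of_le hK ht⟩)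

omit [Fintype G] hp in
theorem norm_RR [Finite G] {T : Subgroup G} (hTD : T ≤ normalizer (D : Set G))
    (hTM : T ≤ normalizer (M : Set G)) {t : G} (ht : t ∈ T) :
    t ∈ normalizer ((RR D M T : Subgroup G) : Set G) := by
  apply norm_iff_of_conj
  rintro r ⟨hrD, hrC⟩
  refine ⟨(mem_normalizer_iff.1 (hTD ht) r).1 hrD, ?_⟩
  have h1 : t ∈ normalizer ((centralizer ((T ⊓ centralizer (M : Set G) : Subgroup G) : Set G) :
      Subgroup G) : Set G) := by
    apply norm_cent
    apply norm_iff_of_conj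
    rintro s ⟨hsT, hsC⟩
    have h2 : t * s * t⁻¹ ∈ T := T.mul_mem (T.mul_mem ht hsT) (T.inv_mem ht)
    exact ⟨h2, (mem_normalizer_iff.1 (norm_cent (hTM ht)) s).1 hsC⟩
  exact (mem_normalizer_iff.1 h1 r).1 hrC

end facts

section chain

variable {p : ℕ} [hp : Fact p.Prime] {k : Type u} [Field k] [IsAlgClosed k] [CharP k p]
  {G : Type} [Group G] [Fintype G] {D M : Subgroup G} {l : (G → k) → k}

/-- **the chain**: the lifted traces for `C(M)` and for `C(R)` agree -/
theorem bt_chain (hW1 : W1S p k) (hSL : SL2S p k) (hl : BP p D l) (hD : IsPGroup p D)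
    (hab : D ≤ centralizer (D : Set G))
    (hT : ¬ p ∣ (centralizer (D : Set G)).relIndex (stabT D l)) (hMD : M ≤ D)
    (hTM : stabT D l ≤ normalizer (M : Set G)) {L : k → ℂ} {ζ : k} {n : ℕ}
    (hn : n = (centralizer (M : Set G)).relIndex (stabT D l))
    (hL : Lift k n L) (hζ : IsPrimitiveRoot ζ n) {x y : G} (hx : x ∈ stabT D l)
    (hy : y ∈ stabT D l) (hxy : y * x * y⁻¹ * x⁻¹ ∈ centralizer (M : Set G)) :
    bt L ζ n (LG p (centralizer (M : Set G)) (eH (centralizer (M : Set G)) l) x) y =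
    bt L ζ n (LG p (centralizer ((RR D M (stabT D l) : Subgroup G) : Set G))
      (eH (centralizer ((RR D M (stabT D l) : Subgroup G) : Set G)) l) x) y := by
  set T := stabT D l with hTdef
  set R := RR D M T with hR
  have hTD : T ≤ normalizer (D : Set G) := fun t ht => ht.1
  have hMR : M ≤ R := M_le_RR hMD
  have hRD : R ≤ D := inf_le_left
  have hCDM : centralizer (D : Set G) ≤ centralizer (M : Set G) := centralizer_le hMD
  have hpn : ¬ p ∣ n := by
    intro h
    apply hT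
    rw [hn] at h
    exact h.trans (Subgroup.relIndex_dvd_of_le_left T hCDM)
  -- the normal subgroup `T ∩ C(M)` of `T`
  have hTCM : T ≤ normalizer ((centralizer (M : Set G) : Subgroup G) : Set G) :=
    fun t ht => norm_cent (hTM ht)
  have hnor : ((centralizer (M : Set G)).subgroupOf T).Normal :=
    normal_subgroupOf_of_le_normalizer hTCM
  have hcard : Nat.card (T ⧸ (centralizer (M : Set G)).subgroupOf T) = n := by
    rw [hn]; rfl
  let π : T →* T ⧸ (centralizer (M : Set G)).subgroupOf T :=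
    QuotientGroup.mk' ((centralizer (M : Set G)).subgroupOf T)
  have hπ : ∀ t : T, π t = 1 ↔ (t : G) ∈ centralizer (M : Set G) := fun t =>
    QuotientGroup.eq_one_iff t
  let X : T := ⟨x, hx⟩
  let Y : T := ⟨y, hy⟩
  have hXY : Commute (π X) (π Y) := by
    have h1 : π (Y * X * Y⁻¹ * X⁻¹) = 1 := (hπ _).2 hxy
    rw [map_mul, map_mul, map_mul, map_inv, map_inv] at h1
    have h2 : π Y * π X = π X * π Y := by
      have h3 : π Y * π X = (π Y * π X * (π Y)⁻¹ * (π X)⁻¹) * (π X * π Y) := by group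
      rw [h3, h1, one_mul]
    exact h2.symm
  have hpow : ∀ t ∈ T, t ^ n ∈ T ⊓ centralizer (M : Set G) := by
    intro t ht
    refine ⟨pow_mem ht n, ?_⟩
    have h1 : π (⟨t, ht⟩ ^ n) = 1 := by
      rw [map_pow, ← hcard]
      exact pow_card_eq_one'
    exact (hπ _).1 h1
  have hcomT : ∀ i j r m : ℤ, (x ^ r * y ^ m) * (x ^ i * y ^ j) * (x ^ r * y ^ m)⁻¹ *
      (x ^ i * y ^ j)⁻¹ ∈ T ⊓ centralizer (M : Set G) := by
    intro i j r m
    have e1 : (((X ^ r * Y ^ m) * (X ^ i * Y ^ j) * (X ^ r * Y ^ m)⁻¹ * (X ^ i * Y ^ j)⁻¹ : T) : G)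
        = (x ^ r * y ^ m) * (x ^ i * y ^ j) * (x ^ r * y ^ m)⁻¹ * (x ^ i * y ^ j)⁻¹ := by
      push_cast
      rfl
    rw [← e1]
    refine ⟨Subtype.coe_prop _, ?_⟩
    refine (hπ _).1 ?_
    simp only [map_mul, map_inv, map_zpow]
    have hc1 : Commute (π X ^ r * π Y ^ m) (π X ^ i * π Y ^ j) := by
      have c1 : Commute (π X) (π X) := Commute.refl _
      have c2 : Commute (π Y) (π Y) := Commute.refl _
      exact ((c1.zpow_zpow r i).mul_right (hXY.zpow_zpow r j)).mul_left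
        ((hXY.symm.zpow_zpow m i).mul_right (c2.zpow_zpow m j))
    rw [hc1.eq, mul_assoc (π X ^ i * π Y ^ j), mul_inv_cancel, mul_one, mul_inv_cancel]
  -- conjugation
  have hnormR : ∀ t ∈ T, ∀ r ∈ R, t * r * t⁻¹ ∈ R := fun t ht r hr =>
    (mem_normalizer_iff.1 (norm_RR hTD hTM ht) r).1 hr
  have hcR : ∀ r ∈ R, x * (y * r * y⁻¹) * x⁻¹ = y * (x * r * x⁻¹) * y⁻¹ := by
    intro r hr
    have h1 := hcomT 0 1 1 0
    simp only [zpow_one, zpow_zero, one_mul, mul_one] at h1
    -- `x y x⁻¹ y⁻¹` centralises `R`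
    have h2 := mem_centralizer_iff.1 (mem_cent_of_le (le_refl R) h1) _
      (hnormR y hy _ (hnormR x hx r hr))
    have h3 : x * (y * r * y⁻¹) * x⁻¹ = (x * y * x⁻¹ * y⁻¹) * (y * (x * r * x⁻¹) * y⁻¹) *
        (x * y * x⁻¹ * y⁻¹)⁻¹ := by group
    rw [h3, ← h2]
    group
  have hcommR : ∀ t ∈ T ⊓ centralizer (M : Set G), ∀ r ∈ R, t * r = r * t := fun t ht r hr =>
    (mem_centralizer_iff.1 (mem_cent_of_le (le_refl R) ht) r hr).symm
  -- facts for `P`
  have hPfacts : ∀ P ≤ R, (∀ r ∈ P, x * r * x⁻¹ ∈ P) → (∀ r ∈ P, y * r * y⁻¹ ∈ P) →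
      M ⊔ P ≤ R ∧ x ∈ normalizer ((M ⊔ P : Subgroup G) : Set G) ∧
        y ∈ normalizer ((M ⊔ P : Subgroup G) : Set G) := by
    intro P hPR hPx hPy
    exact ⟨sup_le hMR hPR, norm_sup' (hTM hx) (norm_iff_of_conj hPx),
      norm_sup' (hTM hy) (norm_iff_of_conj hPy)⟩
  have key := chain (p := p) (R := R) (hD.to_le hRD)
    (fun a ha b hb => ((mem_centralizer_iff.1 (hab (hRD ha))) b (hRD hb)).symm)
    (hnormR x hx) (hnormR y hy) hcR n hpn
    (fun r hr => hcommR _ (hpow x hx) r hr) (fun r hr => hcommR _ (hpow y hy) r hr)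
    (fun P a t => bt L ζ n (LG p (centralizer ((M ⊔ P : Subgroup G) : Set G))
      (eH (centralizer ((M ⊔ P : Subgroup G) : Set G)) l) a) t) ?_ ?_
  · rw [sup_bot_eq, sup_eq_right.2 hMR] at key
    exact key
  · intro P hPR hPx hPy i j r m hij
    obtain ⟨hMP, hxn, hyn⟩ := hPfacts P hPR hPx hPy
    have hCD : centralizer (D : Set G) ≤ centralizer ((M ⊔ P : Subgroup G) : Set G) :=
      centralizer_le (hMP.trans hRD)
    have hm : MulH (centralizer ((M ⊔ P : Subgroup G) : Set G)) l := BP.mulH hl hD hab hCD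
    have h1 := hcomT 1 0 0 1
    simp only [zpow_one, zpow_zero, one_mul, mul_one] at h1
    exact hSL L ζ n G _ _ hL hζ hpn (invOn_eH hm).2 (eH_idem hm) (invOn_eH hm).1 x y
      (norm_cent hxn) (norm_cent hyn) (cj_eH hl hD hab hCD hx (norm_cent hxn))
      (cj_eH hl hD hab hCD hy (norm_cent hyn)) (mem_cent_of_le hMP h1)
      (mem_cent_of_le hMP (hpow x hx)) (mem_cent_of_le hMP (hpow y hy)) i j r m hij
  · intro P hPR hPx hPy i j r m hij
    obtain ⟨hMP, hxn, hyn⟩ := hPfacts P hPR hPx hPy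
    have h1 := hW1 L ζ n G D (M ⊔ P) l hl hD hab hT (hMP.trans hRD) (x ^ i * y ^ j)
      (mul_mem (zpow_mem hx i) (zpow_mem hy j)) (x ^ r * y ^ m)
      (mul_mem (zpow_mem hx r) (zpow_mem hy m)) (mul_mem (zpow_mem hxn i) (zpow_mem hyn j))
      (mul_mem (zpow_mem hxn r) (zpow_mem hyn m)) (mem_cent_of_le hMP (hcomT i j r m))
    have h2 : M ⊔ P ⊔ (D ⊓ centralizer ((T ⊓ centralizer ((M ⊔ P : Subgroup G) : Set G) :
        Subgroup G) : Set G) ⊓ centralizer {x ^ i * y ^ j}) =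
        M ⊔ (P ⊔ (R ⊓ centralizer {x ^ i * y ^ j})) := by
      rw [inf_cent_eq le_sup_left hMP, sup_assoc]
    rw [← hTdef, h2] at h1
    exact h1

end chain

end P179H872
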