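import Vale.Agent.P179.R2.H854.EqT
import Vale.Agent.P179.R2.H443.EqwDef
import Vale.Agent.P179.R2.H872.E5

/-!
# EQW: the sum formula in a subgroup `T N` and the theorem
-/

namespace P179H872

open scoped Pointwise
open Subgroup P179H524 P179C P179A P179P P179Y P179H12 P179H854 P179R

open scoped Classical

universe u

section sum

variable {p : ℕ} [hp : Fact p.Prime] {k : Type u} [Field k] [IsAlgClosed k] [CharP k p]
  {G : Type} [Group G] [Fintype G]

/-- the sum formula in `T N`, the sum over the pairs of elements of `T / (T ∩ N)` -/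
theorem sum_formula (hSum : SumS p k) {T N : Subgroup G} (hTN : T ≤ normalizer (N : Set G))
    {e : G → k} (he0 : ∀ x, x ∉ N → e x = 0) (hee : conv e e = e)
    (heN : ∀ m ∈ N, ∀ x, e (m * x * m⁻¹) = e x) (heT : ∀ t ∈ T, cj t e = e)
    {A : Type} [Group A] (π : T →* A) (hπs : Function.Surjective π)
    (hker : ∀ t : T, π t = 1 ↔ (t : G) ∈ N) (r : A → T) (hr : ∀ a, π (r a) = a)
    {L : k → ℂ} {ζ : k} {n : ℕ} (hn : n = Nat.card A) (hpn : ¬ p ∣ n) (hL : Lift k n L)
    (hζ : IsPrimitiveRoot ζ n) :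
    (n : ℂ) * numSimpleIn (mkF fun g : (T ⊔ N : Subgroup G) => e g) =
      ∑ᶠ z : A × A, if z.1 * z.2 = z.2 * z.1 then
        bt L ζ n (LG p N e (r z.1 : G)) (r z.2 : G) else 0 := by
  set Γ : Subgroup G := T ⊔ N with hΓ
  have hTΓ : T ≤ Γ := le_sup_left
  have hNΓ : N ≤ Γ := le_sup_right
  have hnor : (N.subgroupOf Γ).Normal := normal_subgroupOf_sup_of_le_normalizer hTN
  -- `e` is a class function on `Γ`
  let S : Subgroup G :=
    { carrier := {g | ∀ x, e (g * x * g⁻¹) = e x}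
      mul_mem' := fun {a b} ha hb x => by
        have h1 : a * b * x * (a * b)⁻¹ = a * (b * x * b⁻¹) * a⁻¹ := by group
        rw [h1, ha, hb]
      one_mem' := fun x => by rw [one_mul, inv_one, mul_one]
      inv_mem' := fun {a} ha x => by
        rw [← ha (a⁻¹ * x * a⁻¹⁻¹)]
        congr 1
        group }
  have hΓS : Γ ≤ S := by
    rw [hΓ, sup_le_iff]
    refine ⟨fun t ht x => ?_, fun m hm x => heN m hm x⟩
    have h1 := congrFun (heT t ht) (t * x * t⁻¹)
    rw [← h1]
    unfold cj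
    congr 1
    group
  have hcf : IsCF (fun g : Γ => e g) := fun g x => hΓS g.2 x
  have hconv : conv (fun g : Γ => e g) (fun g : Γ => e g) = fun g : Γ => e g := by
    funext x
    rw [show e (x : G) = conv e e (x : G) by rw [hee]]
    unfold conv
    rw [P179H854.sum_subE Γ]
    · rfl
    · intro y hy
      rw [he0 y fun h => hy (hNΓ h), zero_mul]
  -- the quotients
  let F : A → Γ ⧸ N.subgroupOf Γ := fun a =>
    ((⟨r a, hTΓ (r a).2⟩ : Γ) : Γ ⧸ N.subgroupOf Γ)
  have hmkN : ∀ x y : Γ, (x : Γ ⧸ N.subgroupOf Γ) = (y : Γ ⧸ N.subgroupOf Γ) ↔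
      (x : G)⁻¹ * y ∈ N := fun x y => by
    rw [QuotientGroup.eq, mem_subgroupOf]
    rfl
  have hπN : ∀ s t : T, π s = π t ↔ (s : G)⁻¹ * t ∈ N := by
    intro s t
    have h1 := hker (s⁻¹ * t)
    rw [map_mul, map_inv, inv_mul_eq_one] at h1
    exact h1
  have hFmul : ∀ a b, F (a * b) = F a * F b := by
    intro a b
    change ((⟨r (a * b), _⟩ : Γ) : Γ ⧸ N.subgroupOf Γ) =
      ((⟨r a, _⟩ * ⟨r b, _⟩ : Γ) : Γ ⧸ N.subgroupOf Γ)
    rw [hmkN]
    have h1 : π (r (a * b)) = π (r a * r b) := by rw [hr, map_mul, hr, hr]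
    exact (hπN _ _).1 h1
  have hFinj : Function.Injective F := by
    intro a b hab
    have h1 := (hmkN _ _).1 hab
    have h2 := (hπN (r a) (r b)).2 h1
    rwa [hr, hr] at h2
  have hFsurj : Function.Surjective F := by
    intro q
    induction q using QuotientGroup.induction_on with
    | H g =>
      obtain ⟨g, hg⟩ := g
      have hg' : g ∈ T ⊔ N := hg
      obtain ⟨t, ht, m, hm, htm⟩ : ∃ t ∈ T, ∃ m ∈ N, t * m = g := by
        have h1 := coe_mul_of_left_le_normalizer_right T N hTN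
        have h2 : g ∈ (T : Set G) * (N : Set G) := by rw [← h1]; exact hg'
        obtain ⟨t, ht, m, hm, h⟩ := h2
        exact ⟨t, ht, m, hm, h⟩
      refine ⟨π ⟨t, ht⟩, ?_⟩
      change ((⟨r (π ⟨t, ht⟩), _⟩ : Γ) : Γ ⧸ N.subgroupOf Γ) = ((⟨g, hg⟩ : Γ) : Γ ⧸ N.subgroupOf Γ)
      rw [hmkN]
      have h1 : π (r (π ⟨t, ht⟩)) = π ⟨t, ht⟩ := hr _
      have h2 := (hπN _ _).1 h1
      change ((r (π ⟨t, ht⟩) : T) : G)⁻¹ * g ∈ N
      rw [← htm, ← mul_assoc]
      exact mul_mem h2 hm
  let E : A ≃ Γ ⧸ N.subgroupOf Γ := Equiv.ofBijective F ⟨hFinj, hFsurj⟩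
  have hidx : (N.subgroupOf Γ).index = n := by
    rw [hn]
    exact (Nat.card_congr E).symm
  have h1 := hSum L ζ Γ (N.subgroupOf Γ) (fun g : Γ => e g) (by rw [hidx]; exact hpn)
    (fun x hx => he0 _ fun h => hx (mem_subgroupOf.2 h)) hcf hconv (by rw [hidx]; exact hL)
    (by rw [hidx]; exact hζ) (fun q => ⟨r (E.symm q), hTΓ (r (E.symm q)).2⟩)
    (fun q => E.apply_symm_apply q)
  rw [hidx] at h1
  rw [h1]
  symm
  refine finsum_eq_of_bijective (fun z : A × A => (E z.1, E z.2))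
    (Function.Bijective.prodMap E.bijective E.bijective) fun z => ?_
  have h2 : (E z.1 * E z.2 = E z.2 * E z.1) ↔ z.1 * z.2 = z.2 * z.1 := by
    change F z.1 * F z.2 = F z.2 * F z.1 ↔ _
    rw [← hFmul, ← hFmul]
    exact hFinj.eq_iff
  dsimp only
  by_cases h3 : z.1 * z.2 = z.2 * z.1
  · rw [if_pos h3, if_pos (h2.2 h3)]
    simp only [E.symm_apply_apply]
    exact (bt_sub hNΓ he0 (⟨r z.1, hTΓ (r z.1).2⟩ : Γ) (⟨r z.2, hTΓ (r z.2).2⟩ : Γ) L ζ n).symm
  · rw [if_neg h3, if_neg fun h => h3 (h2.1 h)]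

end sum

/-- **EQW** -/
theorem eqwStmt {p : ℕ} [hp : Fact p.Prime] {k : Type u} [Field k] [IsAlgClosed k] [CharP k p]
    (hW1 : W1S p k) (hSum : SumS p k) (hSL : SL2S p k) : P179H443.EqwStmt p k := by
  intro G _ _ D M R l hl hD hab hT hMD hTM' hRdef
  have hTM : stabT D l ≤ normalizer (M : Set G) := fun t ht => norm_iff_of_conj (hTM' t ht)
  set T := stabT D l with hTdef
  have hRR : R = RR D M T := hRdef
  rw [hRR]
  have hTD : T ≤ normalizer (D : Set G) := fun t ht => ht.1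
  have hMR : M ≤ RR D M T := M_le_RR hMD
  have hRD : RR D M T ≤ D := inf_le_left
  have hCDM : centralizer (D : Set G) ≤ centralizer (M : Set G) := centralizer_le hMD
  have hCDR : centralizer (D : Set G) ≤ centralizer ((RR D M T : Subgroup G) : Set G) :=
    centralizer_le hRD
  have hTCM : T ≤ normalizer ((centralizer (M : Set G) : Subgroup G) : Set G) :=
    fun t ht => norm_cent (hTM ht)
  have hTCR : T ≤ normalizer ((centralizer ((RR D M T : Subgroup G) : Set G) : Subgroup G) :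
      Set G) := fun t ht => norm_cent (norm_RR hTD hTM ht)
  have hnor : ((centralizer (M : Set G)).subgroupOf T).Normal :=
    normal_subgroupOf_of_le_normalizer hTCM
  set n := (centralizer (M : Set G)).relIndex T with hn
  have hpn : ¬ p ∣ n := fun h => hT (h.trans (Subgroup.relIndex_dvd_of_le_left T hCDM))
  have hn0 : n ≠ 0 := fun h => hpn (h ▸ dvd_zero p)
  have hnk : (n : k) ≠ 0 := by
    rw [Ne, CharP.cast_eq_zero_iff k p]
    exact hpn
  obtain ⟨L, hL⟩ := exists_lift k hnk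
  obtain ⟨ζ, hζ⟩ : ∃ ζ : k, IsPrimitiveRoot ζ n := by
    have : NeZero n := ⟨hn0⟩
    have : NeZero (n : k) := ⟨hnk⟩
    exact HasEnoughRootsOfUnity.exists_primitiveRoot k n
  let A : Type := T ⧸ (centralizer (M : Set G)).subgroupOf T
  let π : T →* A := QuotientGroup.mk' _
  have hπs : Function.Surjective π := QuotientGroup.mk'_surjective _
  have hkerM : ∀ t : T, π t = 1 ↔ (t : G) ∈ centralizer (M : Set G) := fun t =>
    QuotientGroup.eq_one_iff t
  have hkerR : ∀ t : T, π t = 1 ↔ (t : G) ∈ centralizer ((RR D M T : Subgroup G) : Set G) := by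
    intro t
    rw [hkerM]
    have h1 := inf_cent_eq (T := T) hMR (le_refl (RR D M T))
    constructor
    · intro h
      have h2 : (t : G) ∈ T ⊓ centralizer (M : Set G) := ⟨t.2, h⟩
      rw [← h1] at h2
      exact h2.2
    · intro h
      exact centralizer_le hMR h
  have hcard : n = Nat.card A := rfl
  choose r hr using hπs
  have hmM : MulH (centralizer (M : Set G)) l := BP.mulH hl hD hab hCDM
  have hmR : MulH (centralizer ((RR D M T : Subgroup G) : Set G)) l := BP.mulH hl hD hab hCDR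
  have h1 := sum_formula hSum hTCM (invOn_eH hmM).2 (eH_idem hmM) (invOn_eH hmM).1
    (fun t ht => cj_eH hl hD hab hCDM ht (hTCM ht)) π (QuotientGroup.mk'_surjective _) hkerM r hr
    hcard hpn hL hζ
  have h2 := sum_formula hSum hTCR (invOn_eH hmR).2 (eH_idem hmR) (invOn_eH hmR).1
    (fun t ht => cj_eH hl hD hab hCDR ht (hTCR ht)) π (QuotientGroup.mk'_surjective _) hkerR r hr
    hcard hpn hL hζ
  have h3 : (n : ℂ) * numSimpleIn (mkF fun g : (T ⊔ centralizer (M : Set G) : Subgroup G) =>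
      eH (centralizer (M : Set G)) l g) = (n : ℂ) * numSimpleIn (mkF fun g :
        (T ⊔ centralizer ((RR D M T : Subgroup G) : Set G) : Subgroup G) =>
      eH (centralizer ((RR D M T : Subgroup G) : Set G)) l g) := by
    rw [h1, h2]
    refine finsum_congr fun z => ?_
    by_cases hz : z.1 * z.2 = z.2 * z.1
    · rw [if_pos hz, if_pos hz]
      refine bt_chain hW1 hSL hl hD hab hT hMD hTM hn hL hζ (r z.1).2 (r z.2).2 ?_
      rw [← hTdef] at *
      have h4 : π (r z.2 * r z.1 * (r z.2)⁻¹ * (r z.1)⁻¹) = 1 := by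
        rw [map_mul, map_mul, map_mul, map_inv, map_inv, hr, hr, hz.symm]
        group
      exact (hkerM _).1 h4
    · rw [if_neg hz, if_neg hz]
  have h4 := mul_left_cancel₀ (Nat.cast_ne_zero.2 hn0) h3
  exact_mod_cast h4

end P179H872
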