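import Vale.Agent.P179.R2.H872.E6
import Vale.Agent.P179.R2.H967.W1F
import Vale.Agent.P179.R2.H854.EqS2

/-! Assembly: the equivariant Watanabe theorem from its one remaining input `SumS`
(`w1S` is 967's, `sl2S` is 854's). (helper872) -/

namespace P179H872

/-- EQW from the summand statement alone. -/
theorem eqwStmt_of_sum (p : ℕ) [Fact p.Prime] (k : Type*) [Field k] [IsAlgClosed k] [CharP k p]
    (hSum : P179H854.SumS p k) : P179H443.EqwStmt p k :=
  P179H872.eqwStmt (P179H967.w1S p k) hSum (P179H854.sl2S p k)

end P179H872
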