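import Vale.Agent.P179.R2.H872.Prop
import Vale.Agent.P179.R2.H12.Blk

/-!
# Decomposition of `FB` along the fibres of a homomorphism to an abelian group
-/

namespace P179H872

open P179H524 P179C P179A P179R P179P P179Y Finset MonoidAlgebra

open P179C.C2 (Om cls phi)

open scoped Classical

universe u

section

variable (p : ℕ) {k : Type u} [Field k] {H : Type} [Group H] [Fintype H]
  {A : Type*} [CommGroup A]

/-- the functions of `FB` supported on the fibre of `a` -/
noncomputable def FBa (π : H →* A) (B : MonoidAlgebra k H) (a : A) : Submodule k (H → k) where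
  carrier := {ψ | ψ ∈ FB p B ∧ ∀ g, π g ≠ a → ψ g = 0}
  add_mem' := by
    rintro x y ⟨hx, hx'⟩ ⟨hy, hy'⟩
    refine ⟨add_mem hx hy, fun g hg => ?_⟩
    rw [Pi.add_apply, hx' g hg, hy' g hg, add_zero]
  zero_mem' := ⟨zero_mem _, fun _ _ => rfl⟩
  smul_mem' := by
    rintro c x ⟨hx, hx'⟩
    refine ⟨Submodule.smul_mem _ c hx, fun g hg => ?_⟩
    rw [Pi.smul_apply, hx' g hg, smul_zero]

variable {p}

theorem mem_FBa {π : H →* A} {B : MonoidAlgebra k H} {a : A} {ψ : H → k} :
    ψ ∈ FBa p π B a ↔ ψ ∈ FB p B ∧ ∀ g, π g ≠ a → ψ g = 0 := Iff.rfl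

/-- the restriction of a function to a fibre -/
noncomputable def cutA (π : H →* A) (a : A) (ψ : H → k) (g : H) : k := if π g = a then ψ g else 0

theorem cutA_mem {π : H →* A} (hpr : ∀ g, π (pr p g) = π g) {B : MonoidAlgebra k H}
    (hB : ∀ g, π g ≠ 1 → B.coeff g = 0) (a : A) {ψ : H → k} (hψ : ψ ∈ FB p B) :
    cutA π a ψ ∈ FBa p π B a := by
  refine ⟨⟨fun g x => ?_, fun x => ?_, fun y => ?_⟩, fun g hg => if_neg hg⟩
  · have h1 : π (g * x * g⁻¹) = π x := by
      rw [map_mul, map_mul, map_inv, mul_comm (π g), mul_inv_cancel_right]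
    unfold cutA
    rw [h1, hψ.1]
  · unfold cutA
    rw [hpr, hψ.2.1]
  · have h1 : ∀ g, B.coeff g * cutA π a ψ (g * y) =
        if π y = a then B.coeff g * ψ (g * y) else 0 := by
      intro g
      by_cases hg : π g = 1
      · unfold cutA
        rw [map_mul, hg, one_mul]
        split_ifs
        · rfl
        · rw [mul_zero]
      · rw [hB g hg, zero_mul]
        split_ifs
        · rw [zero_mul]
        · rfl
    rw [Finset.sum_congr rfl fun g _ => h1 g]
    unfold cutA
    split_ifs with h
    · exact hψ.2.2 y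
    · exact Finset.sum_const_zero

/-- the decomposition along the fibres -/
noncomputable def splitA {π : H →* A} (hpr : ∀ g, π (pr p g) = π g) {B : MonoidAlgebra k H}
    (hB : ∀ g, π g ≠ 1 → B.coeff g = 0) : FB p B ≃ₗ[k] (Π a : A, FBa p π B a) where
  toFun ψ := fun a => ⟨cutA π a ψ.1, cutA_mem hpr hB a ψ.2⟩
  invFun f := ⟨fun g => (f (π g)).1 g, by
    refine ⟨fun g x => ?_, fun x => ?_, fun y => ?_⟩
    · have h1 : π (g * x * g⁻¹) = π x := by
        rw [map_mul, map_mul, map_inv, mul_comm (π g), mul_inv_cancel_right]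
      dsimp only
      rw [h1]
      exact (f (π x)).2.1.1 g x
    · dsimp only
      rw [hpr]
      exact (f (π x)).2.1.2.1 x
    · have h1 : ∀ g, B.coeff g * (f (π (g * y))).1 (g * y) =
          B.coeff g * (f (π y)).1 (g * y) := by
        intro g
        by_cases hg : π g = 1
        · rw [map_mul, hg, one_mul]
        · rw [hB g hg, zero_mul, zero_mul]
      dsimp only
      rw [Finset.sum_congr rfl fun g _ => h1 g]
      exact (f (π y)).2.1.2.2 y⟩
  map_add' x y := by
    funext a
    apply Subtype.ext
    funext g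
    change cutA π a (x.1 + y.1) g = cutA π a x.1 g + cutA π a y.1 g
    unfold cutA
    split_ifs
    · rfl
    · rw [add_zero]
  map_smul' c x := by
    funext a
    apply Subtype.ext
    funext g
    change cutA π a (c • x.1) g = c • cutA π a x.1 g
    unfold cutA
    split_ifs
    · rfl
    · rw [smul_zero]
  left_inv ψ := by
    apply Subtype.ext
    funext g
    exact if_pos rfl
  right_inv f := by
    funext a
    apply Subtype.ext
    funext g
    change (if π g = a then (f (π g)).1 g else 0) = (f a).1 g
    split_ifs with h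
    · subst h
      rfl
    · exact ((f a).2.2 g h).symm

/-- **the dimension of `FB` is the sum of the dimensions of the fibre components** -/
theorem finrank_FB_eq [Finite A] {π : H →* A} (hpr : ∀ g, π (pr p g) = π g)
    {B : MonoidAlgebra k H} (hB : ∀ g, π g ≠ 1 → B.coeff g = 0) :
    Module.finrank k (FB p B) = ∑ᶠ a : A, Module.finrank k (FBa p π B a) := by
  have := Fintype.ofFinite A
  rw [(splitA hpr hB).finrank_eq, Module.finrank_pi_fintype, finsum_eq_sum_of_fintype]

omit [Fintype H] in
/-- the regular part lies in the same fibre -/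
theorem map_pr_eq [hp : Fact p.Prime] [Finite H] (π : H →* A) (h : ∀ g, ¬ p ∣ orderOf (π g))
    (g : H) : π (pr p g) = π g := by
  have h1 := Q7.map_pr p π g (C2.ord_ne g)
  rw [Q7.pr_of_regular p _ (by
    have h2 := orderOf_map_dvd π g
    have h3 := C2.ord_ne g
    intro h0
    rw [h0] at h2
    exact h3 (Nat.eq_zero_of_zero_dvd h2)) (h g)] at h1
  exact h1

/-- **the number of the simple modules in `e` is the sum of the dimensions of the fibre
components** -/
theorem numSimpleIn_eq_sum [hp : Fact p.Prime] [IsAlgClosed k] [CharP k p] [Finite A]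
    (π : H →* A) (hidx : ¬ p ∣ Nat.card A) {e : H → k} (heN : ∀ x, π x ≠ 1 → e x = 0)
    (hcf : IsCF e) (hee : conv e e = e) :
    numSimpleIn (mkF e) = ∑ᶠ a : A, Module.finrank k (FBa p π (mkF e) a) := by
  have hcen : mkF e ∈ Subalgebra.center k (MonoidAlgebra k H) := by
    rw [P179C.mem_center_iff]
    have h1 : (fun g => (mkF e).coeff g) = e := funext fun g => coeff_mkF e g
    change IsCF (fun g => (mkF e).coeff g)
    rw [h1]
    exact hcf
  have hid : mkF e * mkF e = mkF e := by
    rw [← mkF_conv, hee]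
  rw [← finrank_FB p hcen hid]
  refine finrank_FB_eq (map_pr_eq π fun g h => hidx (h.trans (orderOf_dvd_natCard _))) ?_
  intro g hg
  rw [coeff_mkF]
  exact heN g hg

end

end P179H872
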