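import Vale.Agent.P179.R2.H872.Cos8
import Vale.Agent.P179.R2.H872.Cos
import Vale.Agent.P179.R2.H854.Fx2

/-!
# The Clifford count for cyclic quotients
-/

namespace P179H872

open P179H524 P179C P179A P179R P179P P179Y Finset MonoidAlgebra P179H843

open P179C.C2 (Om cls phi)

open scoped Classical

universe u

section basic

variable {k : Type u} [Field k] {Γ : Type} [Group Γ] [Fintype Γ]

theorem sum_sub {M : Type*} [AddCommMonoid M] (T : Subgroup Γ) (F : Γ → M)
    (h : ∀ g, g ∉ T → F g = 0) :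
    ∑ g : Γ, F g = ∑ t : T, F t := by
  rw [← Finset.sum_filter_add_sum_filter_not Finset.univ (fun g : Γ => g ∈ T) F]
  have h1 : ∑ g ∈ Finset.univ.filter (fun g : Γ => ¬ g ∈ T), F g = 0 :=
    Finset.sum_eq_zero fun g hg => h g (Finset.mem_filter.1 hg).2
  rw [h1, add_zero]
  exact Finset.sum_subtype (Finset.univ.filter fun g : Γ => g ∈ T)
    (fun g => by rw [Finset.mem_filter]; exact ⟨fun h => h.2, fun h => ⟨Finset.mem_univ _, h⟩⟩) F

theorem inc_mkF (T : Subgroup Γ) {e : Γ → k} (he : ∀ x, x ∉ T → e x = 0) :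
    inc T (mkF fun x : T => e x) = mkF e := by
  rw [mkF, map_sum, mkF, sum_sub T _ fun g hg => ?_]
  · exact Finset.sum_congr rfl fun t _ => inc_single T t _
  · rw [he g hg, single_zero]

theorem mkF_injective {H : Type} [Group H] [Fintype H] {a b : H → k} (h : mkF a = mkF b) :
    a = b := by
  funext g
  rw [← coeff_mkF a g, h, coeff_mkF]

theorem mkF_idem (T : Subgroup Γ) {e : Γ → k} (he : ∀ x, x ∉ T → e x = 0) (hee : conv e e = e) :
    (mkF fun x : T => e x) * (mkF fun x : T => e x) = mkF fun x : T => e x := by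
  apply inc_injective T
  rw [map_mul, inc_mkF T he, ← mkF_conv, hee]

theorem conv_idem (T : Subgroup Γ) {e : Γ → k} (he : ∀ x, x ∉ T → e x = 0) (hee : conv e e = e) :
    conv (fun x : T => e x) (fun x : T => e x) = fun x : T => e x := by
  apply mkF_injective
  rw [mkF_conv, mkF_idem T he hee]

theorem mkF_central {e : Γ → k} (hcf : IsCF e) :
    mkF e ∈ Subalgebra.center k (MonoidAlgebra k Γ) := by
  rw [P179C.mem_center_iff]
  intro g x
  change (mkF e).coeff (g * x * g⁻¹) = (mkF e).coeff x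
  rw [coeff_mkF, coeff_mkF, hcf]

end basic

section FBLI

variable {p : ℕ} [hp : Fact p.Prime] {k : Type u} [Field k] {Γ : Type} [Group Γ] [Fintype Γ]
  {N : Subgroup Γ} [hN : N.Normal]

/-- **functions on the fibre as functions on the coset** -/
theorem finrank_FBa_eq (hidx : ¬ p ∣ N.index) {A : Type*} [CommGroup A] {T : Subgroup Γ}
    (hNT : N ≤ T) (π : T →* A) (hπ : ∀ s t : T, π s = π t ↔ (s : Γ)⁻¹ * t ∈ N) {e : Γ → k}
    (he : ∀ x, x ∉ N → e x = 0) (x : T) :
    Module.finrank k (FBa p π (mkF fun t : T => e t) (π x)) =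
      Module.finrank k (LI T p (mkF fun m : N => e m) (x : Γ)) := by
  have heT : ∀ x, x ∉ T → e x = 0 := fun x hx => he x fun h => hx (hNT h)
  -- the left multiplication by `e`
  have hsum : ∀ (ψ : Γ → k) (y : Γ),
      ∑ g : Γ, (inc N (mkF fun m : N => e m)).coeff g * ψ (g * y) =
        ∑ t : T, (mkF fun t : T => e t).coeff t * ψ (t * y) := by
    intro ψ y
    rw [inc_mkF N he, sum_sub T]
    · exact Finset.sum_congr rfl fun t _ => by rw [coeff_mkF, coeff_mkF]
    · intro g hg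
      rw [coeff_mkF, heT g hg, zero_mul]
  have hmulT : ∀ t ∈ T, ∀ y, t * y ∈ T ↔ y ∈ T := fun t ht y => Subgroup.mul_mem_cancel_left _ ht
  have hconjT : ∀ t ∈ T, ∀ y, t * y * t⁻¹ ∈ T ↔ y ∈ T := fun t ht y => by
    rw [Subgroup.mul_mem_cancel_right _ (inv_mem ht), Subgroup.mul_mem_cancel_left _ ht]
  have hprT : ∀ g : Γ, pr p g ∈ T ↔ g ∈ T := by
    intro g
    have h1 : g⁻¹ * pr p g ∈ N := QuotientGroup.eq.1 (pr_coset p hidx g).symm
    have h2 : pr p g = g * (g⁻¹ * pr p g) := by group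
    rw [h2, Subgroup.mul_mem_cancel_right _ (hNT h1)]
  have hprT' : ∀ t : T, ((pr p t : T) : Γ) = pr p (t : Γ) := fun t =>
    Q7.map_pr p T.subtype t (C2.ord_ne t)
  let E : (T → k) → Γ → k := fun φ g => if h : g ∈ T then φ ⟨g, h⟩ else 0
  have hE1 : ∀ φ (t : T), E φ t = φ t := fun φ t => dif_pos t.2
  have hE0 : ∀ φ g, g ∉ T → E φ g = 0 := fun φ g hg => dif_neg hg
  have hEmem : ∀ φ ∈ FBa p π (mkF fun t : T => e t) (π x),
      E φ ∈ LI T p (mkF fun m : N => e m) (x : Γ) := by
    intro φ hφ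
    have hinv : ∀ y ∈ T, ∀ g, E φ (y * g * y⁻¹) = E φ g := by
      intro y hy g
      by_cases hg : g ∈ T
      · have h1 := hE1 φ (⟨y, hy⟩ * ⟨g, hg⟩ * ⟨y, hy⟩⁻¹)
        rw [hφ.1.1] at h1
        rw [hE1 φ ⟨g, hg⟩]
        exact h1
      · rw [hE0 _ _ hg, hE0 _ _ fun h => hg ((hconjT y hy g).1 h)]
    refine ⟨⟨fun g hg => ?_, fun m hm g => hinv m (hNT hm) g, fun g => ?_, fun y => ?_⟩, hinv⟩
    · by_cases hgT : g ∈ T
      · rw [hE1 φ ⟨g, hgT⟩]
        refine hφ.2 _ fun h => hg ?_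
        exact (hπ x ⟨g, hgT⟩).1 h.symm
      · exact hE0 _ _ hgT
    · by_cases hgT : g ∈ T
      · have h1 := hE1 φ (pr p ⟨g, hgT⟩)
        rw [hprT'] at h1
        rw [h1, hE1 φ ⟨g, hgT⟩]
        exact hφ.1.2.1 _
      · rw [hE0 _ _ hgT, hE0 _ _ fun h => hgT ((hprT g).1 h)]
    · rw [hsum]
      by_cases hy : y ∈ T
      · rw [hE1 φ ⟨y, hy⟩, ← hφ.1.2.2]
        refine Finset.sum_congr rfl fun t _ => ?_
        rw [← hE1 φ (t * ⟨y, hy⟩)]
        rfl
      · rw [hE0 _ _ hy]
        refine Finset.sum_eq_zero fun t _ => ?_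
        rw [hE0 _ _ fun h => hy ((hmulT t t.2 y).1 h), mul_zero]
  let Φ : FBa p π (mkF fun t : T => e t) (π x) ≃ₗ[k] LI T p (mkF fun m : N => e m) (x : Γ) :=
    { toFun := fun φ => ⟨E φ.1, hEmem φ.1 φ.2⟩
      invFun := fun ψ => ⟨fun t => ψ.1 t, by
        refine ⟨⟨fun g t => ?_, fun t => ?_, fun y => ?_⟩, fun t ht => ?_⟩
        · exact ψ.2.2 g g.2 t
        · change ψ.1 ((pr p t : T) : Γ) = ψ.1 t
          rw [hprT']
          exact ψ.2.1.2.2.1 _
        · have h1 := ψ.2.1.2.2.2 (y : Γ)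
          rw [hsum] at h1
          exact h1
        · exact ψ.2.1.1 _ fun h => ht ((hπ x t).2 h).symm⟩
      left_inv := fun φ => Subtype.ext (funext fun t => hE1 _ t)
      right_inv := fun ψ => by
        apply Subtype.ext
        funext g
        have h0 : E (fun t : T => ψ.1 (t : Γ)) g = ψ.1 g := ?_
        · exact h0
        by_cases hg : g ∈ T
        · exact hE1 (fun t : T => ψ.1 (t : Γ)) ⟨g, hg⟩
        · refine (hE0 (fun t : T => ψ.1 (t : Γ)) g hg).trans (ψ.2.1.1 g ?_).symm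
          intro h
          apply hg
          have h2 : g = x * ((x : Γ)⁻¹ * g) := by group
          rw [h2]
          exact mul_mem x.2 (hNT h)
      map_add' := fun φ φ' => by
        apply Subtype.ext
        funext g
        change E (φ.1 + φ'.1) g = E φ.1 g + E φ'.1 g
        by_cases hg : g ∈ T
        · rw [hE1 _ ⟨g, hg⟩, hE1 _ ⟨g, hg⟩, hE1 _ ⟨g, hg⟩]
          rfl
        · rw [hE0 _ _ hg, hE0 _ _ hg, hE0 _ _ hg, add_zero]
      map_smul' := fun r φ => by
        apply Subtype.ext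
        funext g
        change E (r • φ.1) g = r * E φ.1 g
        by_cases hg : g ∈ T
        · rw [hE1 _ ⟨g, hg⟩, hE1 _ ⟨g, hg⟩]
          rfl
        · rw [hE0 _ _ hg, hE0 _ _ hg, mul_zero] }
  exact Φ.finrank_eq

end FBLI

section clf

variable (p : ℕ) [hp : Fact p.Prime] (k : Type u) [Field k] [IsAlgClosed k] [CharP k p]

/-- **the Clifford count** -/
theorem clfStmt : P179H854.ClfStmt p k := by
  intro Γ _ _ N hN e hcy hidx he hcf hee
  let iA : CommGroup (Γ ⧸ N) := IsCyclic.commGroup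
  have : Finite (Γ ⧸ N) := inferInstance
  set c : MonoidAlgebra k N := mkF fun x : N => e x with hcdef
  have hinc : inc N c = mkF e := inc_mkF N he
  have hc : inc N c ∈ Subalgebra.center k (MonoidAlgebra k Γ) := by
    rw [hinc]
    exact mkF_central hcf
  have hcN : c ∈ Subalgebra.center k (MonoidAlgebra k N) :=
    mkF_central fun g x => hcf g x
  have hc2 : c * c = c := mkF_idem N he hee
  let _ := actQ (cjA_fix hc)
  have := XK_finite hcN hc2
  refine ⟨fun S => fixN (XK N c) S, ?_, fun S T h => fixN_anti h, fun S => ?_⟩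
  · rw [← XK_card hcN hc2]
    exact fixN_bot
  · rw [← card_mul_sum_finrank k S]
    congr 1
    have hNT : N ≤ S.comap (QuotientGroup.mk' N) := by
      intro x hx
      rw [Subgroup.mem_comap]
      have h1 : QuotientGroup.mk' N x = 1 := (QuotientGroup.eq_one_iff x).2 hx
      rw [h1]
      exact one_mem _
    let π : S.comap (QuotientGroup.mk' N) →* S := (QuotientGroup.mk' N).subgroupComap S
    have hπ : ∀ s t : S.comap (QuotientGroup.mk' N), π s = π t ↔ (s : Γ)⁻¹ * t ∈ N := by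
      intro s t
      rw [← QuotientGroup.eq]
      exact Subtype.ext_iff
    rw [numSimpleIn_eq_sum π (fun h => hidx (h.trans (Subgroup.card_subgroup_dvd_card S)))
      (fun x hx => he _ fun h => hx ?_) (fun g x => hcf g x)
      (conv_idem _ (fun x hx => he x fun h => hx (hNT h)) hee)]
    · refine finsum_congr fun a => ?_
      obtain ⟨x, hx⟩ := QuotientGroup.mk_surjective (a : Γ ⧸ N)
      have hxT : x ∈ S.comap (QuotientGroup.mk' N) := by
        rw [Subgroup.mem_comap]
        change (x : Γ ⧸ N) ∈ S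
        rw [hx]
        exact a.2
      have hxa : π ⟨x, hxT⟩ = a := Subtype.ext hx
      rw [← hxa, finrank_FBa_eq hidx hNT π hπ he ⟨x, hxT⟩, finrank_LI hc p hcN hc2 hidx,
        finrank_invK]
      rfl
    · have h1 := (hπ x 1).2 (by
        rw [OneMemClass.coe_one, mul_one]
        exact inv_mem h)
      rw [h1, map_one]

end clf

end P179H872
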