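import Vale.Agent.P179.R2.H872.Line

/-!
# The functions of a stable simple module on a coset form a line, II
-/

namespace P179H872

open P179H524 P179C P179A P179R Finset MonoidAlgebra

open P179C.C2 (Om cls phi)

universe u

section transport

variable {k : Type u} [Field k]

theorem lin_domCongr {H₁ H₂ : Type} [Group H₁] [Group H₂] [Fintype H₁] [Fintype H₂] (e : H₁ ≃* H₂)
    (F : H₂ → k) (x : MonoidAlgebra k H₁) :
    lin F (MonoidAlgebra.domCongr k k e x) = lin (fun m => F (e m)) x := by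
  refine ext_single (f := (lin F).comp (MonoidAlgebra.domCongr k k e).toLinearMap)
    (g := lin (fun m => F (e m))) (fun a => ?_) x
  rw [LinearMap.comp_apply]
  change lin F (MonoidAlgebra.domCongr k k e (single a 1)) = _
  rw [MonoidAlgebra.domCongr_single, lin_single, lin_single]

theorem jacobson_equiv {R S : Type*} [Ring R] [Ring S] (σ : R ≃+* S) {a : R} :
    σ a ∈ Ring.jacobson S ↔ a ∈ Ring.jacobson R := by
  have : RingHomSurjective (σ : R →+* S) := ⟨σ.surjective⟩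
  have : RingHomSurjective (σ.symm : S →+* R) := ⟨σ.symm.surjective⟩
  constructor
  · intro h
    have h1 : (σ.symm : S →+* R) (σ a) ∈ Ring.jacobson R :=
      Ring.le_comap_jacobson (σ.symm : S →+* R) h
    have h2 : (σ.symm : S →+* R) (σ a) = a := σ.symm_apply_apply a
    rwa [h2] at h1
  · intro h
    exact Ring.le_comap_jacobson (σ : R →+* S) h

end transport

section line

variable {k : Type u} [Field k] {Γ : Type} [Group Γ] [Fintype Γ] {N : Subgroup Γ} [hN : N.Normal]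
  {n : ℕ} {A : MonoidAlgebra k N →ₐ[k] Matrix (Fin n) (Fin n) k}

/-- `N`-invariant functions on `x N` are invariant under `x` -/
theorem LX_conj {p : ℕ} {c : MonoidAlgebra k N} {x : Γ} {ψ : Γ → k} (hψ : ψ ∈ LX p c x) {h : Γ}
    (hh : h ∈ N ⊔ Subgroup.zpowers x) (g : Γ) : ψ (h * g * h⁻¹) = ψ g := by
  have hx : ∀ g, ψ (x * g * x⁻¹) = ψ g := by
    intro g
    by_cases hg : x⁻¹ * g ∈ N
    · -- `x = g m⁻¹`
      set m : Γ := x⁻¹ * g with hm
      have hxm : x = g * m⁻¹ := by rw [hm]; group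
      have h1 : x * g * x⁻¹ = (x * m⁻¹ * x⁻¹) * g * (x * m⁻¹ * x⁻¹)⁻¹ := by
        have h2 : g = x * m := by rw [hm]; group
        rw [h2]
        group
      rw [h1]
      exact hψ.2.1 _ (hN.conj_mem _ (inv_mem hg) _) g
    · rw [hψ.1 g hg, hψ.1]
      intro h1
      apply hg
      have h2 : x⁻¹ * g = x⁻¹ * (x⁻¹ * (x * g * x⁻¹)) * x⁻¹⁻¹ := by group
      rw [h2]
      exact hN.conj_mem _ h1 _
  let S : Subgroup Γ :=
    { carrier := {h | ∀ g, ψ (h * g * h⁻¹) = ψ g}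
      mul_mem' := fun {a b} ha hb g => by
        have : a * b * g * (a * b)⁻¹ = a * (b * g * b⁻¹) * a⁻¹ := by group
        rw [this, ha, hb]
      one_mem' := fun g => by simp
      inv_mem' := fun {a} ha g => by
        rw [← ha (a⁻¹ * g * a⁻¹⁻¹)]
        congr 1
        group }
  have hS : N ⊔ Subgroup.zpowers x ≤ S := by
    rw [sup_le_iff, Subgroup.zpowers_le]
    exact ⟨fun m hm g => hψ.2.1 m hm g, hx⟩
  exact hS hh g

/-- **the line** -/
theorem LX_line (p : ℕ) [hp : Fact p.Prime] [IsAlgClosed k] [CharP k p] [NeZero n]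
    {c : MonoidAlgebra k N}
    (hA : Function.Surjective A)
    (hker : ∀ a, A a = 0 ↔ a * c ∈ Ring.jacobson (MonoidAlgebra k N))
    {X : Γ × (Matrix (Fin n) (Fin n) k)ˣ} (hX : X ∈ IP (uhom A)) {ψ : Γ → k}
    (hψ : ψ ∈ LX p c X.1) : ∃ κ : k, ψ = κ • tX A X := by
  classical
  let H : Subgroup Γ := N ⊔ Subgroup.zpowers X.1
  have hNH : N ≤ H := le_sup_left
  have hxH : X.1 ∈ H := le_sup_right (a := N) (Subgroup.mem_zpowers X.1)
  let N0 : Subgroup H := N.subgroupOf H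
  have : Fintype H := Fintype.ofFinite _
  have : Fintype N := Fintype.ofFinite _
  have : Fintype N0 := Fintype.ofFinite _
  let e : N0 ≃* N := Subgroup.subgroupOfEquivOfLe hNH
  have he : ∀ m : N0, ((e m : N) : Γ) = ((m : H) : Γ) := fun m => rfl
  let E : MonoidAlgebra k N0 ≃ₐ[k] MonoidAlgebra k N := MonoidAlgebra.domCongr k k e
  let A0 : MonoidAlgebra k N0 →ₐ[k] Matrix (Fin n) (Fin n) k := A.comp (E : _ →ₐ[k] _)
  have hA0' : ∀ a, A0 a = A (E a) := fun a => rfl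
  have hA0 : Function.Surjective A0 := hA.comp E.surjective
  let c0 : MonoidAlgebra k N0 := E.symm c
  have hc0 : E c0 = c := E.apply_symm_apply c
  have hker0 : ∀ a, A0 a = 0 ↔ a * c0 ∈ Ring.jacobson (MonoidAlgebra k N0) := by
    intro a
    rw [hA0', hker, ← jacobson_equiv E.toRingEquiv]
    have h1 : E.toRingEquiv (a * c0) = E a * c := by
      rw [map_mul]
      change E a * E c0 = _
      rw [hc0]
    rw [h1]
  have hX0 : ((⟨X.1, hxH⟩, X.2) : H × (Matrix (Fin n) (Fin n) k)ˣ) ∈ IP (uhom A0) := by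
    intro m
    apply Units.ext
    have h1 := congrArg Units.val (hX (e m))
    rw [uhom_val] at h1
    rw [uhom_val, hA0']
    have h2 : E (single (MulAut.conjNormal (⟨X.1, hxH⟩ : H) m) 1) =
        single (MulAut.conjNormal X.1 (e m)) 1 := by
      change MonoidAlgebra.domCongr k k e _ = _
      rw [MonoidAlgebra.domCongr_single]
      congr 1
    rw [h2, h1]
    change _ = ((X.2 : Matrix (Fin n) (Fin n) k) * A0 (single m 1)) *
      ((X.2⁻¹ : (Matrix (Fin n) (Fin n) k)ˣ) : Matrix (Fin n) (Fin n) k)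
    have h3 : A0 (single m 1) = A (single (e m) 1) := by
      rw [hA0']
      change A (MonoidAlgebra.domCongr k k e _) = _
      rw [MonoidAlgebra.domCongr_single]
    rw [h3]
    rfl
  have hψ0 : (fun h : H => ψ h) ∈ FB p (inc N0 c0) := by
    refine ⟨fun g x => ?_, fun x => ?_, fun y => ?_⟩
    · exact LX_conj hψ g.2 x
    · have h1 : ((pr p x : H) : Γ) = pr p (x : Γ) := Q7.map_pr p H.subtype x (C2.ord_ne x)
      change ψ ((pr p x : H) : Γ) = ψ x
      rw [h1]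
      exact hψ.2.2.1 x
    · rw [sum_inc_coeff_mul N0 c0 (fun g => ψ ((g * y : H) : Γ))]
      have h1 := hψ.2.2.2 y
      rw [sum_inc_coeff_mul N c (fun g => ψ (g * y))] at h1
      have h2 := lin_domCongr e (fun m : N => ψ (m * y)) c0
      have h3 : MonoidAlgebra.domCongr k k e c0 = c := hc0
      rw [h3, lin_apply, h1, lin_apply] at h2
      exact h2.symm
  obtain ⟨κ, hκ⟩ := exists_prop p hA0 hker0 hψ0 hX0
  refine ⟨κ, ?_⟩
  funext g
  rw [Pi.smul_apply, smul_eq_mul]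
  by_cases hg : X.1⁻¹ * g ∈ N
  · have h1 := hκ ⟨⟨X.1⁻¹ * g, hNH hg⟩, hg⟩
    have h2 : X.1 * (X.1⁻¹ * g) = g := by group
    change ψ (X.1 * (X.1⁻¹ * g)) = _ at h1
    rw [h2] at h1
    rw [h1]
    congr 1
    have h3 := tX_mul (A := A) X ⟨X.1⁻¹ * g, hg⟩
    change tX A X (X.1 * (X.1⁻¹ * g)) = _ at h3
    rw [h2] at h3
    rw [h3]
    have h4 : ((((⟨X.1, hxH⟩, X.2) : H × (Matrix (Fin n) (Fin n) k)ˣ) *
        nu (uhom A0) ⟨⟨X.1⁻¹ * g, hNH hg⟩, hg⟩).2 : Matrix (Fin n) (Fin n) k) =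
        (X.2 : Matrix (Fin n) (Fin n) k) * A0 (single ⟨⟨X.1⁻¹ * g, hNH hg⟩, hg⟩ 1) := rfl
    have h5 : A0 (single ⟨⟨X.1⁻¹ * g, hNH hg⟩, hg⟩ 1) = A (single ⟨X.1⁻¹ * g, hg⟩ 1) := by
      rw [hA0']
      change A (MonoidAlgebra.domCongr k k e _) = _
      rw [MonoidAlgebra.domCongr_single]
      rfl
    rw [h4, h5]
    rfl
  · rw [hψ.1 g hg, tX_neg X hg, mul_zero]

/-- **the pairing**: summary -/
theorem exists_pairing (p : ℕ) [hp : Fact p.Prime] [IsAlgClosed k] [CharP k p]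
    (hidx : ¬ p ∣ N.index) {c : MonoidAlgebra k N}
    (hcN : c ∈ Subalgebra.center k (MonoidAlgebra k N)) (hc2 : c * c = c)
    (hc : inc N c ∈ Subalgebra.center k (MonoidAlgebra k Γ)) (hc1 : numSimpleIn c = 1) :
    ∃ (α : Γ → Γ → k) (t : Γ → Γ → k),
      (∀ x, t x ∈ LX p c x ∧ t x ≠ 0 ∧ ∀ ψ ∈ LX p c x, ∃ κ : k, ψ = κ • t x) ∧
      (∀ y x, y * x * y⁻¹ * x⁻¹ ∈ N → ∀ ψ ∈ LX p c x, ∀ g, ψ (y⁻¹ * g * y) = α y x * ψ g) ∧
      (∀ y x, y * x * y⁻¹ * x⁻¹ ∈ N → α y x * α x y = 1) ∧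
      (∀ x, α x x = 1) ∧
      (∀ y x x', y * x * y⁻¹ * x⁻¹ ∈ N → y * x' * y⁻¹ * x'⁻¹ ∈ N →
        α y (x * x') = α y x * α y x') ∧
      (∀ y x, x ∈ N → α y x = 1) ∧ (∀ y x, y ∈ N → α y x = 1) ∧
      numSimpleIn (inc N c) = Nat.card {K : ConjClasses (Γ ⧸ N) // ∀ x : Γ,
        ConjClasses.mk (x : Γ ⧸ N) = K → ∀ y, y * x * y⁻¹ * x⁻¹ ∈ N → α y x = 1} := by
  classical
  obtain ⟨n, hn, A, hA, hA1, hker⟩ := exists_rho hcN hc2 hc1
  have hex := exists_intertwiner hc hA hker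
  have hspan := span_uhom hA
  choose X hX hX' using hex
  have hex : ∀ x : Γ, ∃ a ∈ IP (uhom A), a.1 = x := fun x => ⟨X x, hX x, hX' x⟩
  refine ⟨al (uhom A), fun x => tX A (X x), fun x => ⟨?_, ?_, fun ψ hψ => ?_⟩, ?_, ?_, ?_, ?_, ?_,
    ?_, ?_⟩
  · have h1 := tX_mem p hidx hA1 (hX x)
    rwa [hX'] at h1
  · obtain ⟨m, hm⟩ := tX_ne_zero hA (X x)
    intro h
    exact hm (congrFun h _)
  · have h1 : ψ ∈ LX p c (X x).1 := by rwa [hX']
    exact LX_line p hA hker (hX x) h1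
  · intro y x h ψ hψ g
    have h1 : ψ ∈ LX p c (X x).1 := by rwa [hX']
    obtain ⟨κ, rfl⟩ := LX_line p hA hker (hX x) h1
    have h2 : y * (X x).1 * y⁻¹ * (X x).1⁻¹ ∈ N := by rwa [hX']
    rw [Pi.smul_apply, Pi.smul_apply, smul_eq_mul, smul_eq_mul, tX_conj hA hex (hX x) h2, hX']
    ring
  · intro y x h
    exact al_symm (uhom A) hspan hex h
  · intro x
    exact al_self (uhom A) hspan hex x
  · intro y x x' h h'
    exact al_mul (uhom A) hspan hex h h'
  · intro y x h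
    exact al_of_mem_right (uhom A) hspan hex h
  · intro y x h
    exact al_of_mem_left (uhom A) hspan hex h
  · rw [card_regCls p hidx hc2 hc hA hA1 hker]
    refine Nat.card_congr (Equiv.subtypeEquivRight fun K => ?_)
    refine forall_congr' fun x => forall_congr' fun _ => ?_
    exact isReg_iff (uhom A) hspan hex

end line

end P179H872
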