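import Vale.Agent.P179.R2.H872.Pairing

/-!
# The functions of a stable simple module on a coset form a line
-/

namespace P179H872

open P179H524 P179C P179A P179R Finset MonoidAlgebra

open P179C.C2 (Om cls phi)

universe u

section line

variable {k : Type u} [Field k] {Γ : Type} [Group Γ] [Fintype Γ] {N : Subgroup Γ} [hN : N.Normal]
  {n : ℕ} {A : MonoidAlgebra k N →ₐ[k] Matrix (Fin n) (Fin n) k}

omit hN in
/-- the `N`-invariant functions on the coset `x N`, depending only on the regular parts and fixed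
by `c` -/
noncomputable def LX (p : ℕ) (c : MonoidAlgebra k N) (x : Γ) : Submodule k (Γ → k) where
  carrier := {ψ | (∀ g, x⁻¹ * g ∉ N → ψ g = 0) ∧ (∀ m ∈ N, ∀ g, ψ (m * g * m⁻¹) = ψ g) ∧
    (∀ g, ψ (pr p g) = ψ g) ∧ ∀ y, ∑ g : Γ, (inc N c).coeff g * ψ (g * y) = ψ y}
  add_mem' := by
    rintro a b ⟨ha, ha', ha'', ha'''⟩ ⟨hb, hb', hb'', hb'''⟩
    refine ⟨fun g hg => ?_, fun m hm g => ?_, fun x => ?_, fun y => ?_⟩
    · rw [Pi.add_apply, ha g hg, hb g hg, add_zero]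
    · simp only [Pi.add_apply, ha' m hm, hb' m hm]
    · simp only [Pi.add_apply, ha'', hb'']
    · simp only [Pi.add_apply, mul_add, Finset.sum_add_distrib]
      rw [ha''', hb''']
  zero_mem' := ⟨fun _ _ => rfl, fun _ _ _ => rfl, fun _ => rfl, fun y => by simp⟩
  smul_mem' := by
    rintro t a ⟨ha, ha', ha'', ha'''⟩
    refine ⟨fun g hg => ?_, fun m hm g => ?_, fun x => ?_, fun y => ?_⟩
    · rw [Pi.smul_apply, ha g hg, smul_zero]
    · simp only [Pi.smul_apply, ha' m hm]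
    · simp only [Pi.smul_apply, ha'']
    · simp only [Pi.smul_apply, smul_eq_mul]
      conv_rhs => rw [← ha''' y, Finset.mul_sum]
      exact Finset.sum_congr rfl fun g _ => by ring

omit hN in
theorem mem_LX {p : ℕ} {c : MonoidAlgebra k N} {x : Γ} {ψ : Γ → k} : ψ ∈ LX p c x ↔
    (∀ g, x⁻¹ * g ∉ N → ψ g = 0) ∧ (∀ m ∈ N, ∀ g, ψ (m * g * m⁻¹) = ψ g) ∧
    (∀ g, ψ (pr p g) = ψ g) ∧ ∀ y, ∑ g : Γ, (inc N c).coeff g * ψ (g * y) = ψ y := Iff.rfl

open scoped Classical in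
/-- the function of an intertwiner -/
noncomputable def tX (A : MonoidAlgebra k N →ₐ[k] Matrix (Fin n) (Fin n) k)
    (X : Γ × (Matrix (Fin n) (Fin n) k)ˣ) (g : Γ) : k :=
  if h : X.1⁻¹ * g ∈ N then
    ((X * nu (uhom A) ⟨X.1⁻¹ * g, h⟩).2 : Matrix (Fin n) (Fin n) k).trace else 0

omit hN in
theorem tX_mul (X : Γ × (Matrix (Fin n) (Fin n) k)ˣ) (m : N) :
    tX A X (X.1 * m) = ((X * nu (uhom A) m).2 : Matrix (Fin n) (Fin n) k).trace := by
  have h : X.1⁻¹ * (X.1 * m) ∈ N := by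
    rw [inv_mul_cancel_left]
    exact m.2
  have h1 : (⟨X.1⁻¹ * (X.1 * m), h⟩ : N) = m := Subtype.ext (inv_mul_cancel_left _ _)
  rw [tX, dif_pos h, h1]

omit hN in
theorem tX_neg (X : Γ × (Matrix (Fin n) (Fin n) k)ˣ) {g : Γ} (h : X.1⁻¹ * g ∉ N) :
    tX A X g = 0 := dif_neg h

omit hN in
theorem tX_pos {X : Γ × (Matrix (Fin n) (Fin n) k)ˣ} {g : Γ} (h : X.1⁻¹ * g ∈ N)
    {Z : Γ × (Matrix (Fin n) (Fin n) k)ˣ} {m : N} (hZ : Z = X * nu (uhom A) m) (hg : Z.1 = g) :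
    tX A X g = (Z.2 : Matrix (Fin n) (Fin n) k).trace := by
  have h1 : g = X.1 * m := by
    rw [← hg, hZ, Prod.fst_mul, nu_fst]
  rw [h1, tX_mul, hZ]

theorem trace_pr (p : ℕ) [hp : Fact p.Prime] [CharP k p]
    {Y : Γ × (Matrix (Fin n) (Fin n) k)ˣ} (hY : Y ∈ IP (uhom A)) {m : N}
    (hm : pr p Y.1 = Y.1 * m) :
    ((Y * nu (uhom A) m).2 : Matrix (Fin n) (Fin n) k).trace =
      (Y.2 : Matrix (Fin n) (Fin n) k).trace := by
  classical
  set x := Y.1 with hx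
  have hcomm : (m : Γ) * x = x * m := by
    have h5 : x * pr p x = pr p x * x := by
      unfold pr
      rw [← pow_succ, ← pow_succ']
    rw [hm] at h5
    have h6 : x * (x * m) = x * (m * x) := by rw [h5, mul_assoc]
    exact (mul_left_cancel h6).symm
  have hcomm2 : nu (uhom A) m * Y = Y * nu (uhom A) m := by
    have h5 := conj_nu (uhom A) hY m
    have h6 : MulAut.conjNormal Y.1 m = m := by
      apply Subtype.ext
      rw [MulAut.conjNormal_apply, ← hx, ← hcomm, mul_inv_cancel_right]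
    rw [h6] at h5
    conv_lhs => rw [← h5]
    group
  have hpow : ∃ e : ℕ, m ^ p ^ e = 1 := by
    refine ⟨(orderOf x).factorization p, ?_⟩
    obtain ⟨_, h6⟩ := Q7.prExp_spec p (C2.ord_ne x)
    have h5 : (pr p x) ^ p ^ (orderOf x).factorization p =
        x ^ p ^ (orderOf x).factorization p := by
      rw [pr, ← pow_mul, pow_eq_pow_iff_modEq]
      have h7 := Nat.ModEq.mul_left' (ordProj[p] (orderOf x)) h6
      rw [mul_one, Nat.ordProj_mul_ordCompl_eq_self] at h7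
      rw [mul_comm (prExp p (orderOf x))]
      exact h7
    have hcomm' : Commute x (m : Γ) := hcomm.symm
    rw [hm, hcomm'.mul_pow] at h5
    apply Subtype.ext
    exact mul_left_cancel (h5.trans (mul_one _).symm)
  obtain ⟨e, he⟩ := hpow
  apply trace_eq_of_pow p _ _ _ e
  · have h5 : (Y * nu (uhom A) m) ^ p ^ e = Y ^ p ^ e := by
      rw [Commute.mul_pow hcomm2.symm, ← map_pow, he, map_one, mul_one]
    exact congrArg (fun a : Γ × (Matrix (Fin n) (Fin n) k)ˣ =>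
      ((a.2 : (Matrix (Fin n) (Fin n) k)ˣ) : Matrix (Fin n) (Fin n) k)) h5
  · have h5 : (Y * nu (uhom A) m) * Y = Y * (Y * nu (uhom A) m) := by
      rw [mul_assoc, hcomm2]
    exact congrArg (fun a : Γ × (Matrix (Fin n) (Fin n) k)ˣ =>
      ((a.2 : (Matrix (Fin n) (Fin n) k)ˣ) : Matrix (Fin n) (Fin n) k)) h5

theorem tX_mem (p : ℕ) [hp : Fact p.Prime] [CharP k p] (hidx : ¬ p ∣ N.index)
    {c : MonoidAlgebra k N} (hA1 : A c = 1)
    {X : Γ × (Matrix (Fin n) (Fin n) k)ˣ} (hX : X ∈ IP (uhom A)) : tX A X ∈ LX p c X.1 := by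
  classical
  refine ⟨fun g hg => tX_neg X hg, fun m hm g => ?_, fun g => ?_, fun y => ?_⟩
  · by_cases h : X.1⁻¹ * g ∈ N
    · set m1 : N := ⟨_, h⟩ with hm1
      have hg : g = X.1 * m1 := by
        change g = X.1 * (X.1⁻¹ * g)
        group
      have h2 : X.1⁻¹ * (m * g * m⁻¹) ∈ N := by
        have : X.1⁻¹ * (m * g * m⁻¹) = (X.1⁻¹ * m * X.1⁻¹⁻¹) * (X.1⁻¹ * g) * m⁻¹ := by group
        rw [this]
        exact mul_mem (mul_mem (hN.conj_mem _ hm _) h) (inv_mem hm)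
      have h3 : nu (uhom A) ⟨m, hm⟩ * (X * nu (uhom A) m1) * (nu (uhom A) ⟨m, hm⟩)⁻¹ =
          X * nu (uhom A) (MulAut.conjNormal X.1⁻¹ ⟨m, hm⟩ * m1 * (⟨m, hm⟩ : N)⁻¹) := by
        have h4 := conj_nu (uhom A) (inv_mem hX) ⟨m, hm⟩
        rw [Prod.fst_inv] at h4
        rw [(nu (uhom A)).map_mul, (nu (uhom A)).map_mul, (nu (uhom A)).map_inv, ← h4]
        group
      rw [tX_pos h2 h3 (by
        simp only [Prod.fst_mul, Prod.fst_inv, nu_fst]
        rw [← hg]), trace_conj, ← tX_mul, ← hg]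
    · have h2 : X.1⁻¹ * (m * g * m⁻¹) ∉ N := by
        intro h2
        apply h
        have : X.1⁻¹ * g = (X.1⁻¹ * m⁻¹ * X.1⁻¹⁻¹) * (X.1⁻¹ * (m * g * m⁻¹)) * m := by group
        rw [this]
        exact mul_mem (mul_mem (hN.conj_mem _ (inv_mem hm) _) h2) hm
      rw [tX_neg X h, tX_neg X h2]
  · have hpr : (g : Γ ⧸ N) = (pr p g : Γ) := (pr_coset p hidx g).symm
    have hm : g⁻¹ * pr p g ∈ N := QuotientGroup.eq.1 hpr
    have hx : pr p g = g * (g⁻¹ * pr p g) := by group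
    by_cases h : X.1⁻¹ * g ∈ N
    · set m1 : N := ⟨_, h⟩ with hm1
      have hg : g = X.1 * m1 := by
        change g = X.1 * (X.1⁻¹ * g)
        group
      have h2 : X.1⁻¹ * pr p g ∈ N := by
        rw [hx, ← mul_assoc]
        exact mul_mem h hm
      have h3 : pr p g = X.1 * (m1 * ⟨_, hm⟩ : N) := by
        rw [Subgroup.coe_mul, ← mul_assoc, ← hg]
        exact hx
      rw [h3, tX_mul, map_mul, ← mul_assoc, trace_pr p (mul_mem hX (nu_mem _ m1)) (m := ⟨_, hm⟩),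
        ← tX_mul, ← hg]
      rw [Prod.fst_mul, nu_fst, ← hg]
      exact hx
    · have h2 : X.1⁻¹ * pr p g ∉ N := by
        intro h2
        apply h
        have : X.1⁻¹ * g = (X.1⁻¹ * pr p g) * (g⁻¹ * pr p g)⁻¹ := by group
        rw [this]
        exact mul_mem h2 (inv_mem hm)
      rw [tX_neg X h, tX_neg X h2]
  · have := Fintype.ofFinite N
    rw [sum_inc_coeff_mul N c (fun g => tX A X (g * y))]
    by_cases h : X.1⁻¹ * y ∈ N
    · set m1 : N := ⟨_, h⟩ with hm1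
      have hg : y = X.1 * m1 := by
        change y = X.1 * (X.1⁻¹ * y)
        group
      set Y := X * nu (uhom A) m1 with hY
      have h4 : ∀ m : N, tX A X (m * y) =
          (A (single m 1) * (Y.2 : Matrix (Fin n) (Fin n) k)).trace := by
        intro m
        have h5 : X.1⁻¹ * (m * y) ∈ N := by
          have : X.1⁻¹ * (m * y) = (X.1⁻¹ * m * X.1⁻¹⁻¹) * (X.1⁻¹ * y) := by group
          rw [this]
          exact mul_mem (hN.conj_mem _ m.2 _) h
        have h3 : nu (uhom A) m * Y = X * nu (uhom A) (MulAut.conjNormal X.1⁻¹ m * m1) := by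
          have h4 := conj_nu (uhom A) (inv_mem hX) m
          rw [Prod.fst_inv] at h4
          rw [hY, map_mul, ← h4]
          group
        rw [tX_pos h5 h3 (by
          simp only [hY, Prod.fst_mul, nu_fst]
          rw [← hg])]
        rfl
      have h5 : tX A X y = (Y.2 : Matrix (Fin n) (Fin n) k).trace := by
        rw [hg, tX_mul]
      rw [Finset.sum_congr rfl fun m _ => by rw [h4 m], h5]
      have h6 : ∑ m : N, c.coeff m * (A (single m 1) * (Y.2 : Matrix (Fin n) (Fin n) k)).trace =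
          (A c * (Y.2 : Matrix (Fin n) (Fin n) k)).trace := by
        rw [apply_eq_sum A c, Finset.sum_mul, Matrix.trace_sum]
        exact Finset.sum_congr rfl fun m _ => by
          rw [smul_mul_assoc, Matrix.trace_smul, smul_eq_mul]
      rw [h6, hA1, one_mul]
    · rw [tX_neg X h]
      refine Finset.sum_eq_zero fun m _ => ?_
      rw [tX_neg X, mul_zero]
      intro h2
      apply h
      have : X.1⁻¹ * y = (X.1⁻¹ * (m : Γ)⁻¹ * X.1⁻¹⁻¹) * (X.1⁻¹ * (m * y)) := by group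
      rw [this]
      exact mul_mem (hN.conj_mem _ (inv_mem m.2) _) h2

theorem tX_ne_zero [NeZero n] (hA : Function.Surjective A)
    (X : Γ × (Matrix (Fin n) (Fin n) k)ˣ) : ∃ m : N, tX A X (X.1 * m) ≠ 0 := by
  classical
  by_contra hcon
  push Not at hcon
  have := Fintype.ofFinite N
  obtain ⟨x, hx⟩ := hA (((X.2⁻¹ : (Matrix (Fin n) (Fin n) k)ˣ) :
    Matrix (Fin n) (Fin n) k) * Matrix.single 0 0 1)
  have h4 : ∑ m : N, x.coeff m * tX A X (X.1 * m) =
      ((X.2 : Matrix (Fin n) (Fin n) k) * A x).trace := by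
    rw [apply_eq_sum A x, Finset.mul_sum, Matrix.trace_sum]
    refine Finset.sum_congr rfl fun m _ => ?_
    rw [mul_smul_comm, Matrix.trace_smul, smul_eq_mul, tX_mul]
    rfl
  rw [hx, ← mul_assoc, Units.mul_inv, one_mul, Matrix.trace_single_eq_same] at h4
  rw [Finset.sum_eq_zero fun m _ => by rw [hcon m, mul_zero]] at h4
  exact zero_ne_one h4

/-- the action on the line -/
theorem tX_conj [NeZero n] (hA : Function.Surjective A)
    (hex : ∀ x : Γ, ∃ a ∈ IP (uhom A), a.1 = x)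
    {X : Γ × (Matrix (Fin n) (Fin n) k)ˣ} (hX : X ∈ IP (uhom A)) {y : Γ}
    (h : y * X.1 * y⁻¹ * X.1⁻¹ ∈ N) (g : Γ) :
    tX A X (y⁻¹ * g * y) = al (uhom A) y X.1 * tX A X g := by
  obtain ⟨a, ha, ha'⟩ := isPair_al (uhom A) (span_uhom hA) hex h
  obtain ⟨Y, hY, hy⟩ := hex y
  obtain ⟨m0, hm0⟩ := ha X hX Y hY rfl hy
  rw [← ha']
  have hconj : X.1⁻¹ * (y⁻¹ * X.1 * y) ∈ N := by
    have : X.1⁻¹ * (y⁻¹ * X.1 * y) =
        (X.1⁻¹ * y⁻¹) * (y * X.1 * y⁻¹ * X.1⁻¹)⁻¹ * (X.1⁻¹ * y⁻¹)⁻¹ := by group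
    rw [this]
    exact hN.conj_mem _ (inv_mem h) _
  by_cases hg : X.1⁻¹ * g ∈ N
  · set m1 : N := ⟨_, hg⟩ with hm1
    have hg' : g = X.1 * m1 := by
      change g = X.1 * (X.1⁻¹ * g)
      group
    have h2 : X.1⁻¹ * (y⁻¹ * g * y) ∈ N := by
      have : X.1⁻¹ * (y⁻¹ * g * y) =
          X.1⁻¹ * (y⁻¹ * X.1 * y) * (y⁻¹ * (X.1⁻¹ * g) * y⁻¹⁻¹) := by group
      rw [this]
      exact mul_mem hconj (hN.conj_mem _ hg _)
    -- the intertwiner over `y⁻¹ g y`
    have h3 : Y⁻¹ * (X * nu (uhom A) m1) * Y * scal a =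
        X * nu (uhom A) (MulAut.conjNormal (X.1⁻¹ * Y.1⁻¹) m0⁻¹ * MulAut.conjNormal Y.1⁻¹ m1) := by
      have h4 := conj_nu (uhom A) (mul_mem (inv_mem hX) (inv_mem hY)) m0⁻¹
      rw [Prod.fst_mul, Prod.fst_inv, Prod.fst_inv] at h4
      have h5 := conj_nu (uhom A) (inv_mem hY) m1
      rw [Prod.fst_inv] at h5
      rw [map_mul, ← h4, ← h5]
      have h6 : nu (uhom A) m0 = Y * X * Y⁻¹ * X⁻¹ * (scal a)⁻¹ := by
        rw [hm0, mul_inv_cancel_right]
      rw [map_inv, h6]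
      have h7 : ∀ b : Γ × (Matrix (Fin n) (Fin n) k)ˣ, b * scal a = scal a * b :=
        fun b => (scal_comm a b).symm
      have h8 : (Y * X * Y⁻¹ * X⁻¹ * (scal a)⁻¹)⁻¹ = scal a * (X * Y * X⁻¹ * Y⁻¹) := by group
      rw [h8]
      have h9 : X * (X⁻¹ * Y⁻¹ * (scal a * (X * Y * X⁻¹ * Y⁻¹)) * (X⁻¹ * Y⁻¹)⁻¹ *
          (Y⁻¹ * nu (uhom A) m1 * (Y⁻¹)⁻¹)) =
          Y⁻¹ * (scal a * (X * nu (uhom A) m1 * Y)) := by group
      rw [h9, ← h7 (X * nu (uhom A) m1 * Y)]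
      group
    rw [tX_pos h2 h3 (by
      simp only [Prod.fst_mul, Prod.fst_inv, nu_fst, hy, scal, mul_one]
      rw [← hg'])]
    rw [snd_mul_scal, Matrix.trace_smul, smul_eq_mul]
    congr 1
    have h11 := trace_conj Y⁻¹ (X * nu (uhom A) m1)
    rw [inv_inv] at h11
    rw [h11, ← tX_mul, ← hg']
  · have h2 : X.1⁻¹ * (y⁻¹ * g * y) ∉ N := by
      intro h2
      apply hg
      have : X.1⁻¹ * g =
          y * ((X.1⁻¹ * (y⁻¹ * X.1 * y))⁻¹ * (X.1⁻¹ * (y⁻¹ * g * y))) * y⁻¹ := by group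
      rw [this]
      exact hN.conj_mem _ (mul_mem (inv_mem hconj) h2) _
    rw [tX_neg X hg, tX_neg X h2, mul_zero]

end line

end P179H872
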