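import Vale.Agent.P179.R2.H872.Intw

/-!
# Regular elements and the choice of intertwiners over them
-/

namespace P179H872

open Subgroup

universe u

section sec

variable {k : Type u} [Field k] {Γ : Type} [Group Γ] {N : Subgroup Γ} [hN : N.Normal] {n : ℕ}
  (ρ : N →* (Matrix (Fin n) (Fin n) k)ˣ)

/-- the regular elements: commutation modulo `N` lifts to the intertwiners -/
def IsReg (x : Γ) : Prop := ∀ a ∈ IP ρ, ∀ t ∈ IP ρ, a.1 = x → t.1 * a.1 * t.1⁻¹ * a.1⁻¹ ∈ N →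
  ∃ m : N, t * a * t⁻¹ * a⁻¹ = nu ρ m

theorem IsReg.mul {x : Γ} (h : IsReg ρ x) (m : N) : IsReg ρ (x * m) := by
  intro a ha t ht hx hta
  have h1 : (a * nu ρ m⁻¹).1 = x := by
    rw [Prod.fst_mul, hx, nu_fst]
    simp
  have h2 : ∀ b : Γ × (Matrix (Fin n) (Fin n) k)ˣ, b ∈ IP ρ →
      t * (b * nu ρ m⁻¹) * t⁻¹ * (b * nu ρ m⁻¹)⁻¹ =
      (t * b * t⁻¹ * b⁻¹) * nu ρ (MulAut.conjNormal b.1 (MulAut.conjNormal t.1 m⁻¹ * m)) := by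
    intro b hb
    rw [← conj_nu ρ hb, map_mul, ← conj_nu ρ ht, map_inv]
    group
  have h3 : t.1 * (a * nu ρ m⁻¹).1 * t.1⁻¹ * (a * nu ρ m⁻¹).1⁻¹ ∈ N := by
    have h4 := congrArg Prod.fst (h2 a ha)
    have h5 : t.1 * (a * nu ρ m⁻¹).1 * t.1⁻¹ * (a * nu ρ m⁻¹).1⁻¹ =
      (t * (a * nu ρ m⁻¹) * t⁻¹ * (a * nu ρ m⁻¹)⁻¹).1 := rfl
    rw [h5, h4]
    exact mul_mem hta (Subtype.coe_prop _)
  obtain ⟨m', hm'⟩ := h _ (mul_mem ha (nu_mem ρ _)) t ht h1 h3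
  rw [h2 a ha] at hm'
  refine ⟨m' * (MulAut.conjNormal a.1 (MulAut.conjNormal t.1 m⁻¹ * m))⁻¹, ?_⟩
  rw [map_mul, ← hm', (nu ρ).map_inv, mul_inv_cancel_right]

theorem IsReg.conj {x : Γ} (h : IsReg ρ x) {s : Γ × (Matrix (Fin n) (Fin n) k)ˣ} (hs : s ∈ IP ρ) :
    IsReg ρ (s.1 * x * s.1⁻¹) := by
  intro a ha t ht hx hta
  have h1 : (s⁻¹ * a * s).1 = x := by
    rw [Prod.fst_mul, Prod.fst_mul, hx, Prod.fst_inv]
    group
  have h3 : (s⁻¹ * t * s).1 * (s⁻¹ * a * s).1 * (s⁻¹ * t * s).1⁻¹ * (s⁻¹ * a * s).1⁻¹ ∈ N := by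
    have h5 : (s⁻¹ * t * s).1 * (s⁻¹ * a * s).1 * (s⁻¹ * t * s).1⁻¹ * (s⁻¹ * a * s).1⁻¹ =
      s.1⁻¹ * (t.1 * a.1 * t.1⁻¹ * a.1⁻¹) * s.1⁻¹⁻¹ := by
      simp only [Prod.fst_mul, Prod.fst_inv]
      group
    rw [h5]
    exact hN.conj_mem _ hta _
  obtain ⟨m', hm'⟩ := h _ (mul_mem (mul_mem (inv_mem hs) ha) hs) _
    (mul_mem (mul_mem (inv_mem hs) ht) hs) h1 h3
  refine ⟨MulAut.conjNormal s.1 m', ?_⟩
  rw [← conj_nu ρ hs, ← hm']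
  group

variable (hex : ∀ x : Γ, ∃ a ∈ IP ρ, a.1 = x)

include hex

theorem isReg_conj_iff {x t : Γ} : IsReg ρ (t * x * t⁻¹) ↔ IsReg ρ x := by
  obtain ⟨s, hs, rfl⟩ := hex t
  refine ⟨fun h => ?_, fun h => h.conj ρ hs⟩
  have h1 := h.conj ρ (inv_mem hs)
  have h2 : (s⁻¹).1 * (s.1 * x * s.1⁻¹) * (s⁻¹).1⁻¹ = x := by
    rw [Prod.fst_inv]
    group
  rwa [h2] at h1

omit hex in
theorem isReg_mul_iff {x : Γ} {m : Γ} (hm : m ∈ N) : IsReg ρ (x * m) ↔ IsReg ρ x := by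
  refine ⟨fun h => ?_, fun h => h.mul ρ ⟨m, hm⟩⟩
  have h1 := h.mul ρ ⟨m⁻¹, inv_mem hm⟩
  rwa [mul_inv_cancel_right] at h1

omit hex in
theorem exists_conj_coset {r : ConjClasses (Γ ⧸ N) → Γ}
    (hr : ∀ K, ConjClasses.mk (r K : Γ ⧸ N) = K) (g : Γ) : ∃ t : Γ,
    (r (ConjClasses.mk (g : Γ ⧸ N)))⁻¹ * (t * g * t⁻¹) ∈ N := by
  have h1 := hr (ConjClasses.mk (g : Γ ⧸ N))
  rw [ConjClasses.mk_eq_mk_iff_isConj, isConj_comm, isConj_iff] at h1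
  obtain ⟨c, hc⟩ := h1
  obtain ⟨c, rfl⟩ := QuotientGroup.mk_surjective c
  refine ⟨c, ?_⟩
  rw [← QuotientGroup.eq]
  exact hc.symm

omit hex in
theorem exists_rep (N : Subgroup Γ) [N.Normal] : ∃ r : ConjClasses (Γ ⧸ N) → Γ,
    ∀ K, ConjClasses.mk (r K : Γ ⧸ N) = K := by
  have h : ∀ K : ConjClasses (Γ ⧸ N), ∃ x : Γ, ConjClasses.mk (x : Γ ⧸ N) = K := by
    intro K
    obtain ⟨y, rfl⟩ := ConjClasses.exists_rep K
    obtain ⟨x, rfl⟩ := QuotientGroup.mk_surjective y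
    exact ⟨x, rfl⟩
  choose r hr using h
  exact ⟨r, hr⟩

/-- **the section** -/
theorem exists_section : ∃ s : Γ → Γ × (Matrix (Fin n) (Fin n) k)ˣ,
    (∀ g, s g ∈ IP ρ ∧ (s g).1 = g) ∧ (∀ g, IsReg ρ g → ∀ m : N, s (g * m) = s g * nu ρ m) ∧
    ∀ t ∈ IP ρ, ∀ g, IsReg ρ g → s (t.1 * g * t.1⁻¹) = t * s g * t⁻¹ := by
  classical
  choose X hX hX' using hex
  -- the representatives
  obtain ⟨r, hr⟩ := exists_rep N
  let rp : Γ → Γ := fun g => r (ConjClasses.mk (g : Γ ⧸ N))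
  choose c hc using exists_conj_coset (Γ := Γ) (N := N) hr
  let T : Γ → Γ × (Matrix (Fin n) (Fin n) k)ˣ := fun g => X (c g)
  let s : Γ → Γ × (Matrix (Fin n) (Fin n) k)ˣ := fun g =>
    (T g)⁻¹ * (X (rp g) * nu ρ ⟨_, hc g⟩) * T g
  have hfst : ∀ g, (X (rp g) * nu ρ ⟨_, hc g⟩).1 = c g * g * (c g)⁻¹ := by
    intro g
    rw [Prod.fst_mul, hX', nu_fst]
    exact mul_inv_cancel_left _ _
  have hchar : ∀ g, IsReg ρ g → ∀ t ∈ IP ρ, ∀ m : N,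
      (X (rp g) * nu ρ m).1 = t.1 * g * t.1⁻¹ → s g = t⁻¹ * (X (rp g) * nu ρ m) * t := by
    intro g hg t ht m hm
    set y := X (rp g) * nu ρ ⟨_, hc g⟩ with hy
    have hyP : y ∈ IP ρ := mul_mem (hX _) (nu_mem ρ _)
    have hy1 : y.1 = (T g).1 * g * (T g).1⁻¹ := by
      rw [hfst, hX']
    have hreg : IsReg ρ y.1 := by
      rw [hy1]
      exact hg.conj ρ (hX _)
    set w := t * (T g)⁻¹ with hw
    have hwP : w ∈ IP ρ := mul_mem ht (inv_mem (hX _))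
    have h1 : w.1 * y.1 * w.1⁻¹ = (X (rp g) * nu ρ m).1 := by
      rw [hm, hy1, hw, Prod.fst_mul, Prod.fst_inv]
      group
    have h2 : w.1 * y.1 * w.1⁻¹ * y.1⁻¹ ∈ N := by
      rw [h1, hy]
      simp only [Prod.fst_mul, nu_fst]
      rw [mul_inv_rev]
      have : (X (rp g)).1 * ↑m * ((↑(⟨_, hc g⟩ : N) : Γ)⁻¹ * (X (rp g)).1⁻¹) =
        (X (rp g)).1 * (↑m * (↑(⟨_, hc g⟩ : N) : Γ)⁻¹) * (X (rp g)).1⁻¹ := by group
      rw [this]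
      exact hN.conj_mem _ (mul_mem m.2 (inv_mem (hc g))) _
    obtain ⟨m', hm'⟩ := hreg y hyP w hwP rfl h2
    have h3 : w * y * w⁻¹ = X (rp g) * nu ρ m := by
      have h4 : w * y * w⁻¹ = nu ρ m' * y := by rw [← hm']; group
      have h5 : nu ρ m' * y = y * nu ρ (MulAut.conjNormal y.1⁻¹ m') := by
        have h6 := conj_nu ρ (inv_mem hyP) m'
        rw [Prod.fst_inv] at h6
        rw [← h6]
        group
      refine (eq_of_coset ρ (m := (MulAut.conjNormal y.1⁻¹ m')⁻¹ * (⟨_, hc g⟩ : N)⁻¹ * m) ?_ h1)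
      rw [h4, h5, hy]
      generalize (⟨_, hc g⟩ : N) = q
      rw [(nu ρ).map_mul, (nu ρ).map_mul, (nu ρ).map_inv, (nu ρ).map_inv]
      group
    change (T g)⁻¹ * y * T g = _
    rw [← h3, hw]
    group
  refine ⟨s, fun g => ⟨mul_mem (mul_mem (inv_mem (hX _)) (mul_mem (hX _) (nu_mem ρ _))) (hX _),
    ?_⟩, ?_, ?_⟩
  · change ((T g)⁻¹ * (X (rp g) * nu ρ ⟨_, hc g⟩) * T g).1 = g
    rw [Prod.fst_mul, Prod.fst_mul, hfst, Prod.fst_inv, hX']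
    group
  · intro g hg m
    have hrp : rp (g * m) = rp g := by
      have : ((g * m : Γ) : Γ ⧸ N) = g := by
        rw [QuotientGroup.mk_mul, (QuotientGroup.eq_one_iff (m : Γ)).2 m.2, mul_one]
      simp only [rp, this]
    rw [hchar (g * m) (hg.mul ρ m) (T g) (hX _)
      (⟨_, hc g⟩ * MulAut.conjNormal (T g).1 m) ?_, map_mul, ← conj_nu ρ (hX _), hrp]
    · change _ = (T g)⁻¹ * (X (rp g) * nu ρ ⟨_, hc g⟩) * T g * nu ρ m
      have hT : X (c g) = T g := rfl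
      rw [hT]
      group
    · rw [hrp, map_mul, ← mul_assoc, Prod.fst_mul, hfst, hX', nu_fst, MulAut.conjNormal_apply]
      group
  · intro t ht g hg
    have hrp : rp (t.1 * g * t.1⁻¹) = rp g := by
      have : ConjClasses.mk ((t.1 * g * t.1⁻¹ : Γ) : Γ ⧸ N) = ConjClasses.mk (g : Γ ⧸ N) := by
        rw [ConjClasses.mk_eq_mk_iff_isConj, isConj_comm, isConj_iff]
        exact ⟨(t.1 : Γ ⧸ N), by simp⟩
      simp only [rp, this]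
    rw [hchar (t.1 * g * t.1⁻¹) (hg.conj ρ ht) (T g * t⁻¹) (mul_mem (hX _) (inv_mem ht))
      ⟨_, hc g⟩ ?_, hrp]
    · change _ = t * ((T g)⁻¹ * (X (rp g) * nu ρ ⟨_, hc g⟩) * T g) * t⁻¹
      group
    · rw [hrp, hfst, Prod.fst_mul, Prod.fst_inv, hX']
      group

end sec

end P179H872
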