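import Vale.Agent.P179.R2.H872.FB
import Vale.Agent.P179.R2.H872.Sec

/-!
# Clifford theory: the number of simple modules over a stable simple module of a normal subgroup
of index prime to `p`
-/

namespace P179H872

open P179H524 P179C P179A P179R Finset MonoidAlgebra

open P179C.C2 (Om cls phi)

universe u

section incl

variable {k : Type u} [Field k] {Γ : Type} [Group Γ]

/-- the embedding of group algebras -/
noncomputable def inc (N : Subgroup Γ) : MonoidAlgebra k N →ₐ[k] MonoidAlgebra k Γ :=
  MonoidAlgebra.mapDomainAlgHom k k N.subtype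

theorem inc_single (N : Subgroup Γ) (m : N) (a : k) : inc N (single m a) = single (m : Γ) a := by
  rw [inc, MonoidAlgebra.mapDomainAlgHom_apply, MonoidAlgebra.mapDomain_single]
  rfl

theorem inc_injective (N : Subgroup Γ) : Function.Injective (inc (k := k) N) :=
  MonoidAlgebra.mapDomain_injective N.subtype_injective

theorem lin_inc [Fintype Γ] (N : Subgroup Γ) [Fintype N] (ψ : Γ → k) (x : MonoidAlgebra k N) :
    lin ψ (inc N x) = ∑ m : N, x.coeff m * ψ m := by
  conv_lhs => rw [sum_single x]
  rw [map_sum, map_sum]
  refine Finset.sum_congr rfl fun g _ => ?_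
  rw [map_smul, map_smul, inc_single, lin_single, one_mul, smul_eq_mul]

theorem lin_inc_mul [Fintype Γ] (N : Subgroup Γ) [Fintype N] (ψ : Γ → k) (x : MonoidAlgebra k N)
    (y : Γ) : ∑ g : Γ, (inc N x).coeff g * ψ (g * y) = ∑ m : N, x.coeff m * ψ (m * y) := by
  rw [← lin_inc N (fun g => ψ (g * y)) x, lin_apply]

theorem sum_inc_coeff_mul [Fintype Γ] (N : Subgroup Γ) [Fintype N] (x : MonoidAlgebra k N)
    (F : Γ → k) : ∑ g : Γ, (inc N x).coeff g * F g = ∑ m : N, x.coeff m * F m := by
  rw [← lin_inc N F x, lin_apply]

variable {N : Subgroup Γ} [hN : N.Normal]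

/-- conjugation on the group algebra of a normal subgroup -/
noncomputable def cjA (x : Γ) : MonoidAlgebra k N ≃ₐ[k] MonoidAlgebra k N :=
  MonoidAlgebra.domCongr k k (MulAut.conjNormal x)

theorem cjA_single (x : Γ) (m : N) (a : k) :
    cjA x (single m a) = single (MulAut.conjNormal x m) a := by
  rw [cjA, MonoidAlgebra.domCongr_single]

theorem inc_cjA [Finite Γ] (x : Γ) (a : MonoidAlgebra k N) :
    inc N (cjA x a) = single x 1 * inc N a * single x⁻¹ 1 := by
  have := Fintype.ofFinite N
  rw [sum_single a, map_sum, map_sum, map_sum, Finset.mul_sum, Finset.sum_mul]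
  refine Finset.sum_congr rfl fun m _ => ?_
  rw [map_smul, map_smul, map_smul, cjA_single, inc_single, inc_single, mul_smul_comm,
    smul_mul_assoc, single_mul_single, single_mul_single, MulAut.conjNormal_apply]
  simp

end incl

section rad

variable {k : Type u} [Field k] {Γ : Type} [Group Γ] [Finite Γ] {N : Subgroup Γ} [hN : N.Normal]

omit [Finite Γ] hN in
/-- algebra automorphisms preserve the radical -/
theorem map_jacobson (σ : MonoidAlgebra k N ≃ₐ[k] MonoidAlgebra k N) {a : MonoidAlgebra k N}
    (ha : a ∈ Ring.jacobson (MonoidAlgebra k N)) : σ a ∈ Ring.jacobson (MonoidAlgebra k N) := by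
  have : RingHomSurjective (σ : MonoidAlgebra k N →+* MonoidAlgebra k N) := ⟨σ.surjective⟩
  exact Ring.le_comap_jacobson (σ : MonoidAlgebra k N →+* MonoidAlgebra k N) ha

omit [Finite Γ] hN in
theorem asAlgebraHom_comp {V : Type*} [AddCommGroup V] [Module k V]
    (σ : Representation k Γ V) (a : MonoidAlgebra k N) :
    Representation.asAlgebraHom (σ.comp N.subtype : Representation k N V) a =
      σ.asAlgebraHom (inc N a) := by
  have : Representation.asAlgebraHom (σ.comp N.subtype : Representation k N V) =
      σ.asAlgebraHom.comp (inc N) := by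
    apply MonoidAlgebra.algHom_ext
    · intro g
      rw [Representation.asAlgebraHom_single_one, AlgHom.comp_apply, inc_single,
        Representation.asAlgebraHom_single_one]
      rfl
    · exact Subsingleton.elim _ _
  rw [this]
  rfl

/-- the radical of `kN` kills the simple `kΓ`-modules -/
theorem rad_zero {V : Type*} [AddCommGroup V] [Module k V]
    (σ : Representation k Γ V) [hσ : σ.IsIrreducible] {a : MonoidAlgebra k N}
    (ha : a ∈ Ring.jacobson (MonoidAlgebra k N)) : σ.asAlgebraHom (inc N a) = 0 := by
  have : Finite N := inferInstance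
  have : Module.Finite k (MonoidAlgebra k N) :=
    Module.Finite.equiv (MonoidAlgebra.coeffLinearEquiv k).symm
  have : IsArtinianRing (MonoidAlgebra k N) := IsArtinianRing.of_finite k _
  obtain ⟨hV, hW⟩ := (isIrreducible_iff' σ).1 hσ
  let W : Submodule k V :=
    { carrier := {v | ∀ b ∈ Ring.jacobson (MonoidAlgebra k N), σ.asAlgebraHom (inc N b) v = 0}
      add_mem' := fun {v w} hv hw b hb => by rw [map_add, hv b hb, hw b hb, add_zero]
      zero_mem' := fun b _ => map_zero _
      smul_mem' := fun c v hv b hb => by rw [map_smul, hv b hb, smul_zero] }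
  have hWst : ∀ g, ∀ w ∈ W, σ g w ∈ W := by
    intro g w hw b hb
    have h1 : inc N b * single g 1 = single g 1 * inc N (cjA g⁻¹ b) := by
      rw [inc_cjA, ← mul_assoc, ← mul_assoc, single_mul_single, inv_inv, mul_inv_cancel, one_mul,
        ← MonoidAlgebra.one_def, one_mul]
    have h2 : σ.asAlgebraHom (inc N b) (σ g w) = σ.asAlgebraHom (inc N b * single g 1) w := by
      rw [map_mul, Module.End.mul_apply, Representation.asAlgebraHom_single_one]
    rw [h2, h1, map_mul, Module.End.mul_apply, hw _ (map_jacobson _ hb), map_zero]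
  rcases hW W hWst with h | h
  · exfalso
    obtain ⟨v, hv⟩ := exists_ne (0 : V)
    have h1 : ∀ w : V, w ≠ 0 → ∃ b ∈ Ring.jacobson (MonoidAlgebra k N),
        σ.asAlgebraHom (inc N b) w ≠ 0 := by
      intro w hw
      by_contra hcon
      push Not at hcon
      have : w ∈ W := hcon
      rw [h, Submodule.mem_bot] at this
      exact hw this
    have h2 : ∀ j : ℕ, ∃ b ∈ (Ring.jacobson (MonoidAlgebra k N)) ^ j,
        σ.asAlgebraHom (inc N b) v ≠ 0 := by
      intro j
      induction j with
      | zero =>
        refine ⟨1, ?_, ?_⟩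
        · rw [Submodule.pow_zero, Ideal.one_eq_top]
          trivial
        · rw [map_one, map_one]
          exact hv
      | succ j ih =>
        obtain ⟨b, hb, hbv⟩ := ih
        obtain ⟨b', hb', hbv'⟩ := h1 _ hbv
        refine ⟨b' * b, ?_, ?_⟩
        · rw [Ideal.IsTwoSided.pow_succ]
          exact Ideal.mul_mem_mul hb' hb
        · rw [map_mul, map_mul, Module.End.mul_apply]
          exact hbv'
    obtain ⟨j, hj⟩ := IsSemiprimaryRing.isNilpotent (R := MonoidAlgebra k N)
    obtain ⟨b, hb, hbv⟩ := h2 j
    rw [hj] at hb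
    have hb0 : b = 0 := by simpa using hb
    rw [hb0, map_zero, map_zero] at hbv
    exact hbv rfl
  · apply LinearMap.ext
    intro v
    have hv : v ∈ W := by rw [h]; trivial
    exact hv a ha

end rad

end P179H872
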