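import Vale.Agent.P179.R2.H872.Line2

/-!
# The functional attached to a function on a coset
-/

namespace P179H872

open P179H524 P179C P179A P179R Finset MonoidAlgebra

open P179C.C2 (Om cls phi)

universe u

section LL

variable {k : Type u} [Field k] {Γ : Type} [Group Γ] [Fintype Γ] {N : Subgroup Γ}

/-- the functional on the group algebra of `N` attached to a function on the coset `x N` -/
noncomputable def LL (N : Subgroup Γ) (ψ : Γ → k) (x : Γ) : MonoidAlgebra k N →ₗ[k] k :=
  (lin ψ).comp ((LinearMap.mul k (MonoidAlgebra k Γ) (single x 1)).comp (inc N).toLinearMap)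

theorem LL_apply (ψ : Γ → k) (x : Γ) (a : MonoidAlgebra k N) :
    LL N ψ x a = lin ψ (single x 1 * inc N a) := rfl

theorem LL_single (ψ : Γ → k) (x : Γ) (m : N) : LL N ψ x (single m 1) = ψ (x * m) := by
  rw [LL_apply, inc_single, single_mul_single, one_mul, lin_single, one_mul]

theorem LL_eq_lin [Fintype N] (ψ : Γ → k) (x : Γ) (a : MonoidAlgebra k N) :
    LL N ψ x a = lin (fun m : N => ψ (x * m)) a := by
  refine ext_single (f := LL N ψ x) (g := lin fun m : N => ψ (x * m)) (fun m => ?_) a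
  rw [LL_single, lin_single, one_mul]

variable [hN : N.Normal]

theorem inc_mul_single (b : MonoidAlgebra k N) (x : Γ) :
    inc N b * single x 1 = single x 1 * inc N (cjA x⁻¹ b) := by
  rw [inc_cjA, ← mul_assoc, ← mul_assoc, single_mul_single, inv_inv, mul_inv_cancel, one_mul,
    ← MonoidAlgebra.one_def, one_mul]

omit hN in
theorem lin_comm_inc {ψ : Γ → k} (h : ∀ m ∈ N, ∀ g, ψ (m * g * m⁻¹) = ψ g)
    (z : MonoidAlgebra k Γ) (b : MonoidAlgebra k N) : lin ψ (z * inc N b) = lin ψ (inc N b * z) := by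
  have h1 : ∀ (m : N) (g : Γ), ψ (g * m) = ψ (m * g) := fun m g => by
    rw [← h m m.2 (g * m)]
    congr 1
    group
  have h2 : ∀ (m : N) (z : MonoidAlgebra k Γ), lin ψ (z * single (m : Γ) 1) =
      lin ψ (single (m : Γ) 1 * z) := by
    intro m z
    rw [lin_mul_single, lin_single_mul]
    exact Finset.sum_congr rfl fun g _ => by rw [h1]
  have := Fintype.ofFinite N
  refine ext_single (f := (lin ψ).comp ((LinearMap.mul k (MonoidAlgebra k Γ) z).comp
      (inc N).toLinearMap))
    (g := (lin ψ).comp (((LinearMap.mul k (MonoidAlgebra k Γ)).flip z).comp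
      (inc N).toLinearMap)) (fun m => ?_) b
  simpa [inc_single] using h2 m z

/-- the twisted symmetry -/
theorem LL_mul {ψ : Γ → k} (h : ∀ m ∈ N, ∀ g, ψ (m * g * m⁻¹) = ψ g) (x : Γ)
    (a b : MonoidAlgebra k N) : LL N ψ x (a * b) = LL N ψ x (cjA x⁻¹ b * a) := by
  rw [LL_apply, LL_apply, map_mul (inc N), map_mul (inc N), ← mul_assoc, ← mul_assoc,
    ← inc_mul_single, lin_comm_inc h, mul_assoc (inc N b)]

omit hN in
theorem LL_c {p : ℕ} {c : MonoidAlgebra k N} {x : Γ} {ψ : Γ → k} (hψ : ψ ∈ LX p c x)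
    (hc : inc N c ∈ Subalgebra.center k (MonoidAlgebra k Γ)) (a : MonoidAlgebra k N) :
    LL N ψ x (c * a) = LL N ψ x a := by
  rw [LL_apply, LL_apply, map_mul (inc N), ← mul_assoc,
    (Subalgebra.mem_center_iff.1 hc) (single x 1), mul_assoc, lin_mul_of hψ.2.2.2]

/-- the functional kills the radical -/
theorem LL_rad (p : ℕ) [hp : Fact p.Prime] [IsAlgClosed k] [CharP k p]
    {c : MonoidAlgebra k N} {x : Γ} {ψ : Γ → k} (hψ : ψ ∈ LX p c x) {a : MonoidAlgebra k N}
    (ha : a ∈ Ring.jacobson (MonoidAlgebra k N)) : LL N ψ x a = 0 := by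
  classical
  let H : Subgroup Γ := N ⊔ Subgroup.zpowers x
  have hNH : N ≤ H := le_sup_left
  have hxH : x ∈ H := le_sup_right (a := N) (Subgroup.mem_zpowers x)
  let N0 : Subgroup H := N.subgroupOf H
  have : Fintype H := Fintype.ofFinite _
  have : Fintype N := Fintype.ofFinite _
  have : Fintype N0 := Fintype.ofFinite _
  let e : N0 ≃* N := Subgroup.subgroupOfEquivOfLe hNH
  let E : MonoidAlgebra k N0 ≃ₐ[k] MonoidAlgebra k N := MonoidAlgebra.domCongr k k e
  obtain ⟨a0, rfl⟩ := E.surjective a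
  have ha0 : a0 ∈ Ring.jacobson (MonoidAlgebra k N0) := (jacobson_equiv E.toRingEquiv).1 ha
  let ψ0 : H → k := fun h => ψ h
  have h1 : ∀ g x, ψ0 (g * x * g⁻¹) = ψ0 x := fun g x => LX_conj hψ g.2 x
  have h2 : ∀ x, ψ0 (pr p x) = ψ0 x := by
    intro x
    have h1 : ((pr p x : H) : Γ) = pr p (x : Γ) := Q7.map_pr p H.subtype x (C2.ord_ne x)
    change ψ ((pr p x : H) : Γ) = ψ x
    rw [h1]
    exact hψ.2.2.1 x
  obtain ⟨r, d, hd, f, hf, hfker⟩ := exists_wedderburn k H
  obtain ⟨cf, hcf⟩ := exists_trFun p f hf hfker h1 h2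
  have hrad : f (inc N0 a0) = 0 := by
    funext i
    have := compRep_isIrreducible f hf i
    have h2 := rad_zero (compRep f i) ha0
    rw [compRep_asAlgebraHom] at h2
    exact Matrix.toLin'.injective (by rw [h2]; exact (map_zero _).symm)
  have h3 : LL N ψ x (E a0) = LL N0 ψ0 ⟨x, hxH⟩ a0 := by
    rw [LL_eq_lin, LL_eq_lin]
    exact lin_domCongr e (fun m : N => ψ (x * m)) a0
  rw [h3, LL_apply, hcf]
  refine Finset.sum_eq_zero fun i _ => ?_
  rw [map_mul, hrad, mul_zero, Pi.zero_apply, Matrix.trace_zero, mul_zero]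

end LL

end P179H872
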