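import Vale.Agent.P179.R2.H872.Cos2

/-!
# The kernels of the simple modules of a normal subgroup and the action of the group on them
-/

namespace P179H872

open P179H524 P179C P179A P179R Finset MonoidAlgebra

open P179C.C2 (Om cls phi)

universe u

section ker

variable {k : Type u} [Field k] {H : Type} [Group H] {n : ℕ} [NeZero n]
  {A : MonoidAlgebra k H →ₐ[k] Matrix (Fin n) (Fin n) k}

omit [NeZero n] in
/-- the radical lies in the kernel of a simple module -/
theorem apply_rad (hA : Function.Surjective A) {a : MonoidAlgebra k H}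
    (ha : a ∈ Ring.jacobson (MonoidAlgebra k H)) : A a = 0 := by
  have : RingHomSurjective (A : MonoidAlgebra k H →+* Matrix (Fin n) (Fin n) k) := ⟨hA⟩
  have h1 : A a ∈ Ring.jacobson (Matrix (Fin n) (Fin n) k) :=
    Ring.le_comap_jacobson (A : MonoidAlgebra k H →+* Matrix (Fin n) (Fin n) k) ha
  rwa [IsSemisimpleRing.jacobson_eq_bot] at h1

/-- **every surjection to a matrix algebra has the kernel of a component** -/
theorem ker_class {r : ℕ} {d : Fin r → ℕ} [∀ i, NeZero (d i)]
    (f : MonoidAlgebra k H →ₐ[k] Π i, Matrix (Fin (d i)) (Fin (d i)) k)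
    (hf : Function.Surjective f)
    (hker : ∀ x, f x = 0 → x ∈ Ring.jacobson (MonoidAlgebra k H)) (hA : Function.Surjective A) :
    ∃ i, ∀ a, A a = 0 ↔ f a i = 0 := by
  classical
  have hAJ : ∀ x, f x = 0 → A x = 0 := fun x hx => apply_rad hA (hker x hx)
  choose s hs using hf
  let ε : Fin r → MonoidAlgebra k H := fun i => s (Pi.single i 1)
  have hε : ∀ i, f (ε i) = Pi.single i 1 := fun i => hs _
  obtain ⟨i, hi⟩ : ∃ i, A (ε i) ≠ 0 := by
    by_contra hcon
    push Not at hcon
    have h1 : A (∑ i, ε i) = 0 := by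
      rw [map_sum]
      exact Finset.sum_eq_zero fun i _ => hcon i
    have h2 : f (∑ i, ε i - 1) = 0 := by
      rw [map_sub, map_sum, map_one, sub_eq_zero]
      funext j
      rw [Finset.sum_apply, Finset.sum_eq_single j]
      · rw [hε, Pi.single_eq_same, Pi.one_apply]
      · intro b _ hb
        rw [hε, Pi.single_eq_of_ne hb.symm]
      · intro h
        exact absurd (Finset.mem_univ _) h
    have h3 := hAJ _ h2
    rw [map_sub, h1, map_one, zero_sub, neg_eq_zero] at h3
    exact one_ne_zero h3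
  refine ⟨i, fun a => ⟨fun ha => ?_, fun ha => ?_⟩⟩
  · by_contra hne
    obtain ⟨x, y, hxy⟩ : ∃ x y, f a i x y ≠ 0 := by
      by_contra hcon
      push Not at hcon
      exact hne (by ext x y; exact hcon x y)
    let b : Fin (d i) → MonoidAlgebra k H := fun u => s (Pi.single i (Matrix.single u x 1))
    let b' : Fin (d i) → MonoidAlgebra k H := fun u => s (Pi.single i (Matrix.single y u 1))
    have hb : ∀ u, f (b u) = Pi.single i (Matrix.single u x 1) := fun u => hs _
    have hb' : ∀ u, f (b' u) = Pi.single i (Matrix.single y u 1) := fun u => hs _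
    have h1 : A (∑ u, b u * a * b' u) = 0 := by
      rw [map_sum]
      refine Finset.sum_eq_zero fun u _ => ?_
      rw [map_mul, map_mul, ha, mul_zero, zero_mul]
    have h2 : f (∑ u, b u * a * b' u - (f a i x y) • ε i) = 0 := by
      rw [map_sub, map_sum, map_smul, hε, sub_eq_zero]
      funext j
      rw [Finset.sum_apply]
      by_cases hj : j = i
      · subst hj
        have h3 : ∀ u, f (b u * a * b' u) j = Matrix.single u u (f a j x y) := by
          intro u
          rw [map_mul, map_mul, Pi.mul_apply, Pi.mul_apply, hb, hb', Pi.single_eq_same,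
            Pi.single_eq_same, Matrix.single_mul_mul_single, one_mul, mul_one]
        rw [Finset.sum_congr rfl fun u _ => h3 u, Pi.smul_apply, Pi.single_eq_same]
        ext v w
        rw [Matrix.sum_apply, Matrix.smul_apply, Matrix.one_apply]
        simp only [Matrix.single_apply, smul_eq_mul]
        by_cases hvw : v = w
        · subst hvw
          rw [Finset.sum_eq_single v]
          · simp
          · intro u _ hu
            rw [if_neg]
            rintro ⟨rfl, -⟩
            exact hu rfl
          · intro h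
            exact absurd (Finset.mem_univ _) h
        · rw [if_neg hvw, mul_zero]
          refine Finset.sum_eq_zero fun u _ => if_neg ?_
          rintro ⟨rfl, rfl⟩
          exact hvw rfl
      · rw [Pi.smul_apply, Pi.single_eq_of_ne hj, smul_zero]
        refine Finset.sum_eq_zero fun u _ => ?_
        rw [map_mul, Pi.mul_apply, hb', Pi.single_eq_of_ne hj, mul_zero]
    have h3 := hAJ _ h2
    rw [map_sub, h1, map_smul, zero_sub, neg_eq_zero, smul_eq_zero] at h3
    rcases h3 with h3 | h3
    · exact hxy h3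
    · exact hi h3
  · by_contra hne
    obtain ⟨x, y, hxy⟩ : ∃ x y, A a x y ≠ 0 := by
      by_contra hcon
      push Not at hcon
      exact hne (by ext x y; exact hcon x y)
    obtain ⟨v, w, hvw⟩ : ∃ x y, A (ε i) x y ≠ 0 := by
      by_contra hcon
      push Not at hcon
      exact hi (by ext x y; exact hcon x y)
    obtain ⟨b, hb⟩ := hA (Matrix.single y v 1)
    have h1 : f (a * b * ε i) = 0 := by
      funext j
      rw [map_mul, map_mul, Pi.mul_apply, Pi.mul_apply, hε]
      by_cases hj : j = i
      · subst hj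
        rw [ha, zero_mul, zero_mul]
        rfl
      · rw [Pi.single_eq_of_ne hj, mul_zero]
        rfl
    have h2 := hAJ _ h1
    rw [map_mul, map_mul, hb] at h2
    have h3 : (A a * Matrix.single y v 1 * A (ε i) : Matrix (Fin n) (Fin n) k) x w =
        A a x y * A (ε i) v w := by
      rw [mul_assoc, Matrix.mul_apply, Finset.sum_eq_single y]
      · rw [Matrix.single_mul_apply_same, one_mul]
      · intro z _ hz
        rw [Matrix.single_mul_apply_of_ne _ _ _ _ _ hz, mul_zero]
      · intro h
        exact absurd (Finset.mem_univ _) h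
    rw [h2] at h3
    exact mul_ne_zero hxy hvw h3.symm

end ker

section XK

variable {k : Type u} [Field k] {Γ : Type} [Group Γ] {N : Subgroup Γ}

/-- the kernels of the simple modules in `c` -/
def XK (N : Subgroup Γ) (c : MonoidAlgebra k N) : Type u :=
  {K : Set (MonoidAlgebra k N) // ∃ n : ℕ, n ≠ 0 ∧
    ∃ A : MonoidAlgebra k N →ₐ[k] Matrix (Fin n) (Fin n) k, Function.Surjective A ∧ A c = 1 ∧
      ∀ a, a ∈ K ↔ A a = 0}

namespace XK

variable {c : MonoidAlgebra k N} (K : XK N c)

/-- the degree -/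
noncomputable def deg : ℕ := K.2.choose

instance : NeZero K.deg := ⟨K.2.choose_spec.1⟩

/-- the matrix representation -/
noncomputable def rep : MonoidAlgebra k N →ₐ[k] Matrix (Fin K.deg) (Fin K.deg) k :=
  K.2.choose_spec.2.choose

theorem rep_surj : Function.Surjective K.rep := K.2.choose_spec.2.choose_spec.1

theorem rep_c : K.rep c = 1 := K.2.choose_spec.2.choose_spec.2.1

theorem mem_iff (a : MonoidAlgebra k N) : a ∈ K.1 ↔ K.rep a = 0 :=
  K.2.choose_spec.2.choose_spec.2.2 a

theorem rad_mem {a : MonoidAlgebra k N} (ha : a ∈ Ring.jacobson (MonoidAlgebra k N)) :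
    a ∈ K.1 := (K.mem_iff a).2 (apply_rad K.rep_surj ha)

end XK

variable {c : MonoidAlgebra k N}

/-- the bijection with the components of a Wedderburn decomposition -/
theorem XK_bij {r : ℕ} {d : Fin r → ℕ} [hd : ∀ i, NeZero (d i)]
    (f : MonoidAlgebra k N →ₐ[k] Π i, Matrix (Fin (d i)) (Fin (d i)) k)
    (hf : Function.Surjective f)
    (hker : ∀ x, f x = 0 → x ∈ Ring.jacobson (MonoidAlgebra k N)) (hc2 : c * c = c) (l : Fin r → k)
    (hl : ∀ i, f c i = Matrix.scalar _ (l i)) :
    ∃ F : {i : Fin r // l i = 1} → XK N c, Function.Bijective F ∧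
      ∀ i a, a ∈ (F i).1 ↔ f a i.1 = 0 := by
  classical
  let F : {i : Fin r // l i = 1} → XK N c := fun i =>
    ⟨{a | f a i.1 = 0}, d i.1, (hd i.1).ne, (Pi.evalAlgHom k _ i.1).comp f, by
      intro M
      obtain ⟨x, hx⟩ := hf (Function.update 0 i.1 M)
      refine ⟨x, ?_⟩
      change f x i.1 = M
      rw [hx, Function.update_self], by
      change f c i.1 = 1
      rw [hl, i.2, map_one], fun a => Iff.rfl⟩
  refine ⟨F, ⟨fun i j hij => ?_, fun K => ?_⟩, fun i a => Iff.rfl⟩
  · by_contra hne
    have hne' : j.1 ≠ i.1 := fun h => hne (Subtype.ext h.symm)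
    obtain ⟨x, hx⟩ := hf (Pi.single i.1 1)
    have h1 : x ∈ (F j).1 := by
      change f x j.1 = 0
      rw [hx, Pi.single_eq_of_ne hne']
    rw [← hij] at h1
    change f x i.1 = 0 at h1
    rw [hx, Pi.single_eq_same] at h1
    exact one_ne_zero h1
  · obtain ⟨i, hi⟩ := ker_class f hf hker K.rep_surj
    have h1 : l i = 1 := by
      rcases C2.scalar_idem f c hc2 l hl i with h | h
      · exfalso
        have h2 := (hi c).2 (by rw [hl, h, map_zero])
        rw [K.rep_c] at h2
        exact one_ne_zero h2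
      · exact h
    refine ⟨⟨i, h1⟩, Subtype.ext (Set.ext fun a => ?_)⟩
    change f a i = 0 ↔ _
    rw [K.mem_iff, hi]

variable [IsAlgClosed k] [Finite N]

theorem XK_card (hcN : c ∈ Subalgebra.center k (MonoidAlgebra k N)) (hc2 : c * c = c) :
    Nat.card (XK N c) = numSimpleIn c := by
  obtain ⟨r, d, hd, f, hf, hker⟩ := exists_wedderburn k N
  obtain ⟨l, hl⟩ := C2.exists_scalar f hf c hcN
  obtain ⟨F, hF, -⟩ := XK_bij f hf hker hc2 l hl
  rw [C2.numSimpleIn_eq_card f hf hker c l hl]
  exact (Nat.card_congr (Equiv.ofBijective F hF)).symm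

theorem XK_finite (hcN : c ∈ Subalgebra.center k (MonoidAlgebra k N)) (hc2 : c * c = c) :
    Finite (XK N c) := by
  obtain ⟨r, d, hd, f, hf, hker⟩ := exists_wedderburn k N
  obtain ⟨l, hl⟩ := C2.exists_scalar f hf c hcN
  obtain ⟨F, hF, -⟩ := XK_bij f hf hker hc2 l hl
  exact Finite.of_surjective F hF.2

theorem XK_rad (hcN : c ∈ Subalgebra.center k (MonoidAlgebra k N)) (hc2 : c * c = c)
    {a : MonoidAlgebra k N} (ha : ∀ K : XK N c, a ∈ K.1) :
    c * a ∈ Ring.jacobson (MonoidAlgebra k N) := by
  obtain ⟨r, d, hd, f, hf, hker⟩ := exists_wedderburn k N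
  obtain ⟨l, hl⟩ := C2.exists_scalar f hf c hcN
  obtain ⟨F, hF, hF'⟩ := XK_bij f hf hker hc2 l hl
  apply hker
  funext j
  rw [map_mul, Pi.mul_apply, Pi.zero_apply]
  rcases C2.scalar_idem f c hc2 l hl j with h | h
  · rw [hl, h, map_zero, zero_mul]
  · rw [(hF' ⟨j, h⟩ a).1 (ha _), mul_zero]

theorem XK_eps (hcN : c ∈ Subalgebra.center k (MonoidAlgebra k N)) (hc2 : c * c = c)
    (K : XK N c) : ∃ ε : MonoidAlgebra k N, K.rep ε = 1 ∧ ∀ K' : XK N c, K' ≠ K → K'.rep ε = 0 := by
  classical
  obtain ⟨r, d, hd, f, hf, hker⟩ := exists_wedderburn k N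
  obtain ⟨l, hl⟩ := C2.exists_scalar f hf c hcN
  obtain ⟨F, hF, hF'⟩ := XK_bij f hf hker hc2 l hl
  obtain ⟨i, rfl⟩ := hF.2 K
  obtain ⟨x, hx⟩ := hf (Pi.single i.1 1)
  refine ⟨x, ?_, fun K' hK' => ?_⟩
  · have h1 : x - 1 ∈ (F i).1 := by
      rw [hF', map_sub, hx, map_one, Pi.sub_apply, Pi.single_eq_same, Pi.one_apply, sub_self]
    rw [XK.mem_iff, map_sub, map_one, sub_eq_zero] at h1
    exact h1
  · obtain ⟨j, rfl⟩ := hF.2 K'
    have hji : j.1 ≠ i.1 := fun h => hK' (by rw [Subtype.ext h])
    rw [← XK.mem_iff, hF', hx, Pi.single_eq_of_ne hji]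

end XK

end P179H872
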