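import Vale.Agent.P179.R2.H872.Cos3

/-!
# The action of the quotient on the kernels of the simple modules
-/

namespace P179H872

open P179H524 P179C P179A P179R Finset MonoidAlgebra

open P179C.C2 (Om cls phi)

universe u

section act

variable {k : Type u} [Field k] {Γ : Type} [Group Γ] {N : Subgroup Γ} [hN : N.Normal]

theorem cjA_one (a : MonoidAlgebra k N) : cjA (1 : Γ) a = a := by
  rw [cjA, map_one]
  have h1 : MonoidAlgebra.domCongr k k (MulEquiv.refl N) = AlgEquiv.refl := by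
    exact MonoidAlgebra.domCongr_refl
  exact congrArg (fun e : MonoidAlgebra k N ≃ₐ[k] MonoidAlgebra k N => e a) h1

theorem cjA_mul (x y : Γ) (a : MonoidAlgebra k N) : cjA (x * y) a = cjA x (cjA y a) := by
  have h1 : (cjA (x * y) : MonoidAlgebra k N ≃ₐ[k] MonoidAlgebra k N).toAlgHom =
      ((cjA x : MonoidAlgebra k N ≃ₐ[k] MonoidAlgebra k N).toAlgHom).comp
        (cjA y : MonoidAlgebra k N ≃ₐ[k] MonoidAlgebra k N).toAlgHom := by
    apply MonoidAlgebra.algHom_ext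
    · intro m
      change cjA (x * y) (single m 1) = cjA x (cjA y (single m 1))
      rw [cjA_single, cjA_single, cjA_single, map_mul, MulAut.mul_apply]
    · exact Subsingleton.elim _ _
  exact congrArg (fun e : MonoidAlgebra k N →ₐ[k] MonoidAlgebra k N => e a) h1

theorem cjA_inv_cjA (x : Γ) (a : MonoidAlgebra k N) : cjA x⁻¹ (cjA x a) = a := by
  rw [← cjA_mul, inv_mul_cancel, cjA_one]

variable {c : MonoidAlgebra k N}

/-- the action on the kernels -/
noncomputable def XK.smul (hc : ∀ x : Γ, cjA x c = c) (x : Γ) (K : XK N c) : XK N c :=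
  ⟨{a | cjA x⁻¹ a ∈ K.1}, K.deg, NeZero.ne _,
    K.rep.comp (cjA x⁻¹ : MonoidAlgebra k N ≃ₐ[k] MonoidAlgebra k N).toAlgHom,
    K.rep_surj.comp (cjA x⁻¹ : MonoidAlgebra k N ≃ₐ[k] MonoidAlgebra k N).surjective, by
      change K.rep (cjA x⁻¹ c) = 1
      rw [hc, K.rep_c], fun a => K.mem_iff _⟩

/-- the action of the group -/
@[reducible] noncomputable def actG (hc : ∀ x : Γ, cjA x c = c) : MulAction Γ (XK N c) where
  smul := XK.smul hc
  one_smul K := by
    refine Subtype.ext (Set.ext fun a => ?_)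
    change cjA (1 : Γ)⁻¹ a ∈ K.1 ↔ _
    rw [inv_one, cjA_one]
  mul_smul x y K := by
    refine Subtype.ext (Set.ext fun a => ?_)
    change cjA (x * y)⁻¹ a ∈ K.1 ↔ cjA y⁻¹ (cjA x⁻¹ a) ∈ K.1
    rw [mul_inv_rev, cjA_mul]

theorem mem_smul (hc : ∀ x : Γ, cjA x c = c) (x : Γ) (K : XK N c) (a : MonoidAlgebra k N) :
    a ∈ (XK.smul hc x K).1 ↔ cjA x⁻¹ a ∈ K.1 := Iff.rfl

theorem smul_mul (hc : ∀ x : Γ, cjA x c = c) (x y : Γ) (K : XK N c) :
    XK.smul hc (x * y) K = XK.smul hc x (XK.smul hc y K) := by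
  let _ := actG hc
  exact mul_smul x y K

theorem smul_one (hc : ∀ x : Γ, cjA x c = c) (K : XK N c) : XK.smul hc 1 K = K := by
  let _ := actG hc
  exact one_smul Γ K

theorem smul_inv_smul' (hc : ∀ x : Γ, cjA x c = c) (x : Γ) (K : XK N c) :
    XK.smul hc x⁻¹ (XK.smul hc x K) = K := by
  rw [← smul_mul, inv_mul_cancel, smul_one]

theorem smul_of_mem [Finite Γ] (hc : ∀ x : Γ, cjA x c = c) {x : Γ} (hx : x ∈ N) (K : XK N c) :
    XK.smul hc x K = K := by
  have := Fintype.ofFinite Γ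
  refine Subtype.ext (Set.ext fun a => ?_)
  rw [mem_smul, K.mem_iff, K.mem_iff]
  have h1 := apply_cjA (A := K.rep) (nu_mem (uhom K.rep) (⟨x, hx⟩ : N)⁻¹) a
  rw [nu_fst] at h1
  change K.rep (cjA x⁻¹ a) = _ at h1
  rw [h1]
  constructor
  · intro h
    have h2 := congrArg (fun M : Matrix (Fin K.deg) (Fin K.deg) k =>
      (((nu (uhom K.rep) (⟨x, hx⟩ : N)⁻¹).2⁻¹ : (Matrix (Fin K.deg) (Fin K.deg) k)ˣ) :
        Matrix (Fin K.deg) (Fin K.deg) k) * M *
      ((nu (uhom K.rep) (⟨x, hx⟩ : N)⁻¹).2 : Matrix (Fin K.deg) (Fin K.deg) k)) h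
    simpa [mul_assoc] using h2
  · intro h
    rw [h, mul_zero, zero_mul]

/-- the action of the quotient -/
@[reducible] noncomputable def actQ [Finite Γ] (hc : ∀ x : Γ, cjA x c = c) :
    MulAction (Γ ⧸ N) (XK N c) :=
  letI := actG hc
  MulAction.compHom (XK N c) (QuotientGroup.lift N (MulAction.toPermHom Γ (XK N c)) fun _ hx =>
    Equiv.ext fun K => smul_of_mem hc hx K)

theorem mk_smul_eq [Finite Γ] (hc : ∀ x : Γ, cjA x c = c) (x : Γ) (K : XK N c) :
    letI := actQ hc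
    ((x : Γ ⧸ N) • K) = XK.smul hc x K := rfl

end act

end P179H872
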