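import Vale.Agent.P179.R2.H872.Cos4

/-!
# The functions on a coset as functions on the simple modules fixed by the coset
-/

namespace P179H872

open P179H524 P179C P179A P179R Finset MonoidAlgebra

open P179C.C2 (Om cls phi)

universe u

section LLt

variable {k : Type u} [Field k] {Γ : Type} [Group Γ] [Fintype Γ] {N : Subgroup Γ} [hN : N.Normal]

omit hN in
theorem LL_tX {n : ℕ} {A : MonoidAlgebra k N →ₐ[k] Matrix (Fin n) (Fin n) k}
    (X : Γ × (Matrix (Fin n) (Fin n) k)ˣ) (a : MonoidAlgebra k N) :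
    LL N (tX A X) X.1 a = ((X.2 : Matrix (Fin n) (Fin n) k) * A a).trace := by
  classical
  have := Fintype.ofFinite N
  let T : MonoidAlgebra k N →ₗ[k] k :=
    (Matrix.traceLinearMap (Fin n) k k).comp
      ((LinearMap.mul k (Matrix (Fin n) (Fin n) k) (X.2 : Matrix (Fin n) (Fin n) k)).comp
        A.toLinearMap)
  refine ext_single (f := LL N (tX A X) X.1) (g := T) (fun m => ?_) a
  rw [LL_single, tX_mul]
  rfl

omit hN in
theorem LL_add (ψ ψ' : Γ → k) (x : Γ) (a : MonoidAlgebra k N) :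
    LL N (ψ + ψ') x a = LL N ψ x a + LL N ψ' x a := by
  rw [LL_apply, LL_apply, LL_apply, lin_apply, lin_apply, lin_apply, ← Finset.sum_add_distrib]
  exact Finset.sum_congr rfl fun g _ => by rw [Pi.add_apply, mul_add]

omit hN in
theorem LL_smul (κ : k) (ψ : Γ → k) (x : Γ) (a : MonoidAlgebra k N) :
    LL N (κ • ψ) x a = κ * LL N ψ x a := by
  rw [LL_apply, LL_apply, lin_apply, lin_apply, Finset.mul_sum]
  exact Finset.sum_congr rfl fun g _ => by rw [Pi.smul_apply, smul_eq_mul]; ring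

omit hN in
theorem LL_sum {ι : Type*} (s : Finset ι) (ψ : ι → Γ → k) (x : Γ) (a : MonoidAlgebra k N) :
    LL N (∑ i ∈ s, ψ i) x a = ∑ i ∈ s, LL N (ψ i) x a := by
  classical
  induction s using Finset.induction_on with
  | empty =>
    rw [Finset.sum_empty, Finset.sum_empty, LL_apply, lin_apply]
    exact Finset.sum_eq_zero fun g _ => by rw [Pi.zero_apply, mul_zero]
  | insert i s hi ih => rw [Finset.sum_insert hi, Finset.sum_insert hi, LL_add, ih]

omit hN in
/-- functions on a coset are determined by the functional -/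
theorem eq_of_LL {x : Γ} {ψ ψ' : Γ → k} (h1 : ∀ g, x⁻¹ * g ∉ N → ψ g = 0)
    (h2 : ∀ g, x⁻¹ * g ∉ N → ψ' g = 0) (h : ∀ a : MonoidAlgebra k N, LL N ψ x a = LL N ψ' x a) :
    ψ = ψ' := by
  funext g
  by_cases hg : x⁻¹ * g ∈ N
  · have h3 := h (single ⟨_, hg⟩ 1)
    rw [LL_single, LL_single] at h3
    have h4 : x * (x⁻¹ * g) = g := by group
    rwa [h4] at h3
  · rw [h1 g hg, h2 g hg]

end LLt

section comp

variable {k : Type u} [Field k] {Γ : Type} [Group Γ] [Fintype Γ] {N : Subgroup Γ} [hN : N.Normal]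
  {c : MonoidAlgebra k N} (hc : inc N c ∈ Subalgebra.center k (MonoidAlgebra k Γ))

/-- intertwiners over the stabiliser -/
theorem exists_X {x : Γ} {K : XK N c} (hK : XK.smul (cjA_fix hc) x K = K) :
    ∃ X ∈ IP (uhom K.rep), X.1 = x := by
  obtain ⟨M, hM⟩ := exists_inner K.rep_surj (σ := cjA x) (fun a ha => by
    rw [← K.mem_iff] at ha ⊢
    rw [← hK, mem_smul, cjA_inv_cjA]
    exact ha)
  refine ⟨(x, M), fun m => ?_, rfl⟩
  apply Units.ext
  have h1 := hM (single m 1)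
  rw [cjA_single] at h1
  exact h1

variable (p : ℕ) [hp : Fact p.Prime] [IsAlgClosed k] [CharP k p]
  (hcN : c ∈ Subalgebra.center k (MonoidAlgebra k N)) (hc2 : c * c = c)

include hc hcN hc2

theorem LL_zero {x : Γ} {ψ : Γ → k} (hψ : ψ ∈ LX p c x) {a : MonoidAlgebra k N}
    (ha : ∀ K : XK N c, K.rep a = 0) : LL N ψ x a = 0 := by
  rw [← LL_c hψ hc]
  exact LL_rad p hψ (XK_rad hcN hc2 fun K => (K.mem_iff a).2 (ha K))

theorem LL_congr {x : Γ} {ψ : Γ → k} (hψ : ψ ∈ LX p c x) {a b : MonoidAlgebra k N}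
    (h : ∀ K : XK N c, K.rep a = K.rep b) : LL N ψ x a = LL N ψ x b := by
  rw [← sub_eq_zero, ← map_sub]
  exact LL_zero hc p hcN hc2 hψ fun K => by rw [map_sub, h, sub_self]

theorem LL_decomp [Fintype (XK N c)] {ε : XK N c → MonoidAlgebra k N}
    (h1 : ∀ K : XK N c, K.rep (ε K) = 1) (h0 : ∀ K K' : XK N c, K' ≠ K → K'.rep (ε K) = 0)
    {x : Γ} {ψ : Γ → k} (hψ : ψ ∈ LX p c x) (a : MonoidAlgebra k N) :
    LL N ψ x a = ∑ K, LL N ψ x (ε K * a) := by
  rw [← map_sum]
  refine LL_congr hc p hcN hc2 hψ fun K => ?_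
  rw [map_sum, Finset.sum_eq_single K]
  · rw [map_mul, h1, one_mul]
  · intro K' _ hK'
    rw [map_mul, h0 K' K hK'.symm, zero_mul]
  · intro h
    exact absurd (Finset.mem_univ _) h

theorem LL_nonfixed {K : XK N c} {ε : MonoidAlgebra k N} (h1 : K.rep ε = 1)
    (h0 : ∀ K' : XK N c, K' ≠ K → K'.rep ε = 0)
    {x : Γ} (hK : XK.smul (cjA_fix hc) x K ≠ K) {ψ : Γ → k} (hψ : ψ ∈ LX p c x)
    (a : MonoidAlgebra k N) : LL N ψ x (ε * a) = 0 := by
  have h2 : LL N ψ x (ε * a) = LL N ψ x (ε * a * ε) := by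
    refine LL_congr hc p hcN hc2 hψ fun K' => ?_
    simp only [map_mul]
    by_cases h : K' = K
    · subst h
      rw [h1, one_mul, mul_one]
    · rw [h0 K' h, zero_mul, mul_zero]
  rw [h2, LL_mul hψ.2.1]
  refine LL_zero hc p hcN hc2 hψ fun K' => ?_
  rw [map_mul, map_mul]
  by_cases h : K' = K
  · subst h
    have h3 : K'.rep (cjA x⁻¹ ε) = 0 := by
      rw [← K'.mem_iff, ← mem_smul (cjA_fix hc), XK.mem_iff]
      exact h0 _ hK
    rw [h3, zero_mul]
  · rw [h0 K' h, zero_mul, mul_zero]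

theorem LL_fixed {K : XK N c} {ε : MonoidAlgebra k N} (h1 : K.rep ε = 1)
    (h0 : ∀ K' : XK N c, K' ≠ K → K'.rep ε = 0)
    {X : Γ × (Matrix (Fin K.deg) (Fin K.deg) k)ˣ} (hX : X ∈ IP (uhom K.rep)) {ψ : Γ → k}
    (hψ : ψ ∈ LX p c X.1) :
    ∃ κ : k, ∀ a, LL N ψ X.1 (ε * a) =
      κ * ((X.2 : Matrix (Fin K.deg) (Fin K.deg) k) * K.rep a).trace := by
  classical
  choose s hs using K.rep_surj
  let L : MonoidAlgebra k N → k := fun a => LL N ψ X.1 (ε * a)
  have hLwd : ∀ a b, K.rep a = K.rep b → L a = L b := by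
    intro a b hab
    refine LL_congr hc p hcN hc2 hψ fun K' => ?_
    rw [map_mul, map_mul]
    by_cases h : K' = K
    · subst h
      rw [hab]
    · rw [h0 K' h, zero_mul, zero_mul]
  have hLadd : ∀ x y, L (x + y) = L x + L y := fun x y => by
    simp only [L, mul_add, map_add]
  have hLsmul : ∀ (t : k) x, L (t • x) = t * L x := fun t x => by
    simp only [L, map_smul, mul_smul_comm, smul_eq_mul]
  let M0 : Matrix (Fin K.deg) (Fin K.deg) k := X.2
  let Mi : Matrix (Fin K.deg) (Fin K.deg) k := (X.2⁻¹ : (Matrix (Fin K.deg) (Fin K.deg) k)ˣ)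
  have hXX : Mi * M0 = 1 := X.2.inv_mul
  have hXX' : M0 * Mi = 1 := X.2.mul_inv
  let Φ : Matrix (Fin K.deg) (Fin K.deg) k →ₗ[k] k :=
    { toFun := fun M => L (s (Mi * M))
      map_add' := fun M M' => by
        rw [← hLadd]
        apply hLwd
        rw [hs, mul_add, map_add, hs, hs]
      map_smul' := fun t M => by
        rw [RingHom.id_apply, smul_eq_mul, ← hLsmul]
        apply hLwd
        rw [hs, map_smul, hs, mul_smul_comm] }
  have hΦ : ∀ a, Φ (M0 * K.rep a) = L a := by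
    intro a
    refine hLwd _ _ ?_
    rw [hs, ← mul_assoc, hXX, one_mul]
  have hΦs : ∀ M M', Φ (M * M') = Φ (M' * M) := by
    intro M M'
    have e1 : M = M0 * K.rep (s (Mi * M)) := by rw [hs, ← mul_assoc, hXX', one_mul]
    have e2 : M' = K.rep (s M') := (hs _).symm
    set a := s (Mi * M) with ha
    set b := s M' with hb
    have e3 : M * M' = M0 * K.rep (a * b) := by rw [map_mul, ← mul_assoc, ← e1, ← e2]
    have e4 : M' * M = M0 * K.rep (cjA X.1⁻¹ b * a) := by
      have h5 := apply_cjA (inv_mem hX) b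
      rw [Prod.fst_inv] at h5
      rw [map_mul, h5, Prod.snd_inv, inv_inv]
      have h6 : M0 * ((X.2⁻¹ : (Matrix (Fin K.deg) (Fin K.deg) k)ˣ) * K.rep b *
          (X.2 : Matrix (Fin K.deg) (Fin K.deg) k) * K.rep a) =
          (M0 * Mi) * K.rep b * (M0 * K.rep a) := by
        simp only [M0, Mi, mul_assoc]
      rw [h6, hXX', one_mul, ← e1, ← e2]
    rw [e3, e4, hΦ, hΦ]
    change LL N ψ X.1 (ε * (a * b)) = LL N ψ X.1 (ε * (cjA X.1⁻¹ b * a))
    rw [← mul_assoc, LL_mul hψ.2.1]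
    refine LL_congr hc p hcN hc2 hψ fun K' => ?_
    simp only [map_mul]
    by_cases h : K' = K
    · subst h
      rw [h1, one_mul, one_mul]
    · rw [h0 K' h, zero_mul, zero_mul, mul_zero]
  obtain ⟨κ, hκ⟩ := exists_smul_trace Φ hΦs
  exact ⟨κ, fun a => by rw [← hκ]; exact (hΦ a).symm⟩

/-- **the basis of the functions on a coset** -/
theorem LX_basis {x : Γ}
    [Fintype {K : XK N c // XK.smul (cjA_fix hc) x K = K}]
    (t : {K : XK N c // XK.smul (cjA_fix hc) x K = K} → Γ → k) (ht : ∀ K, t K ∈ LX p c x)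
    (hK : ∀ K, ∀ a ∈ K.1.1, LL N (t K) x a = 0) (hne : ∀ K, t K ≠ 0) :
    (∀ ψ ∈ LX p c x, ∃ κ : {K : XK N c // XK.smul (cjA_fix hc) x K = K} → k,
      ψ = ∑ K, κ K • t K) ∧
    ∀ κ : {K : XK N c // XK.smul (cjA_fix hc) x K = K} → k, ∑ K, κ K • t K = 0 → κ = 0 := by
  classical
  have := XK_finite hcN hc2
  have := Fintype.ofFinite (XK N c)
  choose ε h1 h0 using XK_eps hcN hc2
  have hX : ∀ K : {K : XK N c // XK.smul (cjA_fix hc) x K = K}, ∃ X ∈ IP (uhom K.1.rep),
    X.1 = x := fun K => exists_X hc K.2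
  choose X hX hX' using hX
  -- the value of the functional of `t K`
  have hεt : ∀ K a, LL N (t K) x (ε K.1 * a) = LL N (t K) x a := by
    intro K a
    rw [← sub_eq_zero, ← map_sub]
    refine hK K _ ((K.1.mem_iff _).2 ?_)
    rw [map_sub, map_mul, h1, one_mul, sub_self]
  have hκ0 : ∀ K, ∃ κ : k, κ ≠ 0 ∧ ∀ a, LL N (t K) x a =
      κ * (((X K).2 : Matrix (Fin K.1.deg) (Fin K.1.deg) k) * K.1.rep a).trace := by
    intro K
    obtain ⟨κ, hκ⟩ := LL_fixed hc p hcN hc2 (h1 K.1) (h0 K.1) (hX K) (by rw [hX']; exact ht K)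
    rw [hX'] at hκ
    have h2 : ∀ a, LL N (t K) x a =
        κ * (((X K).2 : Matrix (Fin K.1.deg) (Fin K.1.deg) k) * K.1.rep a).trace := fun a => by
      rw [← hκ, hεt]
    refine ⟨κ, ?_, h2⟩
    rintro rfl
    refine hne K (eq_of_LL (N := N) (ht K).1 (fun _ _ => rfl) fun a => ?_)
    rw [h2, zero_mul, LL_apply, lin_apply]
    exact (Finset.sum_eq_zero fun g _ => mul_zero _).symm
  choose κ0 hκ0 hκt using hκ0
  refine ⟨fun ψ hψ => ?_, fun κ hκ => ?_⟩
  · have h2 : ∀ K : {K : XK N c // XK.smul (cjA_fix hc) x K = K}, ∃ κ : k,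
        ∀ a, LL N ψ x (ε K.1 * a) = κ * LL N (t K) x a := by
      intro K
      obtain ⟨κ, hκ⟩ := LL_fixed hc p hcN hc2 (h1 K.1) (h0 K.1) (hX K) (by rw [hX']; exact hψ)
      rw [hX'] at hκ
      refine ⟨κ / κ0 K, fun a => ?_⟩
      rw [hκ, hκt]
      have := hκ0 K
      field_simp
    choose κ hκ using h2
    refine ⟨κ, eq_of_LL (N := N) (x := x) hψ.1 (fun g hg => ?_) fun a => ?_⟩
    · rw [Finset.sum_apply]
      refine Finset.sum_eq_zero fun K _ => ?_
      rw [Pi.smul_apply, (ht K).1 g hg, smul_eq_mul, mul_zero]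
    · rw [LL_sum, LL_decomp hc p hcN hc2 h1 h0 hψ]
      have h3 : ∀ K : {K : XK N c // XK.smul (cjA_fix hc) x K = K},
          LL N (κ K • t K) x a = LL N ψ x (ε K.1 * a) := fun K => by rw [LL_smul, hκ]
      rw [Finset.sum_congr rfl fun K _ => h3 K,
        ← Finset.sum_filter_add_sum_filter_not Finset.univ
          (fun K : XK N c => XK.smul (cjA_fix hc) x K = K) fun K => LL N ψ x (ε K * a)]
      have h4 : ∑ K ∈ Finset.univ.filter (fun K : XK N c => ¬ XK.smul (cjA_fix hc) x K = K),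
          LL N ψ x (ε K * a) = 0 :=
        Finset.sum_eq_zero fun K hK => LL_nonfixed hc p hcN hc2 (h1 K) (h0 K)
          (Finset.mem_filter.1 hK).2 hψ a
      rw [h4, add_zero]
      exact (Finset.sum_subtype (Finset.univ.filter
        (fun K : XK N c => XK.smul (cjA_fix hc) x K = K))
        (fun K => by rw [Finset.mem_filter]; exact ⟨fun h => h.2, fun h => ⟨Finset.mem_univ _, h⟩⟩)
        fun K => LL N ψ x (ε K * a))
  · funext K
    rw [Pi.zero_apply]
    have h2 : ∀ a, LL N (∑ K, κ K • t K) x a = 0 := by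
      intro a
      rw [hκ, LL_apply, lin_apply]
      exact Finset.sum_eq_zero fun g _ => mul_zero _
    obtain ⟨b, hb⟩ := K.1.rep_surj ((((X K).2⁻¹ : (Matrix (Fin K.1.deg) (Fin K.1.deg) k)ˣ) :
      Matrix (Fin K.1.deg) (Fin K.1.deg) k) * Matrix.single 0 0 1)
    have h3 := h2 (ε K.1 * b)
    rw [LL_sum, Finset.sum_eq_single K] at h3
    · have h4 : ((X K).2 : Matrix (Fin K.1.deg) (Fin K.1.deg) k) *
          ((((X K).2⁻¹ : (Matrix (Fin K.1.deg) (Fin K.1.deg) k)ˣ) :
            Matrix (Fin K.1.deg) (Fin K.1.deg) k) * Matrix.single 0 0 1) =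
          Matrix.single 0 0 1 := by
        rw [← mul_assoc, Units.mul_inv, one_mul]
      rw [LL_smul, hκt, map_mul, h1, one_mul, hb, h4, Matrix.trace_single_eq_same, mul_one] at h3
      rcases mul_eq_zero.1 h3 with h | h
      · exact h
      · exact absurd h (hκ0 K)
    · intro K' _ hK'
      rw [LL_smul, hκt, map_mul, h0 K.1 K'.1 (fun h => hK' (Subtype.ext h)), zero_mul, mul_zero,
        Matrix.trace_zero, mul_zero, mul_zero]
    · intro h
      exact absurd (Finset.mem_univ _) h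

end comp

end P179H872
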