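import Vale.Agent.P179.R2.H872.Cos5
import Vale.Agent.P179.H166.Central

/-!
# The permuted basis of the functions on a coset
-/

namespace P179H872

open P179H524 P179C P179A P179R Finset MonoidAlgebra

open P179C.C2 (Om cls phi)

universe u

section perm

variable {k : Type u} [Field k] {Γ : Type} [Group Γ] [Fintype Γ] {N : Subgroup Γ} [hN : N.Normal]
  {c : MonoidAlgebra k N} (hc : inc N c ∈ Subalgebra.center k (MonoidAlgebra k Γ))

/-- the stabiliser of a kernel -/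
def stK (K : XK N c) : Subgroup Γ where
  carrier := {y | XK.smul (cjA_fix hc) y K = K}
  mul_mem' := fun {a b} ha hb => by
    change XK.smul (cjA_fix hc) (a * b) K = K
    rw [smul_mul, hb, ha]
  one_mem' := smul_one _ K
  inv_mem' := fun {a} ha => by
    change XK.smul (cjA_fix hc) a⁻¹ K = K
    conv_lhs => rw [← ha]
    exact smul_inv_smul' _ a K

theorem mem_stK {K : XK N c} {y : Γ} : y ∈ stK hc K ↔ XK.smul (cjA_fix hc) y K = K := Iff.rfl

theorem N_le_stK (K : XK N c) : N ≤ stK hc K := fun _ hm => smul_of_mem (cjA_fix hc) hm K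

omit [Fintype Γ] in
/-- the quotient of the stabiliser is cyclic -/
theorem exists_gen [IsCyclic (Γ ⧸ N)] (S : Subgroup Γ) :
    ∃ z ∈ S, ∀ y ∈ S, ∃ i : ℤ, (z ^ i)⁻¹ * y ∈ N := by
  have h1 : IsCyclic (S.map (QuotientGroup.mk' N)) := inferInstance
  obtain ⟨⟨q, hq⟩, hg⟩ := h1.exists_generator
  obtain ⟨z, hz, rfl⟩ := Subgroup.mem_map.1 hq
  refine ⟨z, hz, fun y hy => ?_⟩
  obtain ⟨i, hi⟩ := Subgroup.mem_zpowers_iff.1
    (hg ⟨QuotientGroup.mk' N y, Subgroup.mem_map_of_mem _ hy⟩)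
  refine ⟨i, ?_⟩
  have h2 : QuotientGroup.mk' N z ^ i = QuotientGroup.mk' N y := congrArg Subtype.val hi
  rw [← map_zpow] at h2
  exact QuotientGroup.eq.1 h2

omit [Fintype Γ] in
theorem comm_mem_N [IsCyclic (Γ ⧸ N)] (a b : Γ) : a⁻¹ * (b⁻¹ * a * b) ∈ N := by
  have h1 : IsMulCommutative (Γ ⧸ N) := inferInstance
  rw [← QuotientGroup.eq]
  rw [QuotientGroup.mk_mul, QuotientGroup.mk_mul, mul_assoc,
    h1.is_comm.comm (a : Γ ⧸ N) (b : Γ ⧸ N), ← mul_assoc, QuotientGroup.mk_inv, inv_mul_cancel,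
    one_mul]

variable (p : ℕ) [hp : Fact p.Prime] [IsAlgClosed k] [CharP k p]

omit [IsAlgClosed k] in
/-- **the invariant function of a kernel fixed by the coset** -/
theorem exists_inv [IsCyclic (Γ ⧸ N)] (hidx : ¬ p ∣ N.index) {x : Γ} {K : XK N c}
    (hK : XK.smul (cjA_fix hc) x K = K) : ∃ t ∈ LX p c x, t ≠ 0 ∧ (∀ a ∈ K.1, LL N t x a = 0) ∧
      ∀ y, XK.smul (cjA_fix hc) y K = K → ∀ g, t (y * g * y⁻¹) = t g := by
  classical
  obtain ⟨z, hz, hgen⟩ := exists_gen (N := N) (stK hc K)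
  obtain ⟨j, hj⟩ := hgen x hK
  obtain ⟨Z, hZ, hZz⟩ := exists_X hc hz
  set n1 : N := ⟨_, hj⟩ with hn1
  set X : Γ × (Matrix (Fin K.deg) (Fin K.deg) k)ˣ := Z ^ j * nu (uhom K.rep) n1 with hX
  have hXP : X ∈ IP (uhom K.rep) := mul_mem (zpow_mem hZ j) (nu_mem _ _)
  have hX1 : X.1 = x := by
    rw [hX, Prod.fst_mul, Prod.pow_fst, hZz, nu_fst, hn1]
    exact mul_inv_cancel_left _ _
  have hmem : tX K.rep X ∈ LX p c X.1 := tX_mem p hidx K.rep_c hXP
  refine ⟨tX K.rep X, by rwa [hX1] at hmem, ?_, fun a ha => ?_, ?_⟩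
  · obtain ⟨m, hm⟩ := tX_ne_zero K.rep_surj X
    intro h
    exact hm (congrFun h _)
  · have h1 := LL_tX (A := K.rep) X a
    rw [hX1] at h1
    rw [h1, (K.mem_iff a).1 ha, mul_zero, Matrix.trace_zero]
  · -- invariance
    have hconj : X.1⁻¹ * (z * X.1 * z⁻¹) ∈ N := by
      have h := comm_mem_N (N := N) X.1 z⁻¹
      rwa [inv_inv] at h
    have hzinv : ∀ g, tX K.rep X (z * g * z⁻¹) = tX K.rep X g := by
      intro g
      by_cases hg : X.1⁻¹ * g ∈ N
      · set m1 : N := ⟨_, hg⟩ with hm1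
        have hg' : g = X.1 * m1 := by
          change g = X.1 * (X.1⁻¹ * g)
          group
        have h2 : X.1⁻¹ * (z * g * z⁻¹) ∈ N := by
          have : X.1⁻¹ * (z * g * z⁻¹) =
              X.1⁻¹ * (z * X.1 * z⁻¹) * (z * (X.1⁻¹ * g) * z⁻¹) := by group
          rw [this]
          exact mul_mem hconj (hN.conj_mem _ hg _)
        have h3 : Z * (X * nu (uhom K.rep) m1) * Z⁻¹ =
            X * nu (uhom K.rep) (n1⁻¹ * MulAut.conjNormal Z.1 (n1 * m1)) := by
          have h4 := conj_nu (uhom K.rep) hZ (n1 * m1)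
          rw [(nu (uhom K.rep)).map_mul n1⁻¹, ← h4, hX, (nu (uhom K.rep)).map_mul,
            (nu (uhom K.rep)).map_inv]
          group
        rw [tX_pos h2 h3 (by
          simp only [Prod.fst_mul, Prod.fst_inv, nu_fst, hZz]
          rw [← hg']), trace_conj, ← tX_mul, ← hg']
      · have h2 : X.1⁻¹ * (z * g * z⁻¹) ∉ N := by
          intro h2
          apply hg
          have : X.1⁻¹ * g =
              z⁻¹ * ((X.1⁻¹ * (z * X.1 * z⁻¹))⁻¹ * (X.1⁻¹ * (z * g * z⁻¹))) * z⁻¹⁻¹ := by group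
          rw [this]
          exact hN.conj_mem _ (mul_mem (inv_mem hconj) h2) _
        rw [tX_neg X hg, tX_neg X h2]
    let S : Subgroup Γ :=
      { carrier := {h | ∀ g, tX K.rep X (h * g * h⁻¹) = tX K.rep X g}
        mul_mem' := fun {a b} ha hb g => by
          have : a * b * g * (a * b)⁻¹ = a * (b * g * b⁻¹) * a⁻¹ := by group
          rw [this, ha, hb]
        one_mem' := fun g => by simp
        inv_mem' := fun {a} ha g => by
          rw [← ha (a⁻¹ * g * a⁻¹⁻¹)]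
          congr 1
          group }
    intro y hy
    obtain ⟨i, hi⟩ := hgen y hy
    have h1 : y ∈ S := by
      have h2 : y = z ^ i * ((z ^ i)⁻¹ * y) := by group
      rw [h2]
      exact mul_mem (zpow_mem (show z ∈ S from hzinv) i) (fun g => hmem.2.1 _ hi g)
    exact h1

omit [IsAlgClosed k] [CharP k p] in
include hc in
/-- conjugation of the functions on a coset -/
theorem LX_conj_mem [IsCyclic (Γ ⧸ N)] {x : Γ} {t : Γ → k} (ht : t ∈ LX p c x) (y : Γ) :
    (fun g => t (y⁻¹ * g * y)) ∈ LX p c x := by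
  refine ⟨fun g hg => ht.1 _ fun h => hg ?_, fun m hm g => ?_, fun g => ?_, fun h => ?_⟩
  · have h1 := comm_mem_N (N := N) g y
    have h2 : x⁻¹ * g = x⁻¹ * (y⁻¹ * g * y) * (g⁻¹ * (y⁻¹ * g * y))⁻¹ := by group
    rw [h2]
    exact mul_mem h (inv_mem h1)
  · have h1 : y⁻¹ * (m * g * m⁻¹) * y =
        (y⁻¹ * m * y⁻¹⁻¹) * (y⁻¹ * g * y) * (y⁻¹ * m * y⁻¹⁻¹)⁻¹ := by group
    change t (y⁻¹ * (m * g * m⁻¹) * y) = _
    rw [h1]
    exact ht.2.1 _ (hN.conj_mem _ hm _) _
  · have h1 := Q7.pr_conj p y⁻¹ g (C2.ord_ne g)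
    rw [inv_inv] at h1
    change t (y⁻¹ * pr p g * y) = _
    rw [← h1]
    exact ht.2.2.1 _
  · change ∑ g : Γ, (inc N c).coeff g * t (y⁻¹ * (g * h) * y) = t (y⁻¹ * h * y)
    rw [← ht.2.2.2 (y⁻¹ * h * y)]
    have hcf := (P179C.mem_center_iff _).1 hc
    refine (Fintype.sum_equiv (MulAut.conj y).toEquiv _ _ fun g => ?_).symm
    change (inc N c).coeff g * t (g * (y⁻¹ * h * y)) =
      (inc N c).coeff (y * g * y⁻¹) * t (y⁻¹ * (y * g * y⁻¹ * h) * y)
    have h1 : (inc N c).coeff (y * g * y⁻¹) = (inc N c).coeff g := hcf y g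
    rw [h1]
    congr 2
    group

omit hp [IsAlgClosed k] [CharP k p] in
/-- the functional of the conjugated function -/
theorem LL_conj [IsCyclic (Γ ⧸ N)] (t : Γ → k) (x y : Γ) (a : MonoidAlgebra k N) :
    LL N (fun g => t (y⁻¹ * g * y)) x a =
      LL N t x (single ⟨_, comm_mem_N (N := N) x y⟩ 1 * cjA y⁻¹ a) := by
  have := Fintype.ofFinite N
  have key : ∀ m : N, t (y⁻¹ * (x * m) * y) =
      LL N t x (single ⟨_, comm_mem_N (N := N) x y⟩ 1 * single (MulAut.conjNormal y⁻¹ m) 1) := by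
    intro m
    rw [single_mul_single, one_mul, LL_single]
    congr 1
    rw [Subgroup.coe_mul, MulAut.conjNormal_apply]
    group
  conv_rhs => rw [sum_single a, map_sum, Finset.mul_sum, map_sum]
  rw [LL_eq_lin, lin_apply]
  refine Finset.sum_congr rfl fun m _ => ?_
  rw [key m, map_smul, mul_smul_comm, map_smul, cjA_single, smul_eq_mul]

end perm

end P179H872
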