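import Vale.Agent.P179.R2.H872.Cos6
import Vale.Agent.P179.R2.H843.Clf1

/-!
# The permuted basis of the functions on a coset, II
-/

namespace P179H872

open P179H524 P179C P179A P179R Finset MonoidAlgebra P179H843

open P179C.C2 (Om cls phi)

universe u

section reps

variable {k : Type u} [Field k] {Γ : Type} [Group Γ] {N : Subgroup Γ} [hN : N.Normal]
  {c : MonoidAlgebra k N}

/-- orbit representatives -/
theorem exists_orbit_reps (hc : ∀ x : Γ, cjA x c = c) : ∃ (rp : XK N c → XK N c) (yy : XK N c → Γ),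
    (∀ K, XK.smul hc (yy K) (rp K) = K) ∧ ∀ y K, rp (XK.smul hc y K) = rp K := by
  let _ := actG hc
  have h1 : ∀ K : XK N c, ∃ y : Γ,
      XK.smul hc y ((Quotient.mk'' K : MulAction.orbitRel.Quotient Γ (XK N c)).out) = K := by
    intro K
    have h2 := Quotient.exact' (Quotient.out_eq'
      (Quotient.mk'' K : MulAction.orbitRel.Quotient Γ (XK N c)))
    obtain ⟨y, hy⟩ := h2
    refine ⟨y⁻¹, ?_⟩
    have h3 : XK.smul hc y K = (Quotient.mk'' K : MulAction.orbitRel.Quotient Γ (XK N c)).out := hy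
    rw [← h3]
    exact smul_inv_smul' hc y K
  choose yy hyy using h1
  refine ⟨fun K => (Quotient.mk'' K : MulAction.orbitRel.Quotient Γ (XK N c)).out, yy, hyy,
    fun y K => ?_⟩
  exact congrArg Quotient.out (Quotient.sound' (⟨y, rfl⟩ : (MulAction.orbitRel Γ (XK N c))
    (XK.smul hc y K) K))

theorem fix_of_smul [Finite Γ] [IsCyclic (Γ ⧸ N)] (hc : ∀ x : Γ, cjA x c = c) {x y : Γ}
    {K R : XK N c} (h : XK.smul hc y R = K) (hK : XK.smul hc x K = K) : XK.smul hc x R = R := by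
  have h2 : XK.smul hc y⁻¹ K = R := by
    have := smul_inv_smul' hc y R
    rwa [h] at this
  have h3 := comm_mem_N (N := N) x y
  have h4 : x = y⁻¹ * x * y * (x⁻¹ * (y⁻¹ * x * y))⁻¹ := by group
  have h5 := congrArg (fun a => XK.smul hc a R) h4
  rw [h5, smul_mul hc (y⁻¹ * x * y), smul_of_mem hc (inv_mem h3), smul_mul hc (y⁻¹ * x),
    smul_mul hc y⁻¹, h, hK, h2]

end reps

section perm

variable {k : Type u} [Field k] {Γ : Type} [Group Γ] [Fintype Γ] {N : Subgroup Γ} [hN : N.Normal]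
  {c : MonoidAlgebra k N} (hc : inc N c ∈ Subalgebra.center k (MonoidAlgebra k Γ))
  (p : ℕ) [hp : Fact p.Prime] [CharP k p]

/-- **the permuted basis** -/
theorem exists_perm [IsCyclic (Γ ⧸ N)] (hidx : ¬ p ∣ N.index) (x : Γ) :
    ∃ t : {K : XK N c // XK.smul (cjA_fix hc) x K = K} → Γ → k,
      (∀ K, t K ∈ LX p c x) ∧ (∀ K, ∀ a ∈ K.1.1, LL N (t K) x a = 0) ∧ (∀ K, t K ≠ 0) ∧
      ∀ y (K K' : {K : XK N c // XK.smul (cjA_fix hc) x K = K}),
        K'.1 = XK.smul (cjA_fix hc) y K.1 → ∀ g, t K' (y * g * y⁻¹) = t K g := by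
  classical
  obtain ⟨rp, yy, hyy, hrp⟩ := exists_orbit_reps (N := N) (cjA_fix hc)
  -- the function of a representative
  have hτ : ∀ K : XK N c, ∃ t : Γ → k, XK.smul (cjA_fix hc) x K = K →
      t ∈ LX p c x ∧ t ≠ 0 ∧ (∀ a ∈ K.1, LL N t x a = 0) ∧
      ∀ y, XK.smul (cjA_fix hc) y K = K → ∀ g, t (y * g * y⁻¹) = t g := by
    intro K
    by_cases hK : XK.smul (cjA_fix hc) x K = K
    · obtain ⟨t, h1, h2, h3, h4⟩ := exists_inv hc p hidx hK
      exact ⟨t, fun _ => ⟨h1, h2, h3, h4⟩⟩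
    · exact ⟨0, fun h => absurd h hK⟩
  choose τ hτ using hτ
  have hfix : ∀ K : {K : XK N c // XK.smul (cjA_fix hc) x K = K},
      XK.smul (cjA_fix hc) x (rp K.1) = rp K.1 :=
    fun K => fix_of_smul _ (hyy K.1) K.2
  refine ⟨fun K g => τ (rp K.1) ((yy K.1)⁻¹ * g * yy K.1), fun K => ?_, fun K a ha => ?_,
    fun K h => ?_, fun y K K' hK' g => ?_⟩
  · exact LX_conj_mem hc p (hτ _ (hfix K)).1 _
  · rw [LL_conj]
    refine (hτ _ (hfix K)).2.2.1 _ ?_
    rw [XK.mem_iff, map_mul]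
    have h1 : cjA (yy K.1)⁻¹ a ∈ (rp K.1).1 := by
      rw [← mem_smul (cjA_fix hc), hyy]
      exact ha
    rw [XK.mem_iff] at h1
    rw [h1, mul_zero]
  · refine (hτ _ (hfix K)).2.1 (funext fun g => ?_)
    have h1 := congrFun h (yy K.1 * g * (yy K.1)⁻¹)
    have h2 : (yy K.1)⁻¹ * (yy K.1 * g * (yy K.1)⁻¹) * yy K.1 = g := by group
    change τ (rp K.1) ((yy K.1)⁻¹ * (yy K.1 * g * (yy K.1)⁻¹) * yy K.1) = 0 at h1
    rw [h2] at h1
    exact h1
  · have h1 : rp K'.1 = rp K.1 := by rw [hK', hrp]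
    change τ (rp K'.1) ((yy K'.1)⁻¹ * (y * g * y⁻¹) * yy K'.1) =
      τ (rp K.1) ((yy K.1)⁻¹ * g * yy K.1)
    have h2 : (yy K'.1)⁻¹ * (y * g * y⁻¹) * yy K'.1 =
        ((yy K'.1)⁻¹ * y * yy K.1) * ((yy K.1)⁻¹ * g * yy K.1) *
          ((yy K'.1)⁻¹ * y * yy K.1)⁻¹ := by group
    rw [h2, h1]
    refine (hτ _ (hfix K)).2.2.2 _ ?_ _
    rw [smul_mul, smul_mul, hyy, ← hK', ← h1]
    have h3 := smul_inv_smul' (cjA_fix hc) (yy K'.1) (rp K'.1)
    rwa [hyy] at h3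

end perm

end P179H872
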