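import Vale.Agent.P179.R2.H872.Cos7

/-!
# Invariant functions on a coset and invariant functions on the fixed points
-/

namespace P179H872

open P179H524 P179C P179A P179R Finset MonoidAlgebra P179H843

open P179C.C2 (Om cls phi)

universe u

section LI

variable {k : Type u} [Field k] {Γ : Type} [Group Γ] [Fintype Γ] {N : Subgroup Γ} [hN : N.Normal]
  {c : MonoidAlgebra k N}

omit hN in
/-- the functions of `LX` invariant under `T` -/
noncomputable def LI (T : Subgroup Γ) (p : ℕ) (c : MonoidAlgebra k N) (x : Γ) :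
    Submodule k (Γ → k) where
  carrier := {ψ | ψ ∈ LX p c x ∧ ∀ y ∈ T, ∀ g, ψ (y * g * y⁻¹) = ψ g}
  add_mem' := by
    rintro a b ⟨ha, ha'⟩ ⟨hb, hb'⟩
    exact ⟨add_mem ha hb, fun y hy g => by rw [Pi.add_apply, Pi.add_apply, ha' y hy, hb' y hy]⟩
  zero_mem' := ⟨zero_mem _, fun _ _ _ => rfl⟩
  smul_mem' := by
    rintro κ a ⟨ha, ha'⟩
    exact ⟨Submodule.smul_mem _ κ ha, fun y hy g => by rw [Pi.smul_apply, Pi.smul_apply, ha' y hy]⟩

omit hN in
theorem mem_LI {T : Subgroup Γ} {p : ℕ} {x : Γ} {ψ : Γ → k} :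
    ψ ∈ LI T p c x ↔ ψ ∈ LX p c x ∧ ∀ y ∈ T, ∀ g, ψ (y * g * y⁻¹) = ψ g := Iff.rfl

variable (hc : inc N c ∈ Subalgebra.center k (MonoidAlgebra k Γ))

/-- the permutation of the kernels fixed by `x` -/
noncomputable def permFix [IsCyclic (Γ ⧸ N)] (x y : Γ) :
    {K : XK N c // XK.smul (cjA_fix hc) x K = K} ≃
      {K : XK N c // XK.smul (cjA_fix hc) x K = K} where
  toFun K := ⟨XK.smul (cjA_fix hc) y K.1,
    fix_of_smul (cjA_fix hc) (smul_inv_smul' (cjA_fix hc) y K.1) K.2⟩
  invFun K := ⟨XK.smul (cjA_fix hc) y⁻¹ K.1,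
    fix_of_smul (cjA_fix hc) (by
      have h1 := smul_inv_smul' (cjA_fix hc) y⁻¹ K.1
      exact h1) K.2⟩
  left_inv K := Subtype.ext (smul_inv_smul' (cjA_fix hc) y K.1)
  right_inv K := Subtype.ext (by
    have h1 := smul_inv_smul' (cjA_fix hc) y⁻¹ K.1
    rw [inv_inv] at h1
    exact h1)

/-- the invariant functions on the kernels fixed by `x` -/
noncomputable def invK (T : Subgroup Γ) (x : Γ) :
    Submodule k ({K : XK N c // XK.smul (cjA_fix hc) x K = K} → k) where
  carrier := {f | ∀ y ∈ T, ∀ K K' : {K : XK N c // XK.smul (cjA_fix hc) x K = K},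
    K'.1 = XK.smul (cjA_fix hc) y K.1 → f K' = f K}
  add_mem' := by
    intro f g hf hg y hy K K' h
    rw [Pi.add_apply, Pi.add_apply, hf y hy K K' h, hg y hy K K' h]
  zero_mem' := fun _ _ _ _ _ => rfl
  smul_mem' := by
    intro r f hf y hy K K' h
    rw [Pi.smul_apply, Pi.smul_apply, hf y hy K K' h]

theorem finrank_invK [hcy : IsCyclic (Γ ⧸ N)] (S : Subgroup (Γ ⧸ N)) (x : Γ) :
    letI : CommGroup (Γ ⧸ N) := IsCyclic.commGroup
    letI := actQ (cjA_fix hc)
    Module.finrank k (invK hc (S.comap (QuotientGroup.mk' N)) x) =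
      Module.finrank k (invF k (XK N c) S (x : Γ ⧸ N)) := by
  let iA : CommGroup (Γ ⧸ N) := IsCyclic.commGroup
  let _ := actQ (cjA_fix hc)
  let e : invK hc (S.comap (QuotientGroup.mk' N)) x ≃ₗ[k] invF k (XK N c) S (x : Γ ⧸ N) :=
    { toFun := fun f => ⟨f.1, by
        intro s hs K K' h
        obtain ⟨y, rfl⟩ := QuotientGroup.mk_surjective s
        exact f.2 y hs K K' h⟩
      invFun := fun f => ⟨f.1, fun y hy K K' h => f.2 (y : Γ ⧸ N) hy K K' h⟩
      left_inv := fun f => rfl
      right_inv := fun f => rfl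
      map_add' := fun f g => rfl
      map_smul' := fun r f => rfl }
  exact e.finrank_eq

variable (p : ℕ) [hp : Fact p.Prime] [IsAlgClosed k] [CharP k p]
  (hcN : c ∈ Subalgebra.center k (MonoidAlgebra k N)) (hc2 : c * c = c)

include hcN hc2 in
/-- **invariant functions on a coset** -/
theorem finrank_LI [hcy : IsCyclic (Γ ⧸ N)] (hidx : ¬ p ∣ N.index) (T : Subgroup Γ) (x : Γ) :
    Module.finrank k (LI T p c x) = Module.finrank k (invK hc T x) := by
  classical
  have := XK_finite hcN hc2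
  have := Fintype.ofFinite {K : XK N c // XK.smul (cjA_fix hc) x K = K}
  obtain ⟨t, ht, hK, hne, hperm⟩ := exists_perm hc p hidx x
  obtain ⟨hspan, hind⟩ := LX_basis hc p hcN hc2 t ht hK hne
  have hinv : ∀ (f : {K : XK N c // XK.smul (cjA_fix hc) x K = K} → k) (y g : Γ),
      (∑ K, f K • t K) (y * g * y⁻¹) = (∑ K, f (permFix hc x y K) • t K) g := by
    intro f y g
    rw [Finset.sum_apply, Finset.sum_apply]
    refine (Fintype.sum_equiv (permFix hc x y) _ _ fun K => ?_).symm
    rw [Pi.smul_apply, Pi.smul_apply, hperm y K (permFix hc x y K) rfl]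
  symm
  let Φ : invK hc T x →ₗ[k] LI T p c x :=
    { toFun := fun f => ⟨∑ K : {K : XK N c // XK.smul (cjA_fix hc) x K = K}, f.1 K • t K, by
        refine ⟨Submodule.sum_mem _ fun K _ => Submodule.smul_mem _ _ (ht K), fun y hy g => ?_⟩
        rw [hinv]
        refine congrFun (Finset.sum_congr rfl fun K _ => ?_) g
        rw [f.2 y hy K (permFix hc x y K) rfl]⟩
      map_add' := fun f g => by
        apply Subtype.ext
        change ∑ K, (f.1 K + g.1 K) • t K = ∑ K, f.1 K • t K + ∑ K, g.1 K • t K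
        rw [← Finset.sum_add_distrib]
        exact Finset.sum_congr rfl fun K _ => add_smul _ _ _
      map_smul' := fun r f => by
        apply Subtype.ext
        change ∑ K, (r * f.1 K) • t K = r • ∑ K, f.1 K • t K
        rw [Finset.smul_sum]
        exact Finset.sum_congr rfl fun K _ => mul_smul _ _ _ }
  refine (LinearEquiv.ofBijective Φ ⟨?_, ?_⟩).finrank_eq
  · rw [← LinearMap.ker_eq_bot, LinearMap.ker_eq_bot']
    intro f hf
    apply Subtype.ext
    exact hind f.1 (congrArg Subtype.val hf)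
  · rintro ⟨ψ, hψ, hψT⟩
    obtain ⟨κ, hκ⟩ := hspan ψ hψ
    refine ⟨⟨κ, ?_⟩, Subtype.ext hκ.symm⟩
    intro y hy K K' hKK'
    have h1 : ∀ g, (∑ K, (κ (permFix hc x y K) - κ K) • t K) g = 0 := by
      intro g
      have h2 : ∑ K, (κ (permFix hc x y K) - κ K) • t K =
          ∑ K, κ (permFix hc x y K) • t K - ∑ K, κ K • t K := by
        rw [← Finset.sum_sub_distrib]
        exact Finset.sum_congr rfl fun K _ => sub_smul _ _ _
      rw [h2, Pi.sub_apply, ← hinv, ← hκ, hψT y hy, sub_self]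
    have h2 := congrFun (hind (fun K => κ (permFix hc x y K) - κ K) (funext h1)) K
    rw [Pi.zero_apply, sub_eq_zero] at h2
    rw [← h2]
    congr 1
    exact Subtype.ext hKK'

end LI

end P179H872
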