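import Mathlib

/-!
# Intertwiners: the central extension attached to a stable irreducible matrix representation of a
normal subgroup
-/

namespace P179H872

open Subgroup

universe u

section general

/-- commutators of elements of `⟨z⟩ M Z` lie in `M` -/
theorem comm_mem {P : Type*} [Group P] (M : Subgroup P) [M.Normal] {z m₁ m₂ s₁ s₂ : P} {i j : ℤ}
    (h1 : m₁ ∈ M) (h2 : m₂ ∈ M) (hs1 : ∀ g, s₁ * g = g * s₁) (hs2 : ∀ g, s₂ * g = g * s₂) :
    (z ^ j * m₂ * s₂) * (z ^ i * m₁ * s₁) * (z ^ j * m₂ * s₂)⁻¹ * (z ^ i * m₁ * s₁)⁻¹ ∈ M := by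
  rw [← QuotientGroup.eq_one_iff]
  have e1 : ((m₁ : P) : P ⧸ M) = 1 := (QuotientGroup.eq_one_iff _).2 h1
  have e2 : ((m₂ : P) : P ⧸ M) = 1 := (QuotientGroup.eq_one_iff _).2 h2
  have c1 : ∀ q : P ⧸ M, Commute (s₁ : P ⧸ M) q := by
    intro q
    induction q using QuotientGroup.induction_on with
    | H g => exact congrArg ((↑) : P → P ⧸ M) (hs1 g)
  have c2 : ∀ q : P ⧸ M, Commute (s₂ : P ⧸ M) q := by
    intro q
    induction q using QuotientGroup.induction_on with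
    | H g => exact congrArg ((↑) : P → P ⧸ M) (hs2 g)
  have hcomm : Commute ((z ^ j * m₂ * s₂ : P) : P ⧸ M) ((z ^ i * m₁ * s₁ : P) : P ⧸ M) := by
    simp only [QuotientGroup.mk_mul, QuotientGroup.mk_zpow, e1, e2, mul_one]
    exact Commute.mul_left (Commute.mul_right ((Commute.refl _).zpow_zpow _ _) (c1 _).symm)
      (c2 _)
  rw [QuotientGroup.mk_mul, QuotientGroup.mk_mul, QuotientGroup.mk_mul, hcomm.eq,
    QuotientGroup.mk_inv, QuotientGroup.mk_inv, mul_inv_cancel_right, mul_inv_cancel]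

end general

section intw

variable {k : Type u} [Field k] {Γ : Type} [Group Γ] {N : Subgroup Γ} [hN : N.Normal] {n : ℕ}
  (ρ : N →* (Matrix (Fin n) (Fin n) k)ˣ)

/-- the group of intertwiners -/
def IP : Subgroup (Γ × (Matrix (Fin n) (Fin n) k)ˣ) where
  carrier := {a | ∀ m : N, ρ (MulAut.conjNormal a.1 m) = a.2 * ρ m * a.2⁻¹}
  one_mem' m := by simp
  mul_mem' := by
    intro a b ha hb m
    rw [Prod.fst_mul, map_mul, MulAut.mul_apply, ha, hb, Prod.snd_mul]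
    group
  inv_mem' := by
    intro a ha m
    have h1 := ha (MulAut.conjNormal a.1⁻¹ m)
    rw [← MulAut.mul_apply, ← map_mul, mul_inv_cancel, map_one, MulAut.one_apply] at h1
    rw [Prod.fst_inv, Prod.snd_inv, h1]
    group

theorem mem_IP {a : Γ × (Matrix (Fin n) (Fin n) k)ˣ} :
    a ∈ IP ρ ↔ ∀ m : N, ρ (MulAut.conjNormal a.1 m) = a.2 * ρ m * a.2⁻¹ := Iff.rfl

omit hN in
/-- the embedding of `N` -/
def nu : N →* Γ × (Matrix (Fin n) (Fin n) k)ˣ where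
  toFun m := (m, ρ m)
  map_one' := by simp
  map_mul' a b := by simp

omit hN in
theorem nu_fst (m : N) : (nu ρ m).1 = m := rfl

omit hN in
theorem nu_snd (m : N) : (nu ρ m).2 = ρ m := rfl

theorem nu_mem (m : N) : nu ρ m ∈ IP ρ := by
  intro m'
  have h : MulAut.conjNormal (nu ρ m).1 m' = m * m' * m⁻¹ := Subtype.ext rfl
  rw [h, map_mul, map_mul, map_inv]
  rfl

theorem conj_nu {a : Γ × (Matrix (Fin n) (Fin n) k)ˣ} (ha : a ∈ IP ρ) (m : N) :
    a * nu ρ m * a⁻¹ = nu ρ (MulAut.conjNormal a.1 m) := by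
  refine Prod.ext ?_ ?_
  · rfl
  · exact (ha m).symm

omit hN in
/-- `ν` is determined by the first component -/
theorem nu_inj {m m' : N} (h : (nu ρ m).1 = (nu ρ m').1) : m = m' := Subtype.ext h

omit hN in
/-- uniqueness in a coset of `N` -/
theorem eq_of_coset {a b : Γ × (Matrix (Fin n) (Fin n) k)ˣ} {m : N} (h : b = a * nu ρ m)
    (hab : a.1 = b.1) : a = b := by
  have h1 := congrArg Prod.fst h
  rw [Prod.fst_mul, ← hab, left_eq_mul, nu_fst] at h1
  have h2 : m = 1 := Subtype.ext h1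
  rw [h, h2, map_one, mul_one]

/-- the scalars -/
def scal (c : kˣ) : Γ × (Matrix (Fin n) (Fin n) k)ˣ :=
  (1, Units.map (algebraMap k (Matrix (Fin n) (Fin n) k)).toMonoidHom c)

theorem scal_comm (c : kˣ) (a : Γ × (Matrix (Fin n) (Fin n) k)ˣ) :
    (scal c : Γ × (Matrix (Fin n) (Fin n) k)ˣ) * a = a * scal c := by
  refine Prod.ext ?_ ?_
  · simp [scal]
  · apply Units.ext
    exact Algebra.commutes _ _

theorem scal_mem (c : kˣ) : (scal c : Γ × (Matrix (Fin n) (Fin n) k)ˣ) ∈ IP ρ := by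
  intro m
  have h1 : MulAut.conjNormal (scal c : Γ × (Matrix (Fin n) (Fin n) k)ˣ).1 m = m := by
    apply Subtype.ext
    rw [MulAut.conjNormal_apply]
    simp [scal]
  have h2 := congrArg Prod.snd (scal_comm (Γ := Γ) c (1, ρ m))
  rw [Prod.snd_mul, Prod.snd_mul] at h2
  rw [h1, h2]
  simp

variable (hspan : Submodule.span k (Set.range fun m : N => ((ρ m : Matrix (Fin n) (Fin n) k))) = ⊤)

include hspan

/-- Schur's lemma -/
theorem schur [NeZero n] {a b : Γ × (Matrix (Fin n) (Fin n) k)ˣ} (ha : a ∈ IP ρ) (hb : b ∈ IP ρ)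
    (hab : a.1 = b.1) : ∃ c : kˣ, b = a * scal c := by
  classical
  let T : Matrix (Fin n) (Fin n) k := ((a.2⁻¹ * b.2 : (Matrix (Fin n) (Fin n) k)ˣ))
  have h1 : ∀ m : N, T * ρ m = ρ m * T := by
    intro m
    have h2 := ha m
    rw [hab, hb m] at h2
    have h3 : a.2⁻¹ * b.2 * ρ m = ρ m * (a.2⁻¹ * b.2) := by
      have h4 : b.2 * ρ m = a.2 * ρ m * a.2⁻¹ * b.2 := by rw [← h2]; group
      calc a.2⁻¹ * b.2 * ρ m = a.2⁻¹ * (b.2 * ρ m) := by group
        _ = ρ m * (a.2⁻¹ * b.2) := by rw [h4]; group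
    exact congrArg Units.val h3
  have h2 : ∀ A : Matrix (Fin n) (Fin n) k, T * A = A * T := by
    intro A
    have hA : A ∈ Submodule.span k (Set.range fun m : N => ((ρ m : Matrix (Fin n) (Fin n) k))) := by
      rw [hspan]; trivial
    induction hA using Submodule.span_induction with
    | mem x hx =>
      obtain ⟨m, rfl⟩ := hx
      exact h1 m
    | zero => simp
    | add x y _ _ hx hy => rw [mul_add, add_mul, hx, hy]
    | smul c x _ hx => rw [mul_smul_comm, smul_mul_assoc, hx]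
  have h3 : T ∈ Set.range (Matrix.scalar (Fin n)) := by
    rw [Matrix.mem_range_scalar_iff_commute_single']
    intro i j
    exact (h2 _).symm
  obtain ⟨c, hc⟩ := h3
  have hc0 : c ≠ 0 := by
    rintro rfl
    rw [map_zero] at hc
    have h4 : T * ((b.2⁻¹ * a.2 : (Matrix (Fin n) (Fin n) k)ˣ) : Matrix (Fin n) (Fin n) k) = 1 := by
      have h5 : (a.2⁻¹ * b.2) * (b.2⁻¹ * a.2) = 1 := by group
      exact congrArg Units.val h5
    rw [← hc, zero_mul] at h4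
    exact zero_ne_one h4
  refine ⟨Units.mk0 c hc0, ?_⟩
  refine Prod.ext ?_ ?_
  · simp [scal, hab]
  · apply Units.ext
    have h5 : (b.2 : Matrix (Fin n) (Fin n) k) = a.2 * T := by
      have h6 : b.2 = a.2 * (a.2⁻¹ * b.2) := by group
      exact congrArg Units.val h6
    rw [h5, ← hc]
    rfl

/-- commuting elements in a common cyclic subgroup have commuting intertwiners modulo `N` -/
theorem comm_cyclic [NeZero n] (hex : ∀ x : Γ, ∃ a ∈ IP ρ, a.1 = x)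
    {a t : Γ × (Matrix (Fin n) (Fin n) k)ˣ} (ha : a ∈ IP ρ) (ht : t ∈ IP ρ) {z : Γ}
    (ha' : a.1 ∈ N ⊔ zpowers z) (ht' : t.1 ∈ N ⊔ zpowers z) :
    ∃ m : N, t * a * t⁻¹ * a⁻¹ = nu ρ m := by
  obtain ⟨Z, hZ, hz⟩ := hex z
  have key : ∀ b ∈ IP ρ, b.1 ∈ N ⊔ zpowers z → ∃ (i : ℤ) (m : N) (c : kˣ),
      b = Z ^ i * nu ρ m * scal c := by
    intro b hb hb'
    rw [sup_comm, Subgroup.mem_sup_of_normal_right] at hb'
    obtain ⟨y, hy, w, hw, hyw⟩ := hb'
    obtain ⟨i, rfl⟩ := Subgroup.mem_zpowers_iff.1 hy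
    obtain ⟨c, hc⟩ := schur ρ hspan (a := Z ^ i * nu ρ ⟨w, hw⟩) (b := b)
      (mul_mem (zpow_mem hZ i) (nu_mem ρ _)) hb (by
        rw [← hyw, Prod.fst_mul, Prod.pow_fst, hz]
        rfl)
    exact ⟨i, ⟨w, hw⟩, c, hc⟩
  obtain ⟨i, m₁, c₁, h1⟩ := key a ha ha'
  obtain ⟨j, m₂, c₂, h2⟩ := key t ht ht'
  let P := IP ρ
  let M : Subgroup P := (nu ρ).range.subgroupOf P
  have hM : M.Normal := by
    constructor
    rintro ⟨x, hx⟩ ⟨m, hm⟩ g
    refine ⟨MulAut.conjNormal g.1.1 m, ?_⟩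
    rw [← conj_nu ρ g.2, hm]
    rfl
  have h3 := comm_mem M (z := (⟨Z, hZ⟩ : P)) (m₁ := ⟨nu ρ m₁, nu_mem ρ m₁⟩)
    (m₂ := ⟨nu ρ m₂, nu_mem ρ m₂⟩) (s₁ := ⟨scal c₁, scal_mem ρ c₁⟩)
    (s₂ := ⟨scal c₂, scal_mem ρ c₂⟩) (i := i) (j := j) ⟨m₁, rfl⟩ ⟨m₂, rfl⟩
    (fun g => Subtype.ext (scal_comm _ _)) (fun g => Subtype.ext (scal_comm _ _))
  obtain ⟨m, hm⟩ := h3
  refine ⟨m, ?_⟩
  rw [h1, h2]
  exact hm.symm

end intw

end P179H872
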