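import Vale.Agent.P179.R2.H452.X1

/-!
# The number of simple modules and the `m`-rational characters, `m` arbitrary

As `P179Y.numSimpleIn_le_Srat` and `P179H452.numSimpleIn_le_X1`, for an exponent `m` such that no
element of the inertial group induces `v ↦ v ^ m ≠ v` on an element of the defect group; this holds
for a generator `m` of the `p`-part if the inertial index is smaller than `p - 1`. (helper872)
-/

namespace P179H872

open Finset Subgroup P179Y P179P P179H524 P179I P179A P179C P179H452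

open P179X (pp SameSec IrrB Srat)

open scoped Classical

universe v

section lt

variable {p : ℕ} [hp : Fact p.Prime] {G : Type*} [Group G] [Finite G]

/-- if `m` generates the units modulo the `p`-part of `|G|` and `|T : C_T(D)| < p - 1`, then no
element of `T` induces `v ↦ v ^ m ≠ v` -/
theorem hpow_of_lt {D T : Subgroup G} (hT : T ≤ normalizer (D : Set G)) (hDp : IsPGroup p D)
    {m : ℕ} (hgen : ∀ j : ℕ, ¬ p ∣ j → ∃ i : ℕ, m ^ i ≡ j [MOD ordProj[p] (Nat.card G)])
    (he : (centralizer (D : Set G)).relIndex T < p - 1) :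
    ∀ n ∈ T, ∀ v ∈ D, n * v * n⁻¹ = v ^ m → v ^ m = v := by
  intro n hn v hvD hnv
  by_cases hv1 : v = 1
  · rw [hv1, one_pow]
  exfalso
  have hpow : ∀ i : ℕ, n ^ i * v * (n ^ i)⁻¹ = v ^ m ^ i := by
    intro i
    induction i with
    | zero => simp
    | succ i ih =>
      have h1 : n ^ (i + 1) * v * (n ^ (i + 1))⁻¹ = n * (n ^ i * v * (n ^ i)⁻¹) * n⁻¹ := by
        rw [pow_succ']; group
      rw [h1, ih, ← conj_pow, hnv, ← pow_mul, ← pow_succ']
  let C' : Subgroup T := (centralizer (D : Set G)).subgroupOf T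
  have hC'n : C'.Normal := by
    refine ⟨fun c hc x => ?_⟩
    rw [mem_subgroupOf] at hc ⊢
    exact conj_mem_centralizer (hT x.2) hc
  have hcard : Nat.card (T ⧸ C') = (centralizer (D : Set G)).relIndex T := rfl
  set e := (centralizer (D : Set G)).relIndex T with hee
  have hepos : 0 < e := by rw [← hcard]; exact Nat.card_pos
  have h3 : (QuotientGroup.mk' C' (⟨n, hn⟩ : T)) ^ e = 1 := by
    rw [← hcard]; exact pow_card_eq_one'
  rw [← map_pow] at h3
  have h4 : (⟨n, hn⟩ : T) ^ e ∈ C' := (QuotientGroup.eq_one_iff _).1 h3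
  rw [mem_subgroupOf, mem_centralizer_iff] at h4
  have h5 := h4 v hvD
  have h6 : v ^ m ^ e = v := by
    rw [← hpow, mul_inv_eq_iff_eq_mul]
    exact h5.symm
  have h7 : m ^ e ≡ 1 [MOD orderOf v] := by
    rw [← pow_eq_pow_iff_modEq, h6, pow_one]
  have hpv : p ∣ orderOf v := by
    obtain ⟨j, hj⟩ := hDp ⟨v, hvD⟩
    have hj' : v ^ p ^ j = 1 := by simpa using congrArg Subtype.val hj
    obtain ⟨a, -, ha⟩ := (Nat.dvd_prime_pow hp.out).1 (orderOf_dvd_of_pow_eq_one hj')
    rw [ha]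
    refine dvd_pow_self p fun h0 => hv1 ?_
    rw [← orderOf_eq_one_iff, ha, h0, pow_zero]
  have hpG : p ∣ ordProj[p] (Nat.card G) := by
    have h8 : p ∣ Nat.card G := hpv.trans (orderOf_dvd_natCard v)
    have h9 : 1 ≤ (Nat.card G).factorization p :=
      (hp.out.pow_dvd_iff_le_factorization Nat.card_pos.ne').1 (by rwa [pow_one])
    exact dvd_pow_self p (by omega)
  have h10 := P179P.le_of_pow_modEq_one (p := p) hepos (h7.of_dvd hpv) (fun j hj => by
    obtain ⟨i, hi⟩ := hgen j hj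
    exact ⟨i, hi.of_dvd hpG⟩)
  omega

end lt

section K7

variable {p : ℕ} [hp : Fact p.Prime] {k : Type v} [Field k] [CharP k p] [IsAlgClosed k]
  (red : integralClosure ℤ ℂ →+* k) {G : Type} [Group G] [Fintype G]

/-- (K7), for functionals -/
theorem K7h' {D : Subgroup G} {l : (G → k) → k} (hl : BP p D l) (hD : IsPGroup p D)
    (hDab : ∀ a ∈ D, ∀ b ∈ D, a * b = b * a)
    (hT : ¬ p ∣ (centralizer (D : Set G)).relIndex (stabT D l)) {m : ℕ}
    (hm : m.Coprime (Nat.card G))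
    (hpow : ∀ n ∈ stabT D l, ∀ v ∈ D, n * v * n⁻¹ = v ^ m → v ^ m = v) {u : G} (hu : ∃ n : ℕ, u ^ p ^ n = 1) (hu1 : u ^ m ≠ u) {h : G} (hh : h * u * h⁻¹ = u ^ m)
    {H : Subgroup G} (hH : ∀ x, x ∈ H ↔ x * u = u * x) {μ : (H → k) → k} (hμ : IsHomCF μ)
    (hμl : ∀ z : G → k, IsCF z → μ (fun x : H => z x) = l z) :
    ∃ z : G → k, InvOn H z ∧ μ (fun x : H => z x) ≠ μ (fun x : H => z (h * x * h⁻¹)) := by
  by_contra hcon
  push Not at hcon
  have hhH : ∀ x : G, x ∈ H → h * x * h⁻¹ ∈ H := by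
    intro x hx
    rw [hH] at hx ⊢
    have h1 : (h * x * h⁻¹) * u ^ m = u ^ m * (h * x * h⁻¹) := by
      rw [← hh]
      calc h * x * h⁻¹ * (h * u * h⁻¹) = h * (x * u) * h⁻¹ := by group
        _ = h * (u * x) * h⁻¹ := by rw [hx]
        _ = _ := by group
    obtain ⟨r, hr⟩ : ∃ r : ℕ, (u ^ m) ^ r = u := by
      have h3 : Nat.Coprime m (orderOf u) := hm.coprime_dvd_right (orderOf_dvd_natCard u)
      obtain ⟨r, hr⟩ := exists_pow_eq_self_of_coprime h3
      exact ⟨r, hr⟩
    have h4 : Commute (h * x * h⁻¹) ((u ^ m) ^ r) := Commute.pow_right h1 r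
    rw [hr] at h4
    exact h4
  have huH : u ∈ H := (hH u).2 rfl
  obtain ⟨R, l', hR, hl', hμl', hcen⟩ := exists_BP (p := p) hμ
  have huR : (⟨u, huH⟩ : H) ∈ R := by
    refine hcen _ ?_ ?_
    · rw [Subgroup.mem_center_iff]
      intro g
      exact Subtype.ext ((hH g).1 g.2)
    · obtain ⟨n, hn⟩ := hu
      exact ⟨n, Subtype.ext hn⟩
  set R' : Subgroup G := R.map H.subtype with hR'
  have hRR : R'.subgroupOf H = R := comap_map_eq_self_of_injective H.subtype_injective R
  have hR'H : R' ≤ H := by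
    rintro _ ⟨x, -, rfl⟩
    exact x.2
  have huR' : u ∈ R' := ⟨_, huR, rfl⟩
  have hCH : centralizer (R' : Set G) ≤ H := by
    intro x hx
    rw [hH]
    exact (mem_centralizer_iff.1 hx u huR').symm
  have hl'' : BP p (R'.subgroupOf H) l' := by rw [hRR]; exact hl'
  have hl2 := BP.extend hR'H hCH hl''
  set l2 : (G → k) → k := fun a : G → k => l' (fun h : H => a h) with hl2def
  have hll : ∀ z : G → k, IsCF z → l2 z = l z := by
    intro z hz
    change l' (fun h : H => z h) = l z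
    rw [← hμl z hz]
    exact hμl' _ (fun g x => hz g x)
  have hR'p : IsPGroup p R' := hR.map _
  obtain ⟨g, hg, hgl⟩ := FDc hl hD hDab hT hl2 hR'p hll
  have hab : D ≤ centralizer (D : Set G) := by
    intro x hx
    rw [mem_centralizer_iff]
    intro y hy
    exact hDab y hy x hx
  obtain ⟨y, hy, hyD, hly⟩ := exists_Y hl hD hab hT
  have hRab' : ∀ a ∈ R', ∀ b ∈ R', a * b = b * a := by
    intro a ha b hb
    have h7 := hDab _ ((hg _).1 ha) _ ((hg _).1 hb)
    have h8 : g⁻¹ * (a : G) * g * (g⁻¹ * b * g) = g⁻¹ * ((a : G) * b) * g := by group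
    have h9 : g⁻¹ * (b : G) * g * (g⁻¹ * a * g) = g⁻¹ * ((b : G) * a) * g := by group
    rw [h8, h9] at h7
    exact mul_left_cancel (mul_right_cancel h7)
  have habR : R' ≤ centralizer (R' : Set G) := by
    intro x hx
    rw [mem_centralizer_iff]
    intro y hy
    exact hRab' y hy x hx
  have hT2 : ¬ p ∣ (centralizer (R' : Set G)).relIndex (stabT R' l2) :=
    stab_index_coprime hl2 hR'p hDab hy hyD (by rw [hll y hy]; exact hly)
  -- the element of the inertial group
  obtain ⟨c, hc, hn⟩ := fusionH hl2 hR'p habR hR'H hCH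
    (fun hd => hT2 (hd.trans (relIndex_stabT_lres_dvd hR'H hCH))) (g := h)
    (fun d hd => hhH d (hR'H hd)) (by
      intro z hz
      have h1 := hcon z hz
      have hcf : IsCF (fun x : H => z x) := fun t x => hz.1 t t.2 x
      have hcf2 : IsCF (fun x : H => z (h * x * h⁻¹)) := by
        intro t x
        have h1 := hz.1 (h * t * h⁻¹) (hhH t t.2) (h * x * h⁻¹)
        change z (h * ((t : G) * x * (t : G)⁻¹) * h⁻¹) = z (h * x * h⁻¹)
        rw [← h1]
        congr 1
        group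
      rw [← hμl' _ hcf, ← hμl' _ hcf2] at h1
      rw [hl2def]
      change l' (fun x : H => cj h⁻¹ z x) = l' (fun x : H => z x)
      rw [h1]
      congr 1
      funext x
      unfold cj
      rw [inv_inv])
  -- transport to `D`
  set n : G := g⁻¹ * (c⁻¹ * h) * g with hndef
  have hnT : n ∈ stabT D l := by
    rw [mem_stabT] at hn ⊢
    have hnD : n ∈ normalizer (D : Set G) := by
      rw [mem_normalizer_iff]
      intro x
      have h1 : ∀ x, x ∈ D ↔ g * x * g⁻¹ ∈ R' := by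
        intro x
        rw [hg]
        have : g⁻¹ * (g * x * g⁻¹) * g = x := by group
        rw [this]
      change x ∈ D ↔ n * x * n⁻¹ ∈ D
      rw [h1, h1]
      have h2 := mem_normalizer_iff.1 hn.1 (g * x * g⁻¹)
      have h3 : g * (n * x * n⁻¹) * g⁻¹ = c⁻¹ * h * (g * x * g⁻¹) * (c⁻¹ * h)⁻¹ := by
        rw [hndef]; group
      rw [h3]
      exact h2
    refine ⟨hnD, fun z hz => ?_⟩
    have h1 := hn.2 _ (hz.cjG hg)
    rw [← hgl z hz, ← hgl _ (hz.cj hnD), ← cj_mul, hndef]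
    rw [← cj_mul] at h1
    rw [← h1]
    congr 2
    group
  have hvD : g⁻¹ * u * g ∈ D := (hg u).1 huR'
  have hpw : ∀ i : ℕ, (g⁻¹ * u * g) ^ i = g⁻¹ * u ^ i * g := by
    intro i
    have := conj_pow (i := i) (a := g⁻¹) (b := u)
    rwa [inv_inv] at this
  suffices hvm : (g⁻¹ * u * g) ^ m = g⁻¹ * u * g by
    rw [hpw] at hvm
    exact hu1 (mul_left_cancel (mul_right_cancel hvm))
  refine hpow n hnT _ hvD ?_
  have h1 : (g⁻¹ * u * g) ^ m = g⁻¹ * u ^ m * g := by
    have := conj_pow (i := m) (a := g⁻¹) (b := u)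
    rwa [inv_inv] at this
  have h2 : c * u ^ m = u ^ m * c := by
    have : Commute c u := (hH c).1 hc
    exact this.pow_right m
  rw [h1, hndef]
  calc g⁻¹ * (c⁻¹ * h) * g * (g⁻¹ * u * g) * (g⁻¹ * (c⁻¹ * h) * g)⁻¹ =
      g⁻¹ * (c⁻¹ * (h * u * h⁻¹) * c) * g := by group
    _ = g⁻¹ * (c⁻¹ * (u ^ m * c)) * g := by rw [hh]; group
    _ = g⁻¹ * u ^ m * g := by rw [← h2]; group

/-- (K7) for the elements with `u ^ m ≠ u` -/
theorem K7h {D : Subgroup G} {l : (G → k) → k} (hl : BP p D l) (hD : IsPGroup p D)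
    (hDab : ∀ a ∈ D, ∀ b ∈ D, a * b = b * a)
    (hT : ¬ p ∣ (centralizer (D : Set G)).relIndex (stabT D l)) {m : ℕ}
    (hm : m.Coprime (Nat.card G))
    (hpow : ∀ n ∈ stabT D l, ∀ v ∈ D, n * v * n⁻¹ = v ^ m → v ^ m = v) : K7Pm p red l m := by
  intro u hu hu1 h hh H hH ψ hψ
  exact K7h' hl hD hDab hT hm hpow hu hu1 hh hH (isHomCF_lam red ψ) hψ

/-- the number of simple modules of a block with abelian defect group is at most the number of
its `m`-rational characters -/
theorem numSimpleIn_le_Srat_full {B : MonoidAlgebra k G} (hB : IsBlock B) {D : Subgroup G}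
    (hDp : IsPGroup p D) (hab : ∀ a ∈ D, ∀ b ∈ D, a * b = b * a)
    {l : (G → k) → k} (hl : BP p D l) (hlz : ∀ z : G → k, IsCF z → l z = centralChar B (mkF z))
    (hT : ¬ p ∣ (centralizer (D : Set G)).relIndex (stabT D l)) {m : ℕ}
    (hmc : m.Coprime (Nat.card G)) (hm1 : m ≡ 1 [MOD ordCompl[p] (Nat.card G)])
    (hpow : ∀ n ∈ stabT D l, ∀ v ∈ D, n * v * n⁻¹ = v ^ m → v ^ m = v) :
    numSimpleIn B ≤ (Srat red m B).card := by
  have hlB : ∀ χ : Irr G, InL red l χ.1 ↔ CharInBlock red χ.1 B := inL_iff red hB hlz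
  have h1 : ∀ χ ∈ IrrB red B, (fun g => χ (g ^ m)) ∈ IrrB red B := by
    intro χ hχ
    simp only [P179X.IrrB, mem_filter, P179X.mem_Irr] at hχ ⊢
    refine ⟨irr_pow hχ.1 hmc, ?_⟩
    exact charInBlock_of_reg p red hχ.1 (irr_pow hχ.1 hmc)
      (fun g hg => by rw [pow_eq_of_regular hm1 hg]) hχ.2
  exact P7m red hB l hlB m hmc hm1 h1 (K7h red hl hDp hab hT hmc hpow)

/-- **the number of simple modules is at most the number of `m`-rational characters** -/
theorem numSimpleIn_le_X1_full {B : MonoidAlgebra k G} (hB : IsBlock B) {D : Subgroup G}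
    (hD : IsDefectGroup B D) (hDp : IsPGroup p D) (hab : ∀ a ∈ D, ∀ b ∈ D, a * b = b * a)
    {l : (G → k) → k} (hl : BP p D l) (hlz : ∀ z : G → k, IsCF z → l z = centralChar B (mkF z))
    {m : ℕ} (hmc : m.Coprime (Nat.card G)) (hm1 : m ≡ 1 [MOD ordCompl[p] (Nat.card G)])
    (hpow : ∀ n ∈ stabT D l, ∀ v ∈ D, n * v * n⁻¹ = v ^ m → v ^ m = v) :
    numSimpleIn B ≤ (X1 red l m).card := by
  have hlB : ∀ χ : Irr G, InL red l χ.1 ↔ CharInBlock red χ.1 B := inL_iff red hB hlz
  have h1 := numSimpleIn_le_Srat_full red hB hDp hab hl hlz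
    (hT_of_block hB hD hDp hab hl hlz) hmc hm1 hpow
  refine h1.trans ?_
  have hSmem : ∀ χ ∈ Srat red m B, IsIrrChar χ ∧ CharInBlock red χ B ∧
      ∀ g, χ (g ^ m) = χ g := by
    intro χ hχ
    simp only [P179X.Srat, P179X.IrrB, mem_filter, P179X.mem_Irr] at hχ
    exact ⟨hχ.1.1, hχ.1.2, hχ.2⟩
  refine le_trans (Finset.card_le_card fun χ hχ => ?_)
    (Finset.card_image_le (s := X1 red l m) (f := fun χ : Irr G => χ.1))
  have h2 := hSmem χ hχ
  exact Finset.mem_image.2 ⟨⟨χ, h2.1⟩, (mem_X1 red).2 ⟨(hlB _).2 h2.2.1, h2.2.2⟩, rfl⟩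

end K7

end P179H872
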