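import Vale.Agent.P179.R2.H12.Half
import Vale.Agent.P179.R2.H872.Line2

/-!
# The number of simple modules of a block covering a nilpotent block: reduction to the stabiliser
-/

namespace P179H872

open Subgroup Finset P179H524 P179C P179A P179P P179Y P179H12

open scoped Classical

universe u

section

variable {p : ℕ} [hp : Fact p.Prime] {k : Type u} [Field k] [IsAlgClosed k] [CharP k p]
  {G : Type} [Group G] [Fintype G] {D H : Subgroup G} {l : (G → k) → k}

/-- the block `b` of `H` as an element of the group algebra of `H` in its stabiliser -/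
noncomputable def cS (H : Subgroup G) (l : (G → k) → k) (b : MonoidAlgebra k H) :
    MonoidAlgebra k (H.subgroupOf (stH H l)) :=
  mkF fun x : H.subgroupOf (stH H l) => bF H b ((x : stH H l) : G)

omit [IsAlgClosed k] [CharP k p] hp in
theorem coeff_cS (b : MonoidAlgebra k H) (x : H.subgroupOf (stH H l)) :
    (cS H l b).coeff x = bF H b ((x : stH H l) : G) := by
  rw [cS, coeff_mkF]

/-- **the packaging**: the data of the stabiliser -/
theorem cover_data (red : integralClosure ℤ ℂ →+* k) [hHn : H.Normal]
    {B : MonoidAlgebra k G} (hB : IsBlock B) (hBH : ∀ x, x ∉ H → B.coeff x = 0)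
    (hl : BP p D l) (hD : IsPGroup p D) (hab : D ≤ centralizer (D : Set G))
    (hlB : ∀ z, IsCF z → l z = centralChar B (mkF z))
    (hT : ¬ p ∣ (centralizer (D : Set G)).relIndex (stabT D l)) (hDH : D ≤ H)
    (hCH : centralizer (D : Set G) ≤ H)
    (hnil : ∀ n ∈ stabT D l, n ∈ H → n ∈ centralizer (D : Set G))
    {b : MonoidAlgebra k H} (hb : IsBlock b) (hlb : Low H l b) :
    ¬ p ∣ (H.subgroupOf (stH H l)).index ∧
      cS H l b ∈ Subalgebra.center k (MonoidAlgebra k (H.subgroupOf (stH H l))) ∧
      cS H l b * cS H l b = cS H l b ∧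
      inc (H.subgroupOf (stH H l)) (cS H l b) ∈
        Subalgebra.center k (MonoidAlgebra k (stH H l)) ∧
      numSimpleIn (cS H l b) = 1 ∧
      numSimpleIn B = numSimpleIn (inc (H.subgroupOf (stH H l)) (cS H l b)) := by
  have hml : MulH H l := BP.mulH hl hD hab hCH
  have hcov := cover H hB hBH hml hlB hb hlb
  have hb1 := numSimple_low red hl hD hab hDH hCH hnil hb hlb
  have hidx := relIndex_stH hl hD hab hT hDH hCH hnil
  have hN : ∀ g : G, g ∈ normalizer (H : Set G) := by
    intro g
    rw [normalizer_eq_top]
    exact mem_top g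
  have hHT : H ≤ stH H l := le_stH
  have heT : ∀ t ∈ stH H l, ∀ x, bF H b (t * x * t⁻¹) = bF H b x := by
    intro t ht x
    have h1 := (mem_stH_iff hml hb hlb (hN t⁻¹)).1 (inv_mem ht)
    have h2 := congrFun h1 x
    unfold cj at h2
    rwa [inv_inv] at h2
  have horth : ∀ g, g ∉ stH H l → conv (bF H b) (cj g (bF H b)) = 0 := fun g hg =>
    conv_cj_eq_zero hml hb hlb (hN g) hg
  have heH : ∀ x, x ∉ H → bF H b x = 0 := (invOn_bF hb.1).2
  have hee : conv (bF H b) (bF H b) = bF H b := conv_bF_self hb
  unfold cS
  generalize hTdef : stH H l = T at *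
  have hedef : bF H b = ext H fun h => b.coeff h := rfl
  generalize bF H b = e at *
  have heTs : ∀ x, x ∉ T → e x = 0 := fun x hx => heH x fun h => hx (hHT h)
  -- the element of `kT`
  set cT : MonoidAlgebra k T := mkF fun t : T => e t with hcT
  have hcTc : cT ∈ Subalgebra.center k (MonoidAlgebra k T) := mkF_mem fun t x => heT t t.2 x
  have hincT : inc T cT = mkF e := inc_mkF T e heTs
  have hcT2 : cT * cT = cT := by
    apply inc_injective T
    rw [map_mul, hincT, ← mkF_conv, hee]
  have hfr : numSimpleIn B = numSimpleIn cT := by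
    refine fong_reynolds p hcTc hcT2 hB.1 hB.2.1 (fun g hg => ?_) ?_
    · rw [hincT]
      have h1 : mkF e * MonoidAlgebra.single g 1 * mkF e =
          mkF e * conjBy g (mkF e) * MonoidAlgebra.single g 1 := by
        unfold conjBy
        simp only [mul_assoc]
        rw [MonoidAlgebra.single_mul_single, inv_mul_cancel, one_mul, ← MonoidAlgebra.one_def,
          mul_one]
      have h2 : conjBy g (mkF e) = mkF (cj g e) := by
        ext x
        rw [coeff_mkF]
        unfold conjBy cj
        rw [MonoidAlgebra.coeff_mul_single_apply, MonoidAlgebra.coeff_single_mul_apply, coeff_mkF]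
        simp [mul_assoc]
      rw [h1, h2, ← mkF_conv, horth g hg]
      have h3 : mkF (0 : G → k) = 0 := by
        ext x
        rw [coeff_mkF]
        rfl
      rw [h3, zero_mul]
    · rw [finsum_eq_sum_of_fintype, hincT]
      ext x
      rw [MonoidAlgebra.coeff_sum, Finsupp.finsetSum_apply]
      refine (congrFun hcov x).trans ?_
      unfold trG
      refine Finset.sum_congr rfl fun c _ => ?_
      unfold conjBy
      rw [MonoidAlgebra.coeff_mul_single_apply, MonoidAlgebra.coeff_single_mul_apply, coeff_mkF]
      simp [mul_assoc]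
  -- the element of `kH`
  set N : Subgroup T := H.subgroupOf T with hNdef
  set c : MonoidAlgebra k N := mkF fun x : N => e (x : T) with hc
  have hincN : inc N c = cT := by
    refine inc_mkF N (fun t : T => e t) fun x hx => ?_
    exact heH _ fun h => hx (mem_subgroupOf.2 h)
  have hcc : c ∈ Subalgebra.center k (MonoidAlgebra k N) :=
    mkF_mem fun t x => heT _ (t : T).2 _
  have hc2 : c * c = c := by
    apply inc_injective N
    rw [map_mul, hincN, hcT2]
  have hc1 : numSimpleIn c = 1 := by
    rw [← hb1]
    refine P179H854.numSimpleIn_of_equiv (subgroupOfEquivOfLe hHT).symm _ _ ?_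
    ext y
    obtain ⟨x, rfl⟩ := (subgroupOfEquivOfLe hHT).symm.surjective y
    rw [P179H854.coeff_mapDomain_equiv, hc, coeff_mkF, hedef]
    exact (ext_coe H (fun h => b.coeff h) x).symm
  refine ⟨?_, hcc, hc2, ?_, hc1, ?_⟩
  · have : N.index = H.relIndex T := rfl
    rw [this, hidx]
    exact hT
  · rw [hincN]
    exact hcTc
  · rw [hincN]
    exact hfr

end

end P179H872
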