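import Vale.Agent.P179.R2.H872.Count

/-!
# The pairing attached to a stable simple module
-/

namespace P179H872

open P179H524 P179C P179A P179R Finset MonoidAlgebra

open P179C.C2 (Om cls phi)

universe u

section pairing

variable {k : Type u} [Field k] {Γ : Type} [Group Γ] {N : Subgroup Γ} [hN : N.Normal] {n : ℕ}
  (ρ : N →* (Matrix (Fin n) (Fin n) k)ˣ)

/-- `a` is the value of the pairing at `(y, x)` -/
def IsPair (y x : Γ) (a : kˣ) : Prop :=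
  ∀ X ∈ IP ρ, ∀ Y ∈ IP ρ, X.1 = x → Y.1 = y → ∃ m : N, Y * X * Y⁻¹ * X⁻¹ = nu ρ m * scal a

open scoped Classical in
/-- the pairing -/
noncomputable def al (y x : Γ) : k := if h : ∃ a : kˣ, IsPair ρ y x a then h.choose else 1

omit hN in
theorem nu_scal_inj [NeZero n] {m m' : N} {a a' : kˣ} (h : nu ρ m * scal a = nu ρ m' * scal a') :
    a = a' := by
  have h1 : m = m' := by
    have h2 := congrArg Prod.fst h
    simp only [Prod.fst_mul, nu_fst, scal, mul_one] at h2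
    exact Subtype.ext h2
  rw [h1] at h
  have h3 : (scal a : Γ × (Matrix (Fin n) (Fin n) k)ˣ) = scal a' := mul_left_cancel h
  have h4 := congrArg (fun b : Γ × (Matrix (Fin n) (Fin n) k)ˣ =>
    ((b.2 : (Matrix (Fin n) (Fin n) k)ˣ) : Matrix (Fin n) (Fin n) k) 0 0) h3
  apply Units.ext
  have h5 : ∀ b : kˣ, (((scal b : Γ × (Matrix (Fin n) (Fin n) k)ˣ).2 :
      (Matrix (Fin n) (Fin n) k)ˣ) : Matrix (Fin n) (Fin n) k) 0 0 = b := by
    intro b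
    change algebraMap k (Matrix (Fin n) (Fin n) k) b 0 0 = b
    rw [Matrix.algebraMap_matrix_apply, if_pos rfl]
    rfl
  rw [h5, h5] at h4
  exact h4

theorem scal_mul (a b : kˣ) : (scal (a * b) : Γ × (Matrix (Fin n) (Fin n) k)ˣ) =
    scal a * scal b := by
  refine Prod.ext ?_ ?_
  · simp [scal]
  · simp [scal]

theorem scal_one : (scal 1 : Γ × (Matrix (Fin n) (Fin n) k)ˣ) = 1 := by
  refine Prod.ext ?_ ?_
  · simp [scal]
  · simp [scal]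

theorem scal_inv (a : kˣ) : (scal a⁻¹ : Γ × (Matrix (Fin n) (Fin n) k)ˣ) = (scal a)⁻¹ := by
  rw [eq_inv_iff_mul_eq_one, ← scal_mul, inv_mul_cancel, scal_one]

section hyp

variable [NeZero n]
  (hspan : Submodule.span k (Set.range fun m : N => ((ρ m : Matrix (Fin n) (Fin n) k))) = ⊤)
  (hex : ∀ x : Γ, ∃ a ∈ IP ρ, a.1 = x)

include hspan in
theorem comm_scal {X Y X' Y' : Γ × (Matrix (Fin n) (Fin n) k)ˣ} (hX : X ∈ IP ρ) (hY : Y ∈ IP ρ)
    (hX' : X' ∈ IP ρ) (hY' : Y' ∈ IP ρ) (h1 : X.1 = X'.1) (h2 : Y.1 = Y'.1) :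
    Y' * X' * Y'⁻¹ * X'⁻¹ = Y * X * Y⁻¹ * X⁻¹ := by
  obtain ⟨c, rfl⟩ := schur ρ hspan hX hX' h1
  obtain ⟨d, rfl⟩ := schur ρ hspan hY hY' h2
  have h3 := scal_comm (Γ := Γ) (n := n) c
  have h4 := scal_comm (Γ := Γ) (n := n) d
  have h5 : ∀ a : Γ × (Matrix (Fin n) (Fin n) k)ˣ, (scal d)⁻¹ * a = a * (scal d)⁻¹ := by
    intro a
    rw [← scal_inv]
    exact scal_comm _ _
  have h6 : ∀ a : Γ × (Matrix (Fin n) (Fin n) k)ˣ, (scal c)⁻¹ * a = a * (scal c)⁻¹ := by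
    intro a
    rw [← scal_inv]
    exact scal_comm _ _
  calc Y * scal d * (X * scal c) * (Y * scal d)⁻¹ * (X * scal c)⁻¹
      = Y * (scal d * (X * (scal c * (scal d)⁻¹))) * Y⁻¹ * ((scal c)⁻¹ * X⁻¹) := by group
    _ = Y * ((X * (scal c * (scal d)⁻¹)) * scal d) * Y⁻¹ * ((scal c)⁻¹ * X⁻¹) := by rw [h4]
    _ = Y * X * (scal c * Y⁻¹) * ((scal c)⁻¹ * X⁻¹) := by group
    _ = Y * X * (Y⁻¹ * scal c) * ((scal c)⁻¹ * X⁻¹) := by rw [h3]
    _ = Y * X * Y⁻¹ * X⁻¹ := by group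

include hspan hex in
theorem exists_pair {y x : Γ} (h : y * x * y⁻¹ * x⁻¹ ∈ N) : ∃ a : kˣ, IsPair ρ y x a := by
  obtain ⟨X, hX, hx⟩ := hex x
  obtain ⟨Y, hY, hy⟩ := hex y
  obtain ⟨a, ha⟩ := schur ρ hspan (a := nu ρ ⟨_, h⟩) (b := Y * X * Y⁻¹ * X⁻¹) (nu_mem ρ _)
    (mul_mem (mul_mem (mul_mem hY hX) (inv_mem hY)) (inv_mem hX)) (by
      rw [nu_fst]
      simp only [Prod.fst_mul, Prod.fst_inv, hx, hy])
  refine ⟨a, fun X' hX' Y' hY' h1 h2 => ⟨⟨_, h⟩, ?_⟩⟩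
  rw [← ha]
  exact comm_scal ρ hspan hX hY hX' hY' (by rw [h1, hx]) (by rw [h2, hy])

include hspan hex in
theorem isPair_al {y x : Γ} (h : y * x * y⁻¹ * x⁻¹ ∈ N) :
    ∃ a : kˣ, IsPair ρ y x a ∧ (a : k) = al ρ y x := by
  have h1 := exists_pair ρ hspan hex h
  refine ⟨h1.choose, h1.choose_spec, ?_⟩
  rw [al, dif_pos h1]

include hex in
theorem IsPair.unique {y x : Γ} {a b : kˣ} (ha : IsPair ρ y x a) (hb : IsPair ρ y x b) :
    a = b := by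
  obtain ⟨X, hX, hx⟩ := hex x
  obtain ⟨Y, hY, hy⟩ := hex y
  obtain ⟨m, hm⟩ := ha X hX Y hY hx hy
  obtain ⟨m', hm'⟩ := hb X hX Y hY hx hy
  exact nu_scal_inj ρ (hm.symm.trans hm')

include hspan hex in
theorem al_eq {y x : Γ} {a : kˣ} (h : IsPair ρ y x a) : al ρ y x = a := by
  have h1 : ∃ a : kˣ, IsPair ρ y x a := ⟨a, h⟩
  have h2 := IsPair.unique ρ hex h h1.choose_spec
  rw [al, dif_pos h1, ← h2]

include hspan hex in
theorem al_ne_zero {y x : Γ} (h : y * x * y⁻¹ * x⁻¹ ∈ N) : al ρ y x ≠ 0 := by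
  obtain ⟨a, _, ha⟩ := isPair_al ρ hspan hex h
  rw [← ha]
  exact a.ne_zero

include hspan hex in
/-- regularity in terms of the pairing -/
theorem isReg_iff {x : Γ} : IsReg ρ x ↔ ∀ y : Γ, y * x * y⁻¹ * x⁻¹ ∈ N → al ρ y x = 1 := by
  constructor
  · intro h y hy
    have h1 : IsPair ρ y x 1 := by
      intro X hX Y hY hx hy'
      obtain ⟨m, hm⟩ := h X hX Y hY hx (by rw [hx, hy']; exact hy)
      exact ⟨m, by rw [hm, scal_one, mul_one]⟩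
    rw [al_eq ρ hspan hex h1, Units.val_one]
  · intro h X hX Y hY hx hm
    rw [hx] at hm
    obtain ⟨a, ha, ha'⟩ := isPair_al ρ hspan hex hm
    rw [h _ hm] at ha'
    have ha1 : a = 1 := Units.ext ha'
    obtain ⟨m, hm'⟩ := ha X hX Y hY hx rfl
    exact ⟨m, by rw [hm', ha1, scal_one, mul_one]⟩

include hspan hex in
theorem al_symm {y x : Γ} (h : y * x * y⁻¹ * x⁻¹ ∈ N) : al ρ y x * al ρ x y = 1 := by
  obtain ⟨a, ha, ha'⟩ := isPair_al ρ hspan hex h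
  have h1 : IsPair ρ x y a⁻¹ := by
    intro Y hY X hX hy hx
    obtain ⟨m, hm⟩ := ha X hX Y hY hx hy
    refine ⟨m⁻¹, ?_⟩
    have h2 : X * Y * X⁻¹ * Y⁻¹ = (Y * X * Y⁻¹ * X⁻¹)⁻¹ := by group
    rw [h2, hm, mul_inv_rev, ← scal_inv, map_inv, scal_comm]
  rw [al_eq ρ hspan hex h1, ← ha', ← Units.val_mul, mul_inv_cancel, Units.val_one]

include hspan hex in
theorem al_self (x : Γ) : al ρ x x = 1 := by
  have h1 : IsPair ρ x x 1 := by
    intro X hX Y hY hx hy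
    refine ⟨1, ?_⟩
    rw [comm_scal ρ hspan hX hX hX hY rfl (by rw [hx, hy]), scal_one, map_one]
    group
  rw [al_eq ρ hspan hex h1, Units.val_one]

include hspan hex in
theorem al_mul {y x x' : Γ} (h : y * x * y⁻¹ * x⁻¹ ∈ N) (h' : y * x' * y⁻¹ * x'⁻¹ ∈ N) :
    al ρ y (x * x') = al ρ y x * al ρ y x' := by
  obtain ⟨a, ha, ha'⟩ := isPair_al ρ hspan hex h
  obtain ⟨b, hb, hb'⟩ := isPair_al ρ hspan hex h'
  obtain ⟨X, hX, hx⟩ := hex x
  obtain ⟨X', hX', hx'⟩ := hex x'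
  have h1 : IsPair ρ y (x * x') (a * b) := by
    intro Z hZ Y hY hz hy
    obtain ⟨m, hm⟩ := ha X hX Y hY hx hy
    obtain ⟨m', hm'⟩ := hb X' hX' Y hY hx' hy
    refine ⟨m * MulAut.conjNormal X.1 m', ?_⟩
    rw [comm_scal ρ hspan (mul_mem hX hX') hY hZ hY (by rw [hz, Prod.fst_mul, hx, hx']) rfl]
    have h2 : Y * (X * X') * Y⁻¹ * (X * X')⁻¹ =
        (Y * X * Y⁻¹ * X⁻¹) * (X * (Y * X' * Y⁻¹ * X'⁻¹) * X⁻¹) := by group
    rw [h2, hm, hm', map_mul, ← conj_nu ρ hX, scal_mul]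
    have h3 : X * (nu ρ m' * scal b) * X⁻¹ = X * nu ρ m' * X⁻¹ * scal b := by
      rw [mul_assoc, mul_assoc, scal_comm, mul_assoc, mul_assoc]
    rw [h3, mul_assoc (nu ρ m), ← mul_assoc (scal a), scal_comm]
    group
  rw [al_eq ρ hspan hex h1, Units.val_mul, ha', hb']

include hspan hex in
theorem al_of_mem_right {y x : Γ} (hx : x ∈ N) : al ρ y x = 1 := by
  have h1 : IsPair ρ y x 1 := by
    intro X hX Y hY hx' hy
    refine ⟨MulAut.conjNormal Y.1 ⟨x, hx⟩ * ⟨x, hx⟩⁻¹, ?_⟩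
    rw [comm_scal ρ hspan (nu_mem ρ ⟨x, hx⟩) hY hX hY (by rw [hx', nu_fst]) rfl, conj_nu ρ hY,
      (nu ρ).map_mul, (nu ρ).map_inv, scal_one, mul_one]
  rw [al_eq ρ hspan hex h1, Units.val_one]

include hspan hex in
theorem al_of_mem_left {y x : Γ} (hy : y ∈ N) : al ρ y x = 1 := by
  have h1 : IsPair ρ y x 1 := by
    intro X hX Y hY hx hy'
    refine ⟨⟨y, hy⟩ * MulAut.conjNormal X.1 (⟨y, hy⟩⁻¹), ?_⟩
    rw [comm_scal ρ hspan hX (nu_mem ρ ⟨y, hy⟩) hX hY rfl (by rw [hy', nu_fst]),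
      (nu ρ).map_mul, ← conj_nu ρ hX, (nu ρ).map_inv, scal_one, mul_one]
    group
  rw [al_eq ρ hspan hex h1, Units.val_one]

end hyp

end pairing

end P179H872
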