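import Vale.Agent.P179.R2.H872.Cl

/-!
# The unique simple module of a central idempotent with one simple module
-/

namespace P179H872

open P179H524 P179C P179A P179R Finset MonoidAlgebra

open P179C.C2 (Om cls phi)

universe u

section inner

variable {k : Type u} [Field k] {n : ℕ}

/-- automorphisms of matrix algebras are inner -/
theorem matrix_inner (τ : Matrix (Fin n) (Fin n) k ≃ₐ[k] Matrix (Fin n) (Fin n) k) :
    ∃ M : (Matrix (Fin n) (Fin n) k)ˣ, ∀ A, τ A = M * A * (M⁻¹ : (Matrix (Fin n) (Fin n) k)ˣ) := by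
  let f : Module.End k (Fin n → k) ≃ₐ[k] Module.End k (Fin n → k) :=
    (Matrix.toLinAlgEquiv' (R := k) (n := Fin n)).symm.trans
      (τ.trans (Matrix.toLinAlgEquiv' (R := k) (n := Fin n)))
  obtain ⟨T, hT⟩ := AlgEquiv.eq_linearEquivConjAlgEquiv f
  let M : (Matrix (Fin n) (Fin n) k)ˣ :=
    { val := LinearMap.toMatrix' (T : (Fin n → k) →ₗ[k] (Fin n → k))
      inv := LinearMap.toMatrix' (T.symm : (Fin n → k) →ₗ[k] (Fin n → k))
      val_inv := by
        rw [← LinearMap.toMatrix'_comp, LinearEquiv.comp_symm, LinearMap.toMatrix'_id]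
      inv_val := by
        rw [← LinearMap.toMatrix'_comp, LinearEquiv.symm_comp, LinearMap.toMatrix'_id] }
  refine ⟨M, fun A => ?_⟩
  apply Matrix.toLin'.injective
  have h1 : f (Matrix.toLin' A) = Matrix.toLin' (τ A) := by
    change Matrix.toLinAlgEquiv' (τ ((Matrix.toLinAlgEquiv' (R := k) (n := Fin n)).symm
      (Matrix.toLin' A))) = _
    have h2 : (Matrix.toLinAlgEquiv' (R := k) (n := Fin n)).symm (Matrix.toLin' A) = A :=
      (Matrix.toLinAlgEquiv' (R := k) (n := Fin n)).symm_apply_apply A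
    rw [h2]
    rfl
  rw [← h1, hT, LinearEquiv.conjAlgEquiv_apply, Matrix.toLin'_mul, Matrix.toLin'_mul]
  change _ = ((Matrix.toLin' (LinearMap.toMatrix' (T : (Fin n → k) →ₗ[k] (Fin n → k)))).comp
    (Matrix.toLin' A)).comp
    (Matrix.toLin' (LinearMap.toMatrix' (T.symm : (Fin n → k) →ₗ[k] (Fin n → k))))
  rw [Matrix.toLin'_toMatrix', Matrix.toLin'_toMatrix']
  rfl

/-- symmetric functionals on a matrix algebra are multiples of the trace -/
theorem exists_smul_trace [NeZero n] (Φ : Matrix (Fin n) (Fin n) k →ₗ[k] k)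
    (h : ∀ A B, Φ (A * B) = Φ (B * A)) : ∃ κ : k, ∀ A, Φ A = κ * A.trace := by
  classical
  have hE : ∀ a b : Fin n, Φ (Matrix.single a b 1) =
      if a = b then Φ (Matrix.single 0 0 1) else 0 := by
    intro a b
    have h1 : (Matrix.single a b 1 : Matrix (Fin n) (Fin n) k) =
        Matrix.single a 0 1 * Matrix.single 0 b 1 := by simp
    rw [h1, h]
    split_ifs with hab
    · subst hab
      simp
    · rw [Matrix.single_mul_single_of_ne _ _ _ _ (Ne.symm hab), map_zero]
  refine ⟨Φ (Matrix.single 0 0 1), fun A => ?_⟩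
  conv_lhs => rw [Matrix.matrix_eq_sum_single A]
  rw [map_sum, Matrix.trace, Finset.mul_sum]
  refine Finset.sum_congr rfl fun a _ => ?_
  rw [map_sum, Finset.sum_eq_single a]
  · have h1 : (Matrix.single a a (A a a) : Matrix (Fin n) (Fin n) k) =
        A a a • Matrix.single a a 1 := by rw [Matrix.smul_single, smul_eq_mul, mul_one]
    rw [h1, map_smul, hE, if_pos rfl, Matrix.diag_apply, smul_eq_mul, mul_comm]
  · intro b _ hab
    have h1 : (Matrix.single a b (A a b) : Matrix (Fin n) (Fin n) k) =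
        A a b • Matrix.single a b 1 := by rw [Matrix.smul_single, smul_eq_mul, mul_one]
    rw [h1, map_smul, hE, if_neg (Ne.symm hab), smul_zero]
  · intro h
    exact absurd (Finset.mem_univ a) h

end inner

section rho

variable {k : Type u} [Field k] {H : Type} [Group H] [Finite H]

/-- data of the unique simple module -/
theorem exists_rho [IsAlgClosed k] {c : MonoidAlgebra k H}
    (hc : c ∈ Subalgebra.center k (MonoidAlgebra k H)) (hc2 : c * c = c)
    (h1 : numSimpleIn c = 1) : ∃ (n : ℕ) (_ : NeZero n)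
      (A : MonoidAlgebra k H →ₐ[k] Matrix (Fin n) (Fin n) k),
      Function.Surjective A ∧ A c = 1 ∧
        ∀ a, A a = 0 ↔ a * c ∈ Ring.jacobson (MonoidAlgebra k H) := by
  classical
  obtain ⟨r, d, hd, f, hf, hker⟩ := exists_wedderburn k H
  obtain ⟨l, hl⟩ := C2.exists_scalar f hf c hc
  rw [C2.numSimpleIn_eq_card f hf hker c l hl, Nat.card_eq_one_iff_exists] at h1
  obtain ⟨⟨i, hi⟩, hu⟩ := h1
  have hrad : ∀ x ∈ Ring.jacobson (MonoidAlgebra k H), f x i = 0 := by
    intro x hx
    have := compRep_isIrreducible f hf i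
    have h2 := asAlgebraHom_eq_zero_of_mem_jacobson (compRep f i) x hx
    rw [compRep_asAlgebraHom] at h2
    exact Matrix.toLin'.injective (by rw [h2, map_zero])
  refine ⟨d i, hd i, (Pi.evalAlgHom k _ i).comp f, ?_, ?_, ?_⟩
  · intro M
    obtain ⟨x, hx⟩ := hf (Function.update 0 i M)
    refine ⟨x, ?_⟩
    change f x i = M
    rw [hx, Function.update_self]
  · change f c i = 1
    rw [hl, hi, map_one]
  · intro a
    change f a i = 0 ↔ _
    constructor
    · intro ha
      apply hker
      funext j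
      rw [map_mul, Pi.mul_apply, Pi.zero_apply]
      rcases C2.scalar_idem f c hc2 l hl j with h | h
      · rw [hl, h, map_zero, mul_zero]
      · have hj : j = i := congrArg Subtype.val (hu ⟨j, h⟩)
        subst hj
        rw [ha, zero_mul]
    · intro ha
      have h2 := hrad _ ha
      rwa [map_mul, Pi.mul_apply, hl, hi, map_one, mul_one] at h2

/-- automorphisms fixing the idempotent are implemented by matrices -/
theorem exists_inner {n : ℕ} {A : MonoidAlgebra k H →ₐ[k] Matrix (Fin n) (Fin n) k}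
    (hA : Function.Surjective A) {σ : MonoidAlgebra k H ≃ₐ[k] MonoidAlgebra k H}
    (hσ : ∀ a, A a = 0 → A (σ a) = 0) :
    ∃ M : (Matrix (Fin n) (Fin n) k)ˣ, ∀ a,
      A (σ a) = M * A a * (M⁻¹ : (Matrix (Fin n) (Fin n) k)ˣ) := by
  classical
  choose s hs using hA
  have hwd : ∀ a b, A a = A b → A (σ a) = A (σ b) := by
    intro a b hab
    rw [← sub_eq_zero, ← map_sub, ← map_sub]
    apply hσ
    rw [map_sub, hab, sub_self]
  let τ : Matrix (Fin n) (Fin n) k →ₐ[k] Matrix (Fin n) (Fin n) k :=
    AlgHom.ofLinearMap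
      { toFun := fun M => A (σ (s M))
        map_add' := fun M M' => by
          rw [← map_add, ← map_add]
          apply hwd
          rw [hs, map_add, hs, hs]
        map_smul' := fun c M => by
          rw [RingHom.id_apply, ← map_smul, ← map_smul]
          apply hwd
          rw [hs, map_smul, hs] }
      (by
        change A (σ (s 1)) = 1
        rw [hwd (s 1) 1 (by rw [hs, map_one]), map_one, map_one])
      (by
        intro M M'
        change A (σ (s (M * M'))) = A (σ (s M)) * A (σ (s M'))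
        rw [← map_mul, ← map_mul]
        apply hwd
        rw [hs, map_mul, hs, hs])
  have hτ : ∀ a, τ (A a) = A (σ a) := fun a => hwd _ _ (hs _)
  have hsurj : Function.Surjective τ := by
    intro B
    refine ⟨A (σ.symm (s B)), ?_⟩
    rw [hτ, AlgEquiv.apply_symm_apply, hs]
  have hinj : Function.Injective τ :=
    (LinearMap.injective_iff_surjective (f := τ.toLinearMap)).2 hsurj
  obtain ⟨M, hM⟩ := matrix_inner (AlgEquiv.ofBijective τ ⟨hinj, hsurj⟩)
  refine ⟨M, fun a => ?_⟩
  rw [← hM, ← hτ]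
  rfl

/-- the group homomorphism to the invertible matrices -/
noncomputable def uhom {n : ℕ} (A : MonoidAlgebra k H →ₐ[k] Matrix (Fin n) (Fin n) k) :
    H →* (Matrix (Fin n) (Fin n) k)ˣ :=
  ((A : MonoidAlgebra k H →* Matrix (Fin n) (Fin n) k).comp
    (MonoidAlgebra.of k H)).toHomUnits

theorem uhom_val {n : ℕ} (A : MonoidAlgebra k H →ₐ[k] Matrix (Fin n) (Fin n) k) (m : H) :
    ((uhom A m : (Matrix (Fin n) (Fin n) k)ˣ) : Matrix (Fin n) (Fin n) k) = A (single m 1) := rfl

theorem apply_eq_sum [Fintype H] {n : ℕ} (A : MonoidAlgebra k H →ₐ[k] Matrix (Fin n) (Fin n) k)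
    (a : MonoidAlgebra k H) : A a = ∑ m : H, a.coeff m • A (single m 1) := by
  conv_lhs => rw [sum_single a, map_sum]
  exact Finset.sum_congr rfl fun m _ => by rw [map_smul]

theorem span_uhom {n : ℕ} {A : MonoidAlgebra k H →ₐ[k] Matrix (Fin n) (Fin n) k}
    (hA : Function.Surjective A) :
    Submodule.span k (Set.range fun m : H => ((uhom A m : Matrix (Fin n) (Fin n) k))) = ⊤ := by
  have := Fintype.ofFinite H
  rw [eq_top_iff]
  intro M _
  obtain ⟨a, rfl⟩ := hA M
  rw [apply_eq_sum A a]
  exact Submodule.sum_mem _ fun m _ => Submodule.smul_mem _ _ (Submodule.subset_span ⟨m, rfl⟩)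

end rho

end P179H872
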